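import Mathlib

/-!
# P088, stage 3: jets on open sets, pointwise bounds with a weight
-/

open MeasureTheory Set
open scoped ContDiff Topology

noncomputable section

namespace Vale.Agent.P088.HY.S3

section jets

variable {E : Type*} [NormedAddCommGroup E] [NormedSpace ℝ E]

/-- Smooth on `O`; the derivatives up to the order `k` at `x ∈ O` are bounded by `a x`. -/
def Jl (O : Set E) (k : ℕ) (a : E → ℝ) (f : E → ℝ) : Prop :=
  ContDiffOn ℝ ∞ f O ∧ ∀ l ≤ k, ∀ x ∈ O, ‖iteratedFDeriv ℝ l f x‖ ≤ a x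

variable {O O' : Set E} {k k' : ℕ} {a b : E → ℝ} {f g : E → ℝ} {x : E}

theorem Jl.cda (hO : IsOpen O) (h : Jl O k a f) (hx : x ∈ O) : ContDiffAt ℝ ∞ f x :=
  h.1.contDiffAt (hO.mem_nhds hx)

theorem Jl.nonneg (h : Jl O k a f) (hx : x ∈ O) : 0 ≤ a x :=
  (norm_nonneg _).trans (h.2 0 (Nat.zero_le _) x hx)

theorem Jl.mono (h : Jl O k a f) (hab : ∀ x ∈ O, a x ≤ b x) : Jl O k b f :=
  ⟨h.1, fun l hl x hx => (h.2 l hl x hx).trans (hab x hx)⟩

theorem Jl.ord (h : Jl O k a f) (hk : k' ≤ k) : Jl O k' a f :=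
  ⟨h.1, fun l hl x hx => h.2 l (hl.trans hk) x hx⟩

theorem Jl.sub_set (h : Jl O k a f) (hO : O' ⊆ O) : Jl O' k a f :=
  ⟨h.1.mono hO, fun l hl x hx => h.2 l hl x (hO hx)⟩

theorem Jl.abs (h : Jl O k a f) (hx : x ∈ O) : |f x| ≤ a x := by
  have := h.2 0 (Nat.zero_le _) x hx
  rwa [norm_iteratedFDeriv_zero, Real.norm_eq_abs] at this

theorem Jl.congr (hO : IsOpen O) (h : Jl O k a f) (he : ∀ x ∈ O, g x = f x) : Jl O k a g := by
  refine ⟨h.1.congr he, fun l hl x hx => ?_⟩
  have : g =ᶠ[𝓝 x] f := Filter.eventuallyEq_of_mem (hO.mem_nhds hx) he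
  rw [(Filter.EventuallyEq.iteratedFDeriv ℝ this l).eq_of_nhds]
  exact h.2 l hl x hx

theorem Jl.add (hO : IsOpen O) (h : Jl O k a f) (h' : Jl O k b g) :
    Jl O k (fun x => a x + b x) (fun w => f w + g w) := by
  refine ⟨h.1.add h'.1, fun l hl x hx => ?_⟩
  have : (fun w => f w + g w) = f + g := rfl
  rw [this, iteratedFDeriv_add_apply ((h.cda hO hx).of_le (by exact_mod_cast le_top))
    ((h'.cda hO hx).of_le (by exact_mod_cast le_top))]
  exact (norm_add_le _ _).trans (add_le_add (h.2 l hl x hx) (h'.2 l hl x hx))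

theorem Jl.neg (h : Jl O k a f) : Jl O k a (fun w => - f w) := by
  refine ⟨h.1.neg, fun l hl x hx => ?_⟩
  have : (fun w => - f w) = -f := rfl
  rw [this, iteratedFDeriv_neg_apply, norm_neg]
  exact h.2 l hl x hx

theorem Jl.sub (hO : IsOpen O) (h : Jl O k a f) (h' : Jl O k b g) :
    Jl O k (fun x => a x + b x) (fun w => f w - g w) := by
  simp only [sub_eq_add_neg]
  exact Jl.add hO h h'.neg

theorem Jl.mul (hO : IsOpen O) (h : Jl O k a f) (h' : Jl O k b g) :
    Jl O k (fun x => 2 ^ k * (a x * b x)) (fun w => f w * g w) := by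
  refine ⟨h.1.mul h'.1, fun l hl x hx => ?_⟩
  have ha := h.nonneg hx
  have hb := h'.nonneg hx
  have e : ∀ (m : ℕ) (f : E → ℝ), iteratedFDerivWithin ℝ m f O x = iteratedFDeriv ℝ m f x :=
    fun m f => iteratedFDerivWithin_of_isOpen m hO hx
  have key := norm_iteratedFDerivWithin_mul_le (N := ∞) h.1 h'.1 hO.uniqueDiffOn hx (n := l)
    (by exact_mod_cast le_top)
  simp only [e] at key
  refine key.trans ?_
  calc ∑ i ∈ Finset.range (l + 1), (l.choose i : ℝ) * ‖iteratedFDeriv ℝ i f x‖ *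
        ‖iteratedFDeriv ℝ (l - i) g x‖
      ≤ ∑ i ∈ Finset.range (l + 1), (l.choose i : ℝ) * (a x * b x) := by
        apply Finset.sum_le_sum
        intro i hi
        have hi' : i ≤ l := Nat.lt_succ_iff.mp (Finset.mem_range.mp hi)
        rw [mul_assoc]
        apply mul_le_mul_of_nonneg_left _ (Nat.cast_nonneg _)
        exact mul_le_mul (h.2 i (hi'.trans hl) x hx) (h'.2 (l - i) ((Nat.sub_le _ _).trans hl) x hx)
          (norm_nonneg _) ha
    _ = 2 ^ l * (a x * b x) := by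
        rw [← Finset.sum_mul]
        congr 1
        exact_mod_cast Nat.sum_range_choose l
    _ ≤ 2 ^ k * (a x * b x) := by
        apply mul_le_mul_of_nonneg_right _ (mul_nonneg ha hb)
        exact pow_le_pow_right₀ (by norm_num) hl

theorem Jl.const (c : ℝ) : Jl O k (fun _ => |c|) (fun _ : E => c) := by
  refine ⟨contDiffOn_const, fun l _ x _ => ?_⟩
  rcases Nat.eq_zero_or_pos l with rfl | hl
  · rw [norm_iteratedFDeriv_zero, Real.norm_eq_abs]
  · rw [iteratedFDeriv_const_of_ne (Nat.pos_iff_ne_zero.mp hl)]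
    simp

theorem Jl.zero : Jl O k (fun _ => 0) (fun _ : E => (0 : ℝ)) := by
  have := Jl.const (O := O) (k := k) 0
  simpa using this

theorem Jl.const_mul (hO : IsOpen O) (c : ℝ) (h : Jl O k a f) :
    Jl O k (fun x => |c| * a x) (fun w => c * f w) := by
  refine ⟨contDiffOn_const.mul h.1, fun l hl x hx => ?_⟩
  have e : (fun w => c * f w) = c • f := by funext w; simp
  rw [e, iteratedFDeriv_const_smul_apply ((h.cda hO hx).of_le (by exact_mod_cast le_top)), norm_smul,
    Real.norm_eq_abs]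
  exact mul_le_mul_of_nonneg_left (h.2 l hl x hx) (abs_nonneg _)

theorem Jl.sum (hO : IsOpen O) {ι : Type*} (s : Finset ι) {f : ι → E → ℝ} {a : ι → E → ℝ}
    (h : ∀ i ∈ s, Jl O k (a i) (f i)) :
    Jl O k (fun x => ∑ i ∈ s, a i x) (fun w => ∑ i ∈ s, f i w) := by
  classical
  induction s using Finset.induction_on with
  | empty => simpa using Jl.zero (O := O) (k := k)
  | insert i s hi ih =>
    have h1 := h i (Finset.mem_insert_self _ _)
    have h2 := ih fun j hj => h j (Finset.mem_insert_of_mem hj)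
    simpa only [Finset.sum_insert hi] using Jl.add hO h1 h2

/-- The directional derivative. -/
theorem Jl.dir (hO : IsOpen O) (v : E) (hv : ‖v‖ ≤ 1) (h : Jl O (k + 1) a f) :
    Jl O k a (fun w => fderiv ℝ f w v) := by
  refine ⟨(h.1.fderiv_of_isOpen hO (m := ∞) (by simp)).clm_apply contDiffOn_const,
    fun l hl x hx => ?_⟩
  have hf' : ContDiffAt ℝ ∞ (fderiv ℝ f) x := (h.cda hO hx).fderiv_right (by simp)
  have e : (fun w => fderiv ℝ f w v) = (ContinuousLinearMap.apply ℝ ℝ v) ∘ (fderiv ℝ f) := by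
    funext w; rfl
  rw [e, (ContinuousLinearMap.apply ℝ ℝ v).iteratedFDeriv_comp_left hf' (by exact_mod_cast le_top)]
  refine (ContinuousLinearMap.norm_compContinuousMultilinearMap_le _ _).trans ?_
  have h1 : ‖ContinuousLinearMap.apply ℝ ℝ v‖ ≤ 1 := by
    refine ContinuousLinearMap.opNorm_le_bound _ zero_le_one fun w => ?_
    rw [ContinuousLinearMap.apply_apply, one_mul]
    exact (w.le_opNorm v).trans (mul_le_of_le_one_right (norm_nonneg _) hv)
  rw [norm_iteratedFDeriv_fderiv]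
  calc ‖ContinuousLinearMap.apply ℝ ℝ v‖ * ‖iteratedFDeriv ℝ (l + 1) f x‖
      ≤ 1 * ‖iteratedFDeriv ℝ (l + 1) f x‖ :=
        mul_le_mul_of_nonneg_right h1 (norm_nonneg _)
    _ ≤ a x := by rw [one_mul]; exact h.2 (l + 1) (by omega) x hx

end jets

section scale

variable {E : Type*} [NormedAddCommGroup E] [NormedSpace ℝ E]

/-- Jets after the change of scale `y ↦ p + t y`. -/
theorem norm_ifd_scale {O : Set E} (hO : IsOpen O) {f : E → ℝ} (hf : ContDiffOn ℝ ∞ f O) (p : E)
    {t : ℝ} (ht : 0 ≤ t) {y : E} (hy : p + t • y ∈ O) (l : ℕ) :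
    ‖iteratedFDeriv ℝ l (fun y => f (p + t • y)) y‖ ≤ t ^ l * ‖iteratedFDeriv ℝ l f (p + t • y)‖ := by
  have hA : IsOpen ((fun z => p + z) ⁻¹' O) := hO.preimage (continuous_const.add continuous_id)
  have h1 : ContDiffOn ℝ ∞ (fun z => f (p + z)) ((fun z => p + z) ⁻¹' O) :=
    hf.comp (contDiffOn_const.add contDiffOn_id) fun z hz => hz
  let L : E →L[ℝ] E := t • ContinuousLinearMap.id ℝ E
  have hL : ‖L‖ ≤ t := by
    refine ContinuousLinearMap.opNorm_le_bound _ ht fun z => ?_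
    simp only [L, smul_apply, ContinuousLinearMap.id_apply, norm_smul,
      Real.norm_eq_abs, abs_of_nonneg ht]
    exact le_rfl
  have hB : IsOpen (L ⁻¹' ((fun z => p + z) ⁻¹' O)) := hA.preimage L.continuous
  have hy' : L y ∈ (fun z => p + z) ⁻¹' O := by simpa [L] using hy
  have e : (fun y => f (p + t • y)) = (fun z => f (p + z)) ∘ L := by
    funext y; simp [L]
  have h2 := L.iteratedFDerivWithin_comp_right h1 hA.uniqueDiffOn hB.uniqueDiffOn hy'
    (i := l) (by exact_mod_cast le_top)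
  rw [iteratedFDerivWithin_of_isOpen l hB hy', iteratedFDerivWithin_of_isOpen l hA hy'] at h2
  rw [e, h2]
  refine ((iteratedFDeriv ℝ l (fun z => f (p + z)) (L y)).norm_compContinuousLinearMap_le _).trans ?_
  rw [Finset.prod_const, Finset.card_univ, Fintype.card_fin]
  have h3 : iteratedFDeriv ℝ l (fun z => f (p + z)) (L y) = iteratedFDeriv ℝ l f (p + t • y) := by
    rw [iteratedFDeriv_comp_add_left]
    simp [L]
  rw [h3, mul_comm]
  exact mul_le_mul_of_nonneg_right (pow_le_pow_left₀ (norm_nonneg _) hL l) (norm_nonneg _)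

end scale

end Vale.Agent.P088.HY.S3
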