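import Vale.Agent.P088.R2.H558.Spec
import Vale.Agent.P088.R2.H673.S3.Jl

/-!
# P088, stage 3: weighted interior estimates (scaling of row INV)
-/

open MeasureTheory Set Filter
open scoped ContDiff Matrix Topology

noncomputable section

namespace Vale.Agent.P088.HY.S3

open Vale.Agent.P088.LR

variable {n : ℕ}

theorem pd_scale {O : Set (V n)} (hO : IsOpen O) {w : V n → ℝ} (hw : ContDiffOn ℝ ∞ w O) (p : V n)
    (t : ℝ) {y : V n} (hy : p + t • y ∈ O) (i : Fin n) :
    pd i (fun y => w (p + t • y)) y = t * pd i w (p + t • y) := by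
  have hd : DifferentiableAt ℝ w (p + t • y) :=
    (hw.contDiffAt (hO.mem_nhds hy)).differentiableAt (by simp)
  have ha : HasFDerivAt (fun z : V n => p + t • z) (t • ContinuousLinearMap.id ℝ (V n)) y :=
    ((hasFDerivAt_id y).const_smul t).const_add p
  have h := (hd.hasFDerivAt.comp y ha).fderiv
  unfold pd
  have e : (fun y => w (p + t • y)) = w ∘ fun z : V n => p + t • z := rfl
  rw [e, h]
  simp

theorem cdo_pd' {O : Set (V n)} (hO : IsOpen O) {w : V n → ℝ} (hw : ContDiffOn ℝ ∞ w O)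
    (i : Fin n) : ContDiffOn ℝ ∞ (pd i w) O :=
  (hw.fderiv_of_isOpen hO (m := ∞) (by simp)).clm_apply contDiffOn_const

theorem pd_congr' {i : Fin n} {f g : V n → ℝ} {x : V n} (h : f =ᶠ[𝓝 x] g) : pd i f x = pd i g x := by
  unfold pd; rw [h.fderiv_eq]

theorem Lv_scale {O : Set (V n)} (hO : IsOpen O) {w : V n → ℝ} (hw : ContDiffOn ℝ ∞ w O)
    (s : MF n) (p : V n) (t : ℝ) {y : V n} (hy : p + t • y ∈ O) :
    Lv (fun y => s (p + t • y)) (fun y => w (p + t • y)) y = t ^ 2 * Lv s w (p + t • y) := by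
  have hA : IsOpen ((fun z : V n => p + t • z) ⁻¹' O) :=
    hO.preimage (by fun_prop)
  have h1 : ∀ i j, pd i (pd j fun y => w (p + t • y)) y = t ^ 2 * pd i (pd j w) (p + t • y) := by
    intro i j
    have e : (pd j fun y => w (p + t • y)) =ᶠ[𝓝 y] fun y => t * pd j w (p + t • y) :=
      eventuallyEq_of_mem (hA.mem_nhds hy) fun z hz => pd_scale hO hw p t hz j
    rw [pd_congr' e]
    have h2 := pd_scale hO (cdo_pd' hO hw j) p t hy i
    have hd : DifferentiableAt ℝ (fun y => pd j w (p + t • y)) y := by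
      have hd : DifferentiableAt ℝ (pd j w) (p + t • y) :=
        ((cdo_pd' hO hw j).contDiffAt (hO.mem_nhds hy)).differentiableAt (by simp)
      exact hd.comp y ((differentiableAt_id.const_smul t).const_add p)
    have h3 : pd i (fun y => t * pd j w (p + t • y)) y = t * pd i (fun y => pd j w (p + t • y)) y := by
      show fderiv ℝ (fun y => t * pd j w (p + t • y)) y _ = t * fderiv ℝ _ y _
      rw [fderiv_const_mul hd]; rfl
    rw [h3, h2]; ring
  unfold Lv
  simp only [h1]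
  rw [Finset.mul_sum]
  refine Finset.sum_congr rfl fun i _ => ?_
  rw [Finset.mul_sum]
  exact Finset.sum_congr rfl fun j _ => by ring

theorem mem_scale {p y : V n} {t : ℝ} (ht : 0 < t) :
    p + t • y ∈ Metric.ball p (2 * t) ↔ y ∈ Metric.ball (0 : V n) 2 := by
  rw [mem_ball_iff_norm, mem_ball_zero_iff, add_sub_cancel_left, norm_smul, Real.norm_eq_abs,
    abs_of_pos ht, mul_comm 2 t]
  constructor
  · intro h; exact lt_of_mul_lt_mul_left h ht.le
  · intro h; exact mul_lt_mul_of_pos_left h ht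

theorem int_scale {g : V n → ℝ} {p : V n} {t : ℝ} (ht : 0 < t)
    (hg : IntegrableOn g (Metric.ball p (2 * t))) :
    IntegrableOn (fun y => g (p + t • y)) (Metric.ball 0 2) ∧
    ∫ y in Metric.ball (0 : V n) 2, g (p + t • y) = (t ^ n)⁻¹ * ∫ x in Metric.ball p (2 * t), g x := by
  have hm : MeasurableSet (Metric.ball p (2 * t)) := Metric.isOpen_ball.measurableSet
  have hm' : MeasurableSet (Metric.ball (0 : V n) 2) := Metric.isOpen_ball.measurableSet
  have hf : Integrable ((Metric.ball p (2 * t)).indicator g) := (integrable_indicator_iff hm).2 hg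
  have e : (fun y => (Metric.ball p (2 * t)).indicator g (p + t • y)) =
      (Metric.ball (0 : V n) 2).indicator fun y => g (p + t • y) := by
    funext y
    by_cases h : y ∈ Metric.ball (0 : V n) 2
    · rw [indicator_of_mem h, indicator_of_mem ((mem_scale ht).2 h)]
    · rw [indicator_of_notMem h, indicator_of_notMem fun h' => h ((mem_scale ht).1 h')]
  have h1 : Integrable (fun z => (Metric.ball p (2 * t)).indicator g (p + z)) := hf.comp_add_left p
  have h2 := h1.comp_smul ht.ne'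
  rw [e] at h2
  refine ⟨(integrable_indicator_iff hm').1 h2, ?_⟩
  rw [← integral_indicator hm', ← integral_indicator hm, ← e,
    Measure.integral_comp_smul volume (fun z => (Metric.ball p (2 * t)).indicator g (p + z)) t,
    integral_add_left_eq_self, smul_eq_mul, abs_of_nonneg (by positivity), Module.finrank_fin_fun]

/-- The weighted interior estimate. -/
theorem wint (hI : RowINV) (n L : ℕ) : ∃ (K : ℕ) (C ε : ℝ), 0 < C ∧ 0 < ε ∧
    ∀ (O O' : Set (V n)), IsOpen O → ∀ r : ℝ, 0 < r → r ≤ 1 →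
    (∀ x ∈ O', Metric.ball x r ⊆ O) → ∀ s : MF n,
    (∀ i j, Jl O K (fun _ => ε) (fun x => s x i j - (1 : Matrix (Fin n) (Fin n) ℝ) i j)) →
    ∀ (G : V n → ℝ) (Λ : ℝ), 1 ≤ Λ → (∀ x ∈ O', ∀ y ∈ Metric.ball x r, |G y - G x| ≤ Λ * ‖y - x‖) →
    ∀ ρ : ℝ, 1 ≤ ρ → ∀ w F : V n → ℝ, ContDiffOn ℝ ∞ w O → (∀ x ∈ O, Lv s w x = F x) →
    IntegrableOn (fun x => w x ^ 2 * Real.exp (-(2 * ρ * G x))) O → ∀ M : ℝ,
    Jl O K (fun x => M * Real.exp (ρ * G x)) F →
    Jl O' L (fun x => C * (2 * ρ * Λ / r) ^ (L + n) *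
      (√(∫ x in O, w x ^ 2 * Real.exp (-(2 * ρ * G x))) + M) * Real.exp (ρ * G x)) w := by
  obtain ⟨K, C, ε, hC, hε, H⟩ := hI n L
  refine ⟨K, 3 * C, ε, by positivity, hε, ?_⟩
  intro O O' hO r hr hr1 hOO s hs G Λ hΛ hG ρ hρ w F hw hLw hwi M hF
  have hsub : O' ⊆ O := fun x hx => hOO x hx (Metric.mem_ball_self hr)
  refine ⟨hw.mono hsub, fun l hl p hp => ?_⟩
  set t : ℝ := r / (2 * ρ * Λ) with ht
  have hρ0 : 0 < ρ := by linarith
  have hΛ0 : 0 < Λ := by linarith
  have ht0 : 0 < t := by positivity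
  have hρΛ : 1 ≤ ρ * Λ := one_le_mul_of_one_le_of_one_le hρ hΛ
  have h2t : 2 * t ≤ r := by
    rw [ht, show 2 * (r / (2 * ρ * Λ)) = r / (ρ * Λ) by field_simp]
    exact div_le_self hr.le hρΛ
  have ht1 : t ≤ 1 := by linarith
  have hball : Metric.ball p (2 * t) ⊆ O := (Metric.ball_subset_ball h2t).trans (hOO p hp)
  have hexp : ∀ y ∈ Metric.ball p (2 * t), |ρ * G y - ρ * G p| ≤ 1 := by
    intro y hy
    have h1 := hG p hp y (Metric.ball_subset_ball h2t hy)
    rw [mem_ball_iff_norm] at hy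
    rw [← mul_sub, abs_mul, abs_of_pos hρ0]
    calc ρ * |G y - G p| ≤ ρ * (Λ * (2 * t)) := by
          apply mul_le_mul_of_nonneg_left _ hρ0.le
          exact h1.trans (mul_le_mul_of_nonneg_left hy.le hΛ0.le)
      _ = r := by rw [ht]; field_simp
      _ ≤ 1 := hr1
  have hmem : ∀ y ∈ Metric.ball (0 : V n) 2, p + t • y ∈ O := fun y hy =>
    hball ((mem_scale ht0).2 hy)
  set I : ℝ := ∫ x in O, w x ^ 2 * Real.exp (-(2 * ρ * G x)) with hI'
  have hI0 : 0 ≤ I := integral_nonneg fun x => by positivity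
  have hM0 : 0 ≤ M := by
    have := (hF.nonneg (hsub hp))
    exact le_of_mul_le_mul_right (by simpa using this) (Real.exp_pos (ρ * G p))
  -- the integral of `w²`
  have hcw : ContinuousOn w O := hw.continuousOn
  have hw2 : IntegrableOn (fun x => w x ^ 2) (Metric.ball p (2 * t)) := by
    have h1 : IntegrableOn (fun x => Real.exp (2 * ρ * G p + 2) *
        (w x ^ 2 * Real.exp (-(2 * ρ * G x)))) (Metric.ball p (2 * t)) :=
      (hwi.mono_set hball).const_mul _
    refine Integrable.mono' h1 ((hcw.mono hball).pow 2 |>.aestronglyMeasurable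
      Metric.isOpen_ball.measurableSet) ?_
    refine (ae_restrict_iff' Metric.isOpen_ball.measurableSet).2 (ae_of_all _ fun x hx => ?_)
    have h2 := abs_le.1 (hexp x hx)
    rw [Real.norm_eq_abs, abs_of_nonneg (sq_nonneg _)]
    calc w x ^ 2 = w x ^ 2 * Real.exp 0 := by rw [Real.exp_zero, mul_one]
      _ ≤ w x ^ 2 * Real.exp ((2 * ρ * G p + 2) + -(2 * ρ * G x)) :=
          mul_le_mul_of_nonneg_left (Real.exp_le_exp.2 (by nlinarith [h2.2])) (sq_nonneg _)
      _ = _ := by rw [Real.exp_add]; ring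
  have hw3 : ∫ x in Metric.ball p (2 * t), w x ^ 2 ≤ Real.exp (2 * ρ * G p + 2) * I := by
    have h1 : ∫ x in Metric.ball p (2 * t), w x ^ 2 ≤
        ∫ x in Metric.ball p (2 * t), Real.exp (2 * ρ * G p + 2) *
        (w x ^ 2 * Real.exp (-(2 * ρ * G x))) := by
      refine setIntegral_mono_on hw2 ((hwi.mono_set hball).const_mul _)
        Metric.isOpen_ball.measurableSet fun x hx => ?_
      have h2 := abs_le.1 (hexp x hx)
      calc w x ^ 2 = w x ^ 2 * Real.exp 0 := by rw [Real.exp_zero, mul_one]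
        _ ≤ w x ^ 2 * Real.exp ((2 * ρ * G p + 2) + -(2 * ρ * G x)) :=
            mul_le_mul_of_nonneg_left (Real.exp_le_exp.2 (by nlinarith [h2.2])) (sq_nonneg _)
        _ = _ := by rw [Real.exp_add]; ring
    refine h1.trans ?_
    rw [integral_const_mul]
    refine mul_le_mul_of_nonneg_left ?_ (Real.exp_pos _).le
    exact setIntegral_mono_set hwi (ae_of_all _ fun x => by positivity)
      (ae_of_all _ hball)
  obtain ⟨e1, e2⟩ := int_scale ht0 hw2
  -- apply the interior estimate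
  have hA : IsOpen ((fun z : V n => p + t • z) ⁻¹' O) :=
    hO.preimage (by fun_prop)
  have hcomp : ∀ {f : V n → ℝ}, ContDiffOn ℝ ∞ f O →
      ContDiffOn ℝ ∞ (fun y => f (p + t • y)) (Metric.ball 0 2) := fun hf =>
    hf.comp (ContDiff.contDiffOn (by fun_prop)) hmem
  have hsm : ∀ i j, ContDiffOn ℝ ∞ (fun x => s x i j) O := fun i j => by
    have := (hs i j).1.add (contDiffOn_const (c := (1 : Matrix (Fin n) (Fin n) ℝ) i j))
    refine this.congr fun x _ => by ring
  have key := H (fun y => s (p + t • y)) (fun i j => hcomp (hsm i j)) (fun i j m hm x hx => by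
      have h1 := norm_ifd_scale hO (hs i j).1 p ht0.le (hmem x hx) m
      refine h1.trans ?_
      have h2 := (hs i j).2 m hm _ (hmem x hx)
      calc t ^ m * ‖iteratedFDeriv ℝ m (fun x => s x i j - (1 : Matrix (Fin n) (Fin n) ℝ) i j)
            (p + t • x)‖ ≤ 1 * ε :=
            mul_le_mul (pow_le_one₀ ht0.le ht1) h2 (norm_nonneg _) zero_le_one
        _ = ε := one_mul _)
    (fun y => w (p + t • y)) (fun y => t ^ 2 * F (p + t • y)) (hcomp hw)
    (contDiffOn_const.mul (hcomp hF.1))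
    (fun y hy => by rw [Lv_scale hO hw s p t (hmem y hy), hLw _ (hmem y hy)]) e1
    (Real.exp 1 * (M * Real.exp (ρ * G p))) (fun m hm x hx => by
      have h0 := hmem x hx
      have h1 := norm_ifd_scale hO (contDiffOn_const.mul hF.1 : ContDiffOn ℝ ∞ (fun x => t ^ 2 * F x) O)
        p ht0.le h0 m
      refine h1.trans ?_
      have h2 := (Jl.const_mul hO (t ^ 2) hF).2 m hm _ h0
      have h3 := (abs_le.1 (hexp _ ((mem_scale ht0).2 hx))).2
      have h4 : Real.exp (ρ * G (p + t • x)) ≤ Real.exp 1 * Real.exp (ρ * G p) := by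
        rw [← Real.exp_add]; exact Real.exp_le_exp.2 (by linarith)
      calc t ^ m * ‖iteratedFDeriv ℝ m (fun x => t ^ 2 * F x) (p + t • x)‖
          ≤ 1 * (|t ^ 2| * (M * Real.exp (ρ * G (p + t • x)))) :=
            mul_le_mul (pow_le_one₀ ht0.le ht1) h2 (norm_nonneg _) zero_le_one
        _ ≤ 1 * (1 * (M * (Real.exp 1 * Real.exp (ρ * G p)))) := by
            rw [one_mul, one_mul]
            refine mul_le_mul ?_ (mul_le_mul_of_nonneg_left h4 hM0) (by positivity) zero_le_one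
            rw [abs_of_nonneg (by positivity)]
            exact pow_le_one₀ ht0.le ht1
        _ = _ := by ring) l hl
  -- back to `w`
  have hB : IsOpen (Metric.ball (0 : V n) 2) := Metric.isOpen_ball
  have h5 := norm_ifd_scale hB (hcomp hw) (-(t⁻¹ • p)) (t := t⁻¹) (inv_nonneg.2 ht0.le) (y := p)
    (by simp) l
  have e3 : (fun y => (fun y => w (p + t • y)) (-(t⁻¹ • p) + t⁻¹ • y)) = w := by
    funext y
    simp only [smul_add, smul_neg, smul_smul, mul_inv_cancel₀ ht0.ne', one_smul]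
    congr 1; abel
  have e4 : -(t⁻¹ • p) + t⁻¹ • p = (0 : V n) := by abel
  rw [e4] at h5
  simp only [e3] at h5
  have hT : 1 ≤ t⁻¹ := (one_le_inv₀ ht0).2 ht1
  have hint : √(∫ y in Metric.ball (0 : V n) 2, w (p + t • y) ^ 2) ≤
      t⁻¹ ^ n * (Real.exp 1 * Real.exp (ρ * G p) * √I) := by
    rw [e2]
    have h6 : (t ^ n)⁻¹ * ∫ x in Metric.ball p (2 * t), w x ^ 2 ≤
        (t⁻¹ ^ n * (Real.exp 1 * Real.exp (ρ * G p) * √I)) ^ 2 := by
      have h7 : (t ^ n)⁻¹ ≤ (t⁻¹ ^ n) ^ 2 := by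
        rw [← inv_pow]
        have : 1 ≤ t⁻¹ ^ n := one_le_pow₀ hT
        nlinarith
      have h8 : Real.exp (2 * ρ * G p + 2) * I = (Real.exp 1 * Real.exp (ρ * G p) * √I) ^ 2 := by
        rw [mul_pow, mul_pow, Real.sq_sqrt hI0, ← Real.exp_nat_mul, ← Real.exp_nat_mul,
          ← Real.exp_add]
        congr 2; push_cast; ring
      calc (t ^ n)⁻¹ * ∫ x in Metric.ball p (2 * t), w x ^ 2
          ≤ (t⁻¹ ^ n) ^ 2 * (Real.exp (2 * ρ * G p + 2) * I) :=
            mul_le_mul h7 hw3 (integral_nonneg fun x => sq_nonneg _) (by positivity)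
        _ = _ := by rw [h8]; ring
    exact (Real.sqrt_le_sqrt h6).trans (by rw [Real.sqrt_sq (by positivity)])
  have hTe : t⁻¹ = 2 * ρ * Λ / r := by rw [ht, inv_div]
  have he3 : Real.exp 1 ≤ 3 := by
    have := Real.exp_one_lt_d9; linarith
  have hTn : 1 ≤ t⁻¹ ^ n := one_le_pow₀ hT
  calc ‖iteratedFDeriv ℝ l w p‖
      ≤ t⁻¹ ^ l * ‖iteratedFDeriv ℝ l (fun y => w (p + t • y)) 0‖ := h5
    _ ≤ t⁻¹ ^ L * (C * (√(∫ y in Metric.ball (0 : V n) 2, w (p + t • y) ^ 2) +
          Real.exp 1 * (M * Real.exp (ρ * G p)))) :=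
        mul_le_mul (pow_le_pow_right₀ hT hl) key (norm_nonneg _) (by positivity)
    _ ≤ t⁻¹ ^ L * (C * (t⁻¹ ^ n * (Real.exp 1 * Real.exp (ρ * G p) * √I) +
          t⁻¹ ^ n * (Real.exp 1 * (M * Real.exp (ρ * G p))))) := by
        refine mul_le_mul_of_nonneg_left (mul_le_mul_of_nonneg_left (add_le_add hint
          (le_mul_of_one_le_left (by positivity) hTn)) hC.le) (by positivity)
    _ = (Real.exp 1 * C) * t⁻¹ ^ (L + n) * (√I + M) * Real.exp (ρ * G p) := by
        rw [pow_add]; ring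
    _ ≤ (3 * C) * t⁻¹ ^ (L + n) * (√I + M) * Real.exp (ρ * G p) := by
        gcongr
    _ = _ := by rw [hTe]

end Vale.Agent.P088.HY.S3
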