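import Vale.Agent.P088.R2.H673.S3.Sc

/-!
# P088, stage 3: the correctors of the approximate solution with a weight
-/

open MeasureTheory Set Filter
open scoped ContDiff Matrix Topology

noncomputable section

namespace Vale.Agent.P088.HY.S3

open Vale.Agent.P088.LR

variable {n : ℕ}

/-- Solvability of `L w = F` on `O` with the weight `e^{-2ρG}`. -/
def Solv (O : Set (V n)) (s : MF n) (G : V n → ℝ) (ρ A : ℝ) : Prop :=
  ∀ F : V n → ℝ, ContDiffOn ℝ ∞ F O → IntegrableOn (fun x => F x ^ 2 * Real.exp (-(2 * ρ * G x))) O →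
  ∃ w : V n → ℝ, ContDiffOn ℝ ∞ w O ∧ (∀ x ∈ O, Lv s w x = F x) ∧
    IntegrableOn (fun x => w x ^ 2 * Real.exp (-(2 * ρ * G x))) O ∧
    ∫ x in O, w x ^ 2 * Real.exp (-(2 * ρ * G x)) ≤
      A * ∫ x in O, F x ^ 2 * Real.exp (-(2 * ρ * G x))

/-- `s` is near `1` on `O`. -/
def Ns (O : Set (V n)) (K : ℕ) (ε : ℝ) (s : MF n) : Prop :=
  ∀ i j, Jl O K (fun _ => ε) (fun x => s x i j - (1 : Matrix (Fin n) (Fin n) ℝ) i j)

theorem Ns.entry {O : Set (V n)} (hO : IsOpen O) {K : ℕ} {ε : ℝ} {s : MF n} (h : Ns O K ε s)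
    (hε : ε ≤ 1) (i j : Fin n) : Jl O K (fun _ => 2) (fun x => s x i j) := by
  have h1 := Jl.add hO (h i j) (Jl.const (O := O) (k := K) ((1 : Matrix (Fin n) (Fin n) ℝ) i j))
  have h2 : |(1 : Matrix (Fin n) (Fin n) ℝ) i j| ≤ 1 := by
    rw [Matrix.one_apply]; split_ifs <;> simp
  refine (h1.mono fun x _ => ?_).congr hO fun x _ => by ring
  show ε + |(1 : Matrix (Fin n) (Fin n) ℝ) i j| ≤ 2
  linarith

theorem Ns.sub_set {O O' : Set (V n)} {K : ℕ} {ε : ℝ} {s : MF n} (h : Ns O K ε s) (hO : O' ⊆ O) :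
    Ns O' K ε s := fun i j => (h i j).sub_set hO

theorem Ns.ord {O : Set (V n)} {K K' : ℕ} {ε : ℝ} {s : MF n} (h : Ns O K ε s) (hK : K' ≤ K) :
    Ns O K' ε s := fun i j => (h i j).ord hK

theorem Ns.mono {O : Set (V n)} {K : ℕ} {ε ε' : ℝ} {s : MF n} (h : Ns O K ε s) (hK : ε ≤ ε') :
    Ns O K ε' s := fun i j => (h i j).mono fun _ _ => hK

/-- The local Lipschitz condition on `G`. -/
def LG (O' : Set (V n)) (r Λ : ℝ) (G : V n → ℝ) : Prop :=
  ∀ x ∈ O', ∀ y ∈ Metric.ball x r, |G y - G x| ≤ Λ * ‖y - x‖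

theorem Jl.pd {O : Set (V n)} (hO : IsOpen O) {k : ℕ} {a : V n → ℝ} {f : V n → ℝ}
    (h : Jl O (k + 1) a f) (i : Fin n) : Jl O k a (pd i f) :=
  Jl.dir hO _ (by rw [Pi.norm_single]; simp) h

/-- Solvability with bounds of the derivatives. -/
theorem solvJ (hI : RowINV) (n L : ℕ) : ∃ (K : ℕ) (C ε : ℝ), 0 < C ∧ 0 < ε ∧
    ∀ (O O' : Set (V n)), IsOpen O → ∀ r : ℝ, 0 < r → r ≤ 1 →
    (∀ x ∈ O', Metric.ball x r ⊆ O) → ∀ v : ℝ, 0 ≤ v → volume O ≤ ENNReal.ofReal (v ^ 2) →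
    ∀ s : MF n, Ns O K ε s → ∀ (G : V n → ℝ) (Λ : ℝ), ContinuousOn G O → 1 ≤ Λ → LG O' r Λ G →
    ∀ ρ : ℝ, 1 ≤ ρ → Solv O s G ρ 1 → ∀ (F : V n → ℝ) (M : ℝ), 0 ≤ M →
    Jl O K (fun x => M * Real.exp (ρ * G x)) F → ∃ w : V n → ℝ, ContDiffOn ℝ ∞ w O ∧
    (∀ x ∈ O, Lv s w x = F x) ∧ Jl O' L (fun x => C * (2 * ρ * Λ / r) ^ (L + n) *
      ((v + 1) * M) * Real.exp (ρ * G x)) w := by
  obtain ⟨K, C, ε, hC, hε, H⟩ := wint hI n L
  refine ⟨K, C, ε, hC, hε, ?_⟩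
  intro O O' hO r hr hr1 hOO v hv hvol s hs G Λ hGc hΛ hG ρ hρ hS F M hM hF
  have hvt : volume O < ⊤ := lt_of_le_of_lt hvol ENNReal.ofReal_lt_top
  have hcF : ContinuousOn (fun x => F x ^ 2 * Real.exp (-(2 * ρ * G x))) O :=
    (hF.1.continuousOn.pow 2).mul ((continuousOn_const.mul hGc).neg.rexp)
  have hb : ∀ x ∈ O, F x ^ 2 * Real.exp (-(2 * ρ * G x)) ≤ M ^ 2 := by
    intro x hx
    have h1 := hF.abs hx
    have h2 : F x ^ 2 ≤ (M * Real.exp (ρ * G x)) ^ 2 := by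
      rw [← sq_abs (F x)]; exact pow_le_pow_left₀ (abs_nonneg _) h1 2
    calc F x ^ 2 * Real.exp (-(2 * ρ * G x)) ≤
          (M * Real.exp (ρ * G x)) ^ 2 * Real.exp (-(2 * ρ * G x)) :=
          mul_le_mul_of_nonneg_right h2 (Real.exp_pos _).le
      _ = M ^ 2 * (Real.exp (ρ * G x) ^ 2 * Real.exp (-(2 * ρ * G x))) := by ring
      _ = M ^ 2 := by
          rw [← Real.exp_nat_mul, ← Real.exp_add]
          have : (2 : ℕ) * (ρ * G x) + -(2 * ρ * G x) = 0 := by push_cast; ring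
          rw [this, Real.exp_zero, mul_one]
  have hint : IntegrableOn (fun x => F x ^ 2 * Real.exp (-(2 * ρ * G x))) O := by
    refine Integrable.mono' (g := fun _ => M ^ 2) (integrableOn_const hvt.ne)
      (hcF.aestronglyMeasurable hO.measurableSet) ?_
    refine (ae_restrict_iff' hO.measurableSet).2 (ae_of_all _ fun x hx => ?_)
    rw [Real.norm_eq_abs, abs_of_nonneg (by positivity)]
    exact hb x hx
  obtain ⟨w, hw, hLw, hwi, hwb⟩ := hS F hF.1 hint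
  refine ⟨w, hw, hLw, ?_⟩
  have h1 : ∫ x in O, F x ^ 2 * Real.exp (-(2 * ρ * G x)) ≤ (v * M) ^ 2 := by
    have h2 : ∫ x in O, F x ^ 2 * Real.exp (-(2 * ρ * G x)) ≤ ∫ _ in O, M ^ 2 :=
      setIntegral_mono_on hint (integrableOn_const hvt.ne) hO.measurableSet hb
    refine h2.trans ?_
    rw [setIntegral_const, smul_eq_mul, Measure.real, mul_pow]
    refine mul_le_mul_of_nonneg_right ?_ (sq_nonneg _)
    exact ENNReal.toReal_le_of_le_ofReal (sq_nonneg _) hvol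
  have h3 : √(∫ x in O, w x ^ 2 * Real.exp (-(2 * ρ * G x))) ≤ v * M := by
    rw [one_mul] at hwb
    exact (Real.sqrt_le_sqrt (hwb.trans h1)).trans (by rw [Real.sqrt_sq (by positivity)])
  refine (H O O' hO r hr hr1 hOO s hs G Λ hΛ hG ρ hρ w F hw hLw hwi M hF).mono fun x _ => ?_
  have hρ0 : 0 < ρ := by linarith
  have hΛ0 : 0 < Λ := by linarith
  refine mul_le_mul_of_nonneg_right (mul_le_mul_of_nonneg_left ?_ (by positivity))
    (Real.exp_pos _).le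
  linarith

end Vale.Agent.P088.HY.S3
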