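import Vale.Agent.P088.R2.H673.S3.QA
import Vale.Agent.P088.R2.H673.QM3

/-!
# P088, stage 3: the correctors
-/

open MeasureTheory Set Filter
open scoped ContDiff Matrix Topology

noncomputable section

namespace Vale.Agent.P088.HY.S3

open Vale.Agent.P088.LR

variable {n : ℕ}

section JE

variable {O O' : Set (V n)} {E : V n → ℝ} {k k' : ℕ} {a b : ℝ} {f g : V n → ℝ}

/-- Jets bounded by `a E`. -/
def JE (O : Set (V n)) (E : V n → ℝ) (k : ℕ) (a : ℝ) (f : V n → ℝ) : Prop :=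
  Jl O k (fun x => a * E x) f

theorem JE.ord (h : JE O E k a f) (hk : k' ≤ k) : JE O E k' a f := Jl.ord h hk

theorem JE.sub_set (h : JE O E k a f) (hO : O' ⊆ O) : JE O' E k a f := Jl.sub_set h hO

theorem JE.mono (hE : ∀ x, 0 ≤ E x) (h : JE O E k a f) (hab : a ≤ b) : JE O E k b f :=
  Jl.mono h fun x _ => mul_le_mul_of_nonneg_right hab (hE x)

theorem JE.add (hO : IsOpen O) (h : JE O E k a f) (h' : JE O E k b g) :
    JE O E k (a + b) (fun w => f w + g w) :=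
  (Jl.add hO h h').mono fun x _ => le_of_eq (by ring)

theorem JE.neg (h : JE O E k a f) : JE O E k a (fun w => - f w) := Jl.neg h

theorem JE.cmul (hO : IsOpen O) (c : ℝ) (h : JE O E k a f) :
    JE O E k (|c| * a) (fun w => c * f w) :=
  (Jl.const_mul hO c h).mono fun x _ => le_of_eq (by ring)

theorem JE.mulL (hO : IsOpen O) (h : Jl O k (fun _ => b) g) (h' : JE O E k a f) :
    JE O E k (2 ^ k * (b * a)) (fun w => g w * f w) :=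
  (Jl.mul hO h h').mono fun x _ => le_of_eq (by ring)

theorem JE.sum {ι : Type*} [Fintype ι] (hO : IsOpen O) {f : ι → V n → ℝ}
    (h : ∀ i, JE O E k a (f i)) : JE O E k (Fintype.card ι * a) (fun w => ∑ i, f i w) := by
  refine (Jl.sum hO Finset.univ fun i _ => h i).mono fun x _ => le_of_eq ?_
  rw [Finset.sum_const, Finset.card_univ, nsmul_eq_mul]; ring

theorem JE.pd (hO : IsOpen O) (h : JE O E (k + 1) a f) (i : Fin n) : JE O E k a (pd i f) :=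
  Jl.pd hO h i

end JE

/-- Solvability with bounds of the derivatives, in terms of `Y = ρΛ/r (v + 1)`. -/
theorem solvY (hI : RowINV) (n L : ℕ) : ∃ (K N : ℕ) (C ε : ℝ), 0 < C ∧ 0 < ε ∧
    ∀ (O O' : Set (V n)), IsOpen O → ∀ r : ℝ, 0 < r → r ≤ 1 →
    (∀ x ∈ O', Metric.ball x r ⊆ O) → ∀ v : ℝ, 0 ≤ v → volume O ≤ ENNReal.ofReal (v ^ 2) →
    ∀ s : MF n, Ns O K ε s → ∀ (G : V n → ℝ) (Λ : ℝ), ContinuousOn G O → 1 ≤ Λ → LG O' r Λ G →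
    ∀ ρ : ℝ, 1 ≤ ρ → Solv O s G ρ 1 → ∀ (F : V n → ℝ) (M : ℝ), 0 ≤ M →
    JE O (fun x => Real.exp (ρ * G x)) K M F → ∃ w : V n → ℝ, ContDiffOn ℝ ∞ w O ∧
    (∀ x ∈ O, Lv s w x = F x) ∧
    JE O' (fun x => Real.exp (ρ * G x)) L (C * (ρ * Λ / r * (v + 1)) ^ N * M) w := by
  obtain ⟨K, C, ε, hC, hε, H⟩ := solvJ hI n L
  refine ⟨K, L + n + 1, C * 2 ^ (L + n), ε, by positivity, hε, ?_⟩
  intro O O' hO r hr hr1 hOO v hv hvol s hs G Λ hGc hΛ hG ρ hρ hS F M hM hF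
  obtain ⟨w, h1, h2, h3⟩ := H O O' hO r hr hr1 hOO v hv hvol s hs G Λ hGc hΛ hG ρ hρ hS F M hM hF
  refine ⟨w, h1, h2, h3.mono fun x _ => ?_⟩
  have hρ0 : 0 < ρ := by linarith
  have hΛ0 : 0 < Λ := by linarith
  have hX1 : 1 ≤ ρ * Λ / r := by
    rw [le_div_iff₀ hr]
    have := one_le_mul_of_one_le_of_one_le hρ hΛ
    linarith
  generalize hX : ρ * Λ / r = X at hX1
  rw [show 2 * ρ * Λ / r = 2 * X by rw [← hX]; ring]
  refine mul_le_mul_of_nonneg_right ?_ (Real.exp_pos _).le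
  have hX0 : 0 < X := by linarith
  have h4 : X ^ (L + n) * (v + 1) ≤ (X * (v + 1)) ^ (L + n + 1) := by
    rw [pow_succ, mul_pow]
    have h5 : 1 ≤ (v + 1) ^ (L + n) := one_le_pow₀ (by linarith)
    have h6 : 0 ≤ X ^ (L + n) := by positivity
    calc X ^ (L + n) * (v + 1) = X ^ (L + n) * 1 * (1 * (v + 1)) := by ring
      _ ≤ X ^ (L + n) * (v + 1) ^ (L + n) * (X * (v + 1)) :=
        mul_le_mul (mul_le_mul_of_nonneg_left h5 h6)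
          (mul_le_mul_of_nonneg_right hX1 (by linarith)) (by positivity) (by positivity)
  calc C * (2 * X) ^ (L + n) * ((v + 1) * M)
      = C * 2 ^ (L + n) * M * (X ^ (L + n) * (v + 1)) := by rw [mul_pow]; ring
    _ ≤ C * 2 ^ (L + n) * M * (X * (v + 1)) ^ (L + n + 1) :=
        mul_le_mul_of_nonneg_left h4 (by positivity)
    _ = _ := by ring

section rhs

variable {O : Set (V n)} {E : V n → ℝ} {k : ℕ} {a : ℝ}

/-- The constant of the right sides. -/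
def cR (n k : ℕ) : ℝ := 2 * (n * (n * (2 ^ k * 2)))

theorem cR_nonneg (n k : ℕ) : 0 ≤ cR n k := by unfold cR; positivity

theorem rhs_x (hO : IsOpen O) (hE : ∀ x, 0 ≤ E x) (ha : 0 ≤ a) {s k2 : MF n}
    (hs : ∀ i j, Jl O (k + 1) (fun _ => 2) (fun x => s x i j))
    (hk : ∀ i j, JE O E k a (fun x => k2 x i j)) (l : Fin n) :
    JE O E k (cR n k * a) (fun x => -∑ i, ∑ j, pd l (fun x => s x i j) x * k2 x i j) := by
  have h1 : ∀ i j, JE O E k (2 ^ k * (2 * a)) fun x => pd l (fun x => s x i j) x * k2 x i j :=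
    fun i j => JE.mulL hO (Jl.pd hO (hs i j) l) (hk i j)
  refine (JE.sum hO fun i => JE.sum hO fun j => h1 i j).neg.mono hE ?_
  rw [Fintype.card_fin]
  have : 0 ≤ (n : ℝ) * (n * (2 ^ k * (2 * a))) := by positivity
  unfold cR
  linarith

theorem rhs_d (hO : IsOpen O) (hE : ∀ x, 0 ≤ E x) {s : MF n}
    (hs : ∀ i j, Jl O k (fun _ => 2) (fun x => s x i j)) {q : Fin n → V n → ℝ}
    (hq : ∀ l, JE O E (k + 1) a (q l)) :
    JE O E k (cR n k * a) (fun x => 2 * ∑ a, ∑ b, s x a b * pd a (q b) x) := by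
  have h1 : ∀ a' b, JE O E k (2 ^ k * (2 * a)) fun x => s x a' b * pd a' (q b) x :=
    fun a' b => JE.mulL hO (hs a' b) (JE.pd hO (hq b) a')
  refine (JE.cmul hO 2 (JE.sum hO fun i => JE.sum hO fun j => h1 i j)).mono hE ?_
  rw [Fintype.card_fin, abs_of_pos (by norm_num : (0 : ℝ) < 2)]
  unfold cR
  exact le_of_eq (by ring)

theorem rhs_i (hO : IsOpen O) (hE : ∀ x, 0 ≤ E x) (ha : 0 ≤ a) {s k2 : MF n}
    (hs : ∀ i j, Jl O k (fun _ => 2) (fun x => s x i j))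
    (hk : ∀ i j, JE O E k a (fun x => k2 x i j)) :
    JE O E k (cR n k * a) (fun x => -ipm s k2 x) := by
  have h1 : ∀ i j, JE O E k (2 ^ k * (2 * a)) fun x => s x i j * k2 x i j :=
    fun i j => JE.mulL hO (hs i j) (hk i j)
  refine (JE.sum hO fun i => JE.sum hO fun j => h1 i j).neg.mono hE ?_
  rw [Fintype.card_fin]
  have : 0 ≤ (n : ℝ) * (n * (2 ^ k * (2 * a))) := by positivity
  unfold cR
  linarith

end rhs

theorem num1 {Y M ca C₁ : ℝ} {N₁ : ℕ} (hY : 1 ≤ Y) (hM : 0 ≤ M) (ha : 0 ≤ ca) (hC : 0 < C₁) :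
    M ≤ (C₁ * ca + 1) * Y ^ N₁ * M ∧ C₁ * Y ^ N₁ * (ca * M) ≤ (C₁ * ca + 1) * Y ^ N₁ * M := by
  have h1 : 1 ≤ Y ^ N₁ := one_le_pow₀ hY
  have h2 : 0 ≤ C₁ * ca := by positivity
  have h3 : 0 ≤ Y ^ N₁ * M := by positivity
  constructor
  · calc M = 1 * 1 * M := by ring
      _ ≤ (C₁ * ca + 1) * Y ^ N₁ * M := by
        refine mul_le_mul_of_nonneg_right (mul_le_mul ?_ h1 zero_le_one ?_) hM <;> linarith
  · calc C₁ * Y ^ N₁ * (ca * M) = (C₁ * ca) * (Y ^ N₁ * M) := by ring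
      _ ≤ (C₁ * ca + 1) * (Y ^ N₁ * M) := mul_le_mul_of_nonneg_right (by linarith) h3
      _ = _ := by ring

theorem num2 {Y M A D cb C₀ E : ℝ} {N₁ N₀ : ℕ} (hY : 1 ≤ Y) (hM : 0 ≤ M) (_hA : 0 ≤ A)
    (hb : 0 ≤ cb) (hC : 0 < C₀) (hD : D = E * Y ^ N₁ * M) (hMD : M ≤ D) (hAD : A ≤ D) :
    D ≤ E * (C₀ * (cb + cb) + 1) * Y ^ (N₁ + N₀) * M ∧
    C₀ * Y ^ N₀ * (cb * A) ≤ E * (C₀ * (cb + cb) + 1) * Y ^ (N₁ + N₀) * M ∧
    C₀ * Y ^ N₀ * (cb * M + cb * A) ≤ E * (C₀ * (cb + cb) + 1) * Y ^ (N₁ + N₀) * M := by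
  have hB : E * (C₀ * (cb + cb) + 1) * Y ^ (N₁ + N₀) * M
      = (C₀ * (cb + cb) + 1) * Y ^ N₀ * D := by
    rw [hD, pow_add]; ring
  rw [hB]
  have h1 : 1 ≤ Y ^ N₀ := one_le_pow₀ hY
  have hD0 : 0 ≤ D := hM.trans hMD
  have h2 : 0 ≤ C₀ * (cb + cb) := by positivity
  have h3 : 0 ≤ Y ^ N₀ * D := by positivity
  have h4 : 0 ≤ C₀ * Y ^ N₀ := by positivity
  have h5 : C₀ * Y ^ N₀ * (cb * M + cb * A) ≤ (C₀ * (cb + cb) + 1) * Y ^ N₀ * D := by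
    calc C₀ * Y ^ N₀ * (cb * M + cb * A) ≤ C₀ * Y ^ N₀ * (cb * D + cb * D) :=
        mul_le_mul_of_nonneg_left (add_le_add (mul_le_mul_of_nonneg_left hMD hb)
          (mul_le_mul_of_nonneg_left hAD hb)) h4
      _ = (C₀ * (cb + cb)) * (Y ^ N₀ * D) := by ring
      _ ≤ (C₀ * (cb + cb) + 1) * (Y ^ N₀ * D) := mul_le_mul_of_nonneg_right (by linarith) h3
      _ = _ := by ring
  refine ⟨?_, ?_, h5⟩
  · calc D = 1 * 1 * D := by ring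
      _ ≤ (C₀ * (cb + cb) + 1) * Y ^ N₀ * D := by
        refine mul_le_mul_of_nonneg_right (mul_le_mul ?_ h1 zero_le_one ?_) hD0 <;> linarith
  · refine le_trans (mul_le_mul_of_nonneg_left ?_ h4) h5
    have : 0 ≤ cb * M := by positivity
    linarith

/-- The correctors. -/
theorem correctors (hI : RowINV) (n L : ℕ) : ∃ (K N : ℕ) (C ε : ℝ), 0 < C ∧ 0 < ε ∧
    ∀ (O O1 O2 : Set (V n)), IsOpen O → IsOpen O1 → IsOpen O2 → ∀ r : ℝ, 0 < r → r ≤ 1 →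
    (∀ x ∈ O1, Metric.ball x r ⊆ O) → (∀ x ∈ O2, Metric.ball x r ⊆ O1) →
    ∀ v : ℝ, 0 ≤ v → volume O ≤ ENNReal.ofReal (v ^ 2) →
    ∀ s₁ s₂ : MF n, Ns O K ε s₁ → Ns O K ε s₂ → ∀ (G : V n → ℝ) (Λ : ℝ), ContinuousOn G O →
    1 ≤ Λ → LG O1 r Λ G → ∀ ρ : ℝ, 1 ≤ ρ →
    Solv O s₁ G ρ 1 → Solv O s₂ G ρ 1 → Solv O1 s₁ G ρ 1 → Solv O1 s₂ G ρ 1 →
    ∀ (k2 : MF n) (M : ℝ), 0 ≤ M →
    (∀ i j, JE O (fun x => Real.exp (ρ * G x)) K M (fun x => k2 x i j)) →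
    ∃ (k1 : Fin n → V n → ℝ) (k0 : V n → ℝ) (k1' : Fin n → V n → ℝ) (k0' : V n → ℝ),
    (∀ x ∈ O1, ∀ l, Lv s₁ (k1' l) x = -∑ i, ∑ j, pd l (fun x => s₁ x i j) x * k2 x i j) ∧
    (∀ x ∈ O1, Lv s₁ k0' x = -(2 * ∑ a, ∑ b, s₁ x a b * pd a (k1' b) x)) ∧
    (∀ x ∈ O1, ∀ l, Lv s₂ (k1 l) x = 2 * ∑ a, ∑ b, s₂ x a b * pd a (fun y => k2 y b l) x) ∧
    (∀ x ∈ O1, Lv s₂ k0 x = -ipm s₂ k2 x + 2 * ∑ a, ∑ b, s₂ x a b * pd a (k1 b) x) ∧
    (∀ l, JE O2 (fun x => Real.exp (ρ * G x)) L (C * (ρ * Λ / r * (v + 1)) ^ N * M) (k1 l)) ∧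
    JE O2 (fun x => Real.exp (ρ * G x)) L (C * (ρ * Λ / r * (v + 1)) ^ N * M) k0 ∧
    (∀ l, JE O2 (fun x => Real.exp (ρ * G x)) L (C * (ρ * Λ / r * (v + 1)) ^ N * M) (k1' l)) ∧
    JE O2 (fun x => Real.exp (ρ * G x)) L (C * (ρ * Λ / r * (v + 1)) ^ N * M) k0' ∧
    (∀ l, ContDiffOn ℝ ∞ (k1 l) O1) ∧ ContDiffOn ℝ ∞ k0 O1 ∧ (∀ l, ContDiffOn ℝ ∞ (k1' l) O1) ∧
    ContDiffOn ℝ ∞ k0' O1 := by
  obtain ⟨K₀, N₀, C₀, ε₀, hC₀, hε₀, H₀⟩ := solvY hI n L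
  obtain ⟨K₁, N₁, C₁, ε₁, hC₁, hε₁, H₁⟩ := solvY hI n (max L (K₀ + 1))
  generalize hL1 : max L (K₀ + 1) = L1 at H₁
  have hK0L : K₀ + 1 ≤ L1 := hL1 ▸ le_max_right _ _
  have hLL : L ≤ L1 := hL1 ▸ le_max_left _ _
  obtain ⟨K, hKK0, hKK1⟩ : ∃ K, K₀ + 1 ≤ K ∧ K₁ + 1 ≤ K := ⟨max K₀ K₁ + 1, by omega, by omega⟩
  have ha := cR_nonneg n K₁
  have hb := cR_nonneg n K₀
  generalize hca : cR n K₁ = ca at ha
  generalize hcb : cR n K₀ = cb at hb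
  refine ⟨K, N₁ + N₀, (C₁ * ca + 1) * (C₀ * (cb + cb) + 1), min (min ε₀ ε₁) 1, by positivity,
    lt_min (lt_min hε₀ hε₁) one_pos, ?_⟩
  intro O O1 O2 hO hO1 hO2 r hr hr1 hOO hOO1 v hv hvol s₁ s₂ hs₁ hs₂ G Λ hGc hΛ hG ρ hρ S1 S2 S3 S4
    k2 M hM hk2
  have hY1 : 1 ≤ ρ * Λ / r * (v + 1) := by
    refine one_le_mul_of_one_le_of_one_le ?_ (by linarith)
    rw [le_div_iff₀ hr]
    have := one_le_mul_of_one_le_of_one_le hρ hΛ
    linarith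
  have h1 := H₁ O O1 hO r hr hr1 hOO v hv hvol
  have h0 := H₀ O1 O2 hO1 r hr hr1 hOO1 v hv
    ((measure_mono fun x hx => hOO x hx (Metric.mem_ball_self hr)).trans hvol)
  obtain ⟨Y, hY⟩ : ∃ Y, Y = ρ * Λ / r * (v + 1) := ⟨_, rfl⟩
  rw [← hY] at hY1 ⊢
  have hE0 : ∀ x, 0 ≤ Real.exp (ρ * G x) := fun x => (Real.exp_pos _).le
  have hsub1 : O1 ⊆ O := fun x hx => hOO x hx (Metric.mem_ball_self hr)
  have hsub2 : O2 ⊆ O1 := fun x hx => hOO1 x hx (Metric.mem_ball_self hr)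
  have hsub1' := hsub1
  have hε1 : min (min ε₀ ε₁) 1 ≤ 1 := min_le_right _ _
  have hε0' : min (min ε₀ ε₁) 1 ≤ ε₀ := (min_le_left _ _).trans (min_le_left _ _)
  have hε1' : min (min ε₀ ε₁) 1 ≤ ε₁ := (min_le_left _ _).trans (min_le_right _ _)
  generalize min (min ε₀ ε₁) 1 = ε at *
  have hj : ∀ k, k ≤ K → ∀ s : MF n, Ns O K ε s → ∀ i j,
      Jl O k (fun _ => 2) (fun x => s x i j) := fun k hk s hs i j =>
    (hs.entry hO hε1 i j).ord hk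
  -- first level
  have hx1 : ∀ l, JE O (fun x => Real.exp (ρ * G x)) K₁ (ca * M)
      (fun x => -∑ i, ∑ j, pd l (fun x => s₁ x i j) x * k2 x i j) := fun l => by
    rw [← hca]
    exact rhs_x hO hE0 hM (fun i j => hj _ hKK1 s₁ hs₁ i j) (fun i j => (hk2 i j).ord (by omega)) l
  have hd1 : ∀ l, JE O (fun x => Real.exp (ρ * G x)) K₁ (ca * M)
      (fun x => 2 * ∑ a, ∑ b, s₂ x a b * pd a (fun y => k2 y b l) x) := fun l => by
    rw [← hca]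
    exact rhs_d hO hE0 (fun i j => hj _ (by omega) s₂ hs₂ i j)
      (q := fun b y => k2 y b l) (fun b => (hk2 b l).ord hKK1)
  have hca0 : 0 ≤ ca * M := mul_nonneg ha hM
  choose k1' e1 e2 e3 using fun l => h1 s₁ ((hs₁.ord (by omega)).mono hε1') G Λ hGc hΛ hG ρ hρ S1
    _ _ hca0 (hx1 l)
  choose k1 e4 e5 e6 using fun l => h1 s₂ ((hs₂.ord (by omega)).mono hε1') G Λ hGc hΛ hG ρ hρ S2
    _ _ hca0 (hd1 l)
  clear h1 hx1 hd1
  simp only [← hY] at e3 e6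
  generalize hA : C₁ * Y ^ N₁ * (ca * M) = A at e3 e6
  obtain ⟨n1, n2⟩ := num1 (N₁ := N₁) hY1 hM ha hC₁
  rw [hA] at n2
  have hA0 : 0 ≤ A := by rw [← hA]; positivity
  obtain ⟨n3, n4, n5⟩ := num2 (N₁ := N₁) (N₀ := N₀) hY1 hM hA0 hb hC₀ rfl n1 n2
  generalize (C₁ * ca + 1) * (C₀ * (cb + cb) + 1) * Y ^ (N₁ + N₀) * M = B at n3 n4 n5 ⊢
  have hAB : A ≤ B := n2.trans n3
  -- second level
  have hx0 : JE O1 (fun x => Real.exp (ρ * G x)) K₀ (cb * A)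
      (fun x => -(2 * ∑ a, ∑ b, s₁ x a b * pd a (k1' b) x)) := by
    rw [← hcb]
    exact (rhs_d hO1 hE0 (fun i j => (hj _ (by omega) s₁ hs₁ i j).sub_set hsub1)
      (q := k1') (fun b => (e3 b).ord hK0L)).neg
  have hd0 : JE O1 (fun x => Real.exp (ρ * G x)) K₀ (cb * M + cb * A)
      (fun x => -ipm s₂ k2 x + 2 * ∑ a, ∑ b, s₂ x a b * pd a (k1 b) x) := by
    rw [← hcb]
    exact JE.add hO1 (rhs_i hO1 hE0 hM (fun i j => (hj _ (by omega) s₂ hs₂ i j).sub_set hsub1)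
      (fun i j => ((hk2 i j).ord (by omega)).sub_set hsub1))
      (rhs_d hO1 hE0 (fun i j => (hj _ (by omega) s₂ hs₂ i j).sub_set hsub1)
      (q := k1) (fun b => (e6 b).ord hK0L))
  have hG2 : LG O2 r Λ G := fun x hx => hG x (hsub2 hx)
  obtain ⟨k0', g1, g2, g3⟩ := h0 s₁ (((hs₁.ord (by omega)).mono hε0').sub_set hsub1) G Λ
    (hGc.mono hsub1) hΛ hG2 ρ hρ S3 _ _ (mul_nonneg hb hA0) hx0
  obtain ⟨k0, g4, g5, g6⟩ := h0 s₂ (((hs₂.ord (by omega)).mono hε0').sub_set hsub1) G Λ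
    (hGc.mono hsub1) hΛ hG2 ρ hρ S4 _ _ (add_nonneg (mul_nonneg hb hM) (mul_nonneg hb hA0)) hd0
  rw [← hY] at g3 g6
  exact ⟨k1, k0, k1', k0', fun x hx l => e2 l x (hsub1 hx), g2, fun x hx l => e5 l x (hsub1 hx), g5,
    fun l => (((e6 l).ord hLL).sub_set hsub2).mono hE0 hAB, g6.mono hE0 n5,
    fun l => (((e3 l).ord hLL).sub_set hsub2).mono hE0 hAB, g3.mono hE0 n4,
    fun l => (e4 l).mono hsub1, g4, fun l => (e1 l).mono hsub1, g1⟩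

end Vale.Agent.P088.HY.S3
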