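import Vale.Agent.P088.R2.H673.S3.QB
import Vale.Agent.P088.R2.H673.QM4

/-!
# P088, stage 3: jets on pairs of points and the bounds of the kernel
-/

open MeasureTheory Set Filter
open scoped ContDiff Matrix Topology

noncomputable section

namespace Vale.Agent.P088.HY.S3

open Vale.Agent.P088.LR Vale.Agent.P088.HY.QM

variable {n : ℕ}

section gen

variable {E F : Type*} [NormedAddCommGroup E] [NormedSpace ℝ E] [NormedAddCommGroup F]
  [NormedSpace ℝ F]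

theorem Jl.comp_clm {O : Set F} (hO : IsOpen O) {k : ℕ} {a f : F → ℝ} (L : E →L[ℝ] F)
    (hL : ‖L‖ ≤ 1) (h : Jl O k a f) {U : Set E} (hU : ∀ z ∈ U, L z ∈ O) :
    Jl U k (fun z => a (L z)) (fun z => f (L z)) := by
  have hB : IsOpen (L ⁻¹' O) := hO.preimage L.continuous
  refine Jl.sub_set (O := L ⁻¹' O) ⟨h.1.comp L.contDiff.contDiffOn fun z hz => hz,
    fun l hl z hz => ?_⟩ hU
  have h2 := L.iteratedFDerivWithin_comp_right h.1 hO.uniqueDiffOn hB.uniqueDiffOn hz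
    (i := l) (by exact_mod_cast le_top)
  rw [iteratedFDerivWithin_of_isOpen l hB hz, iteratedFDerivWithin_of_isOpen l hO hz] at h2
  have e : (fun z => f (L z)) = f ∘ L := rfl
  rw [e, h2]
  refine ((iteratedFDeriv ℝ l f (L z)).norm_compContinuousLinearMap_le _).trans ?_
  rw [Finset.prod_const, Finset.card_univ, Fintype.card_fin]
  calc ‖iteratedFDeriv ℝ l f (L z)‖ * ‖L‖ ^ l ≤ ‖iteratedFDeriv ℝ l f (L z)‖ * 1 :=
        mul_le_mul_of_nonneg_left (pow_le_one₀ (norm_nonneg _) hL) (norm_nonneg _)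
    _ ≤ _ := by rw [mul_one]; exact h.2 l hl _ hz

theorem Jl.clm {O : Set E} {k : ℕ} {c : ℝ} (L : E →L[ℝ] ℝ) (h0 : ∀ z ∈ O, |L z| ≤ c)
    (h1 : ‖L‖ ≤ c) : Jl O k (fun _ => c) (fun z => L z) :=
  ⟨L.contDiff.contDiffOn, fun l hl z hz => Jb.clm (k := k) L (h0 z hz) h1 l hl⟩

end gen

section pairs

variable {O : Set (V n)} {k : ℕ} {a f : V n → ℝ}

theorem Jl.fst (hO : IsOpen O) (h : Jl O k a f) :
    Jl (O ×ˢ O) k (fun z => a z.1) (fun z => f z.1) :=
  Jl.comp_clm hO (ContinuousLinearMap.fst ℝ (V n) (V n)) (ContinuousLinearMap.norm_fst_le ℝ _ _) h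
    fun _ hz => hz.1

theorem Jl.snd (hO : IsOpen O) (h : Jl O k a f) :
    Jl (O ×ˢ O) k (fun z => a z.2) (fun z => f z.2) :=
  Jl.comp_clm hO (ContinuousLinearMap.snd ℝ (V n) (V n)) (ContinuousLinearMap.norm_snd_le ℝ _ _) h
    fun _ hz => hz.2

theorem Jl.ql {d : ℝ} (hd : 2 ≤ d) (hO : ∀ x ∈ O, ∀ y ∈ O, ‖x - y‖ ≤ d) (l : Fin n) :
    Jl (O ×ˢ O) k (fun _ => d) (fun z : VV n => z.1 l - z.2 l) := by
  refine Jl.clm (QM.ql l) (fun z hz => ?_) ?_
  · rw [ql_apply, ← Pi.sub_apply, ← Real.norm_eq_abs]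
    exact (norm_le_pi_norm _ _).trans (hO _ hz.1 _ hz.2)
  · refine (ContinuousLinearMap.opNorm_le_bound _ (by norm_num) fun z => ?_).trans hd
    rw [Real.norm_eq_abs]; exact abs_ql_le l z

theorem nsx (i : Fin n) : ‖((Pi.single i 1, 0) : VV n)‖ ≤ 1 := by
  rw [Prod.norm_def, Pi.norm_single]; simp

theorem nsy (i : Fin n) : ‖((0, Pi.single i 1) : VV n)‖ ≤ 1 := by
  rw [Prod.norm_def, Pi.norm_single]; simp

theorem Jl.dx {U : Set (VV n)} (hU : IsOpen U) {a f : VV n → ℝ} (h : Jl U (k + 1) a f)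
    (i : Fin n) : Jl U k a (dx i f) := Jl.dir hU _ (nsx i) h

theorem Jl.dy {U : Set (VV n)} (hU : IsOpen U) {a f : VV n → ℝ} (h : Jl U (k + 1) a f)
    (i : Fin n) : Jl U k a (dy i f) := Jl.dir hU _ (nsy i) h

end pairs

section prod

variable {s : MF n} {f g : VV n → ℝ} {z : VV n}

theorem cd_left (hf : ContDiffAt ℝ 2 f z) : ContDiffAt ℝ 2 (fun x => f (x, z.2)) z.1 :=
  ContDiffAt.comp (g := f) (f := fun x => (x, z.2)) z.1 hf (by fun_prop)

theorem cd_right (hf : ContDiffAt ℝ 2 f z) : ContDiffAt ℝ 2 (fun y => f (z.1, y)) z.2 :=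
  ContDiffAt.comp (g := f) (f := fun y => (z.1, y)) z.2 hf (by fun_prop)

theorem Lx_mul (hs : (s z.1).IsSymm) (hf : ContDiffAt ℝ 2 f z) (hg : ContDiffAt ℝ 2 g z) :
    Lx s (fun w => f w * g w) z = f z * Lx s g z + g z * Lx s f z +
      2 * ∑ i, ∑ j, s z.1 i j * (dx i f z * dx j g z) := by
  rw [Lx_eq s (hf.mul hg), Lx_eq s hf, Lx_eq s hg, Lv_mul hs (cd_left hf) (cd_left hg)]
  unfold Gm
  simp only [dx_eq (hf.differentiableAt (by norm_num)), dx_eq (hg.differentiableAt (by norm_num))]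

theorem Ly_mul (hs : (s z.2).IsSymm) (hf : ContDiffAt ℝ 2 f z) (hg : ContDiffAt ℝ 2 g z) :
    Ly s (fun w => f w * g w) z = f z * Ly s g z + g z * Ly s f z +
      2 * ∑ i, ∑ j, s z.2 i j * (dy i f z * dy j g z) := by
  rw [Ly_eq s (hf.mul hg), Ly_eq s hf, Ly_eq s hg, Lv_mul hs (cd_right hf) (cd_right hg)]
  unfold Gm
  simp only [dy_eq (hf.differentiableAt (by norm_num)), dy_eq (hg.differentiableAt (by norm_num))]

end prod

end Vale.Agent.P088.HY.S3
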