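import Vale.Agent.P088.R2.H673.S3.QC

/-!
# P088, stage 3: bounds of the kernel and of its residuals
-/

open MeasureTheory Set Filter
open scoped ContDiff Matrix Topology

noncomputable section

namespace Vale.Agent.P088.HY.S3

open Vale.Agent.P088.LR Vale.Agent.P088.HY.QM

variable {n : ℕ}

theorem two_le' : (2 : WithTop ℕ∞) ≤ ∞ := by
  have : ((2 : ℕ∞) : WithTop ℕ∞) ≤ ((⊤ : ℕ∞) : WithTop ℕ∞) := by exact_mod_cast le_top
  exact this

section JP

variable {U U' : Set (VV n)} {E : V n → ℝ} {k k' : ℕ} {a b : ℝ} {f g : VV n → ℝ}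

/-- Jets bounded by `a (E x + E y)`. -/
def JP (U : Set (VV n)) (E : V n → ℝ) (k : ℕ) (a : ℝ) (f : VV n → ℝ) : Prop :=
  Jl U k (fun z => a * (E z.1 + E z.2)) f

theorem JP.ord (h : JP U E k a f) (hk : k' ≤ k) : JP U E k' a f := Jl.ord h hk

theorem JP.sub_set (h : JP U E k a f) (hO : U' ⊆ U) : JP U' E k a f := Jl.sub_set h hO

theorem JP.mono (hE : ∀ x, 0 ≤ E x) (h : JP U E k a f) (hab : a ≤ b) : JP U E k b f :=
  Jl.mono h fun _ _ => mul_le_mul_of_nonneg_right hab (add_nonneg (hE _) (hE _))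

theorem JP.add (hU : IsOpen U) (h : JP U E k a f) (h' : JP U E k b g) :
    JP U E k (a + b) (fun w => f w + g w) :=
  (Jl.add hU h h').mono fun x _ => le_of_eq (by ring)

theorem JP.cmul (hU : IsOpen U) (c : ℝ) (h : JP U E k a f) :
    JP U E k (|c| * a) (fun w => c * f w) :=
  (Jl.const_mul hU c h).mono fun x _ => le_of_eq (by ring)

theorem JP.mulL (hU : IsOpen U) (h : Jl U k (fun _ => b) g) (h' : JP U E k a f) :
    JP U E k (2 ^ k * (b * a)) (fun w => g w * f w) :=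
  (Jl.mul hU h h').mono fun x _ => le_of_eq (by ring)

theorem JP.mulR (hU : IsOpen U) (h' : JP U E k a f) (h : Jl U k (fun _ => b) g) :
    JP U E k (2 ^ k * (a * b)) (fun w => f w * g w) :=
  (Jl.mul hU h' h).mono fun x _ => le_of_eq (by ring)

theorem JP.sum {ι : Type*} [Fintype ι] (hU : IsOpen U) {f : ι → VV n → ℝ}
    (h : ∀ i, JP U E k a (f i)) : JP U E k (Fintype.card ι * a) (fun w => ∑ i, f i w) := by
  refine (Jl.sum hU Finset.univ fun i _ => h i).mono fun x _ => le_of_eq ?_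
  rw [Finset.sum_const, Finset.card_univ, nsmul_eq_mul]; ring

theorem JP.fst {O : Set (V n)} {f : V n → ℝ} (hO : IsOpen O) (hE : ∀ x, 0 ≤ E x) (ha : 0 ≤ a)
    (h : JE O E k a f) : JP (O ×ˢ O) E k a (fun z => f z.1) :=
  (Jl.fst hO h).mono fun _ _ => mul_le_mul_of_nonneg_left (le_add_of_nonneg_right (hE _)) ha

theorem JP.snd {O : Set (V n)} {f : V n → ℝ} (hO : IsOpen O) (hE : ∀ x, 0 ≤ E x) (ha : 0 ≤ a)
    (h : JE O E k a f) : JP (O ×ˢ O) E k a (fun z => f z.2) :=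
  (Jl.snd hO h).mono fun _ _ => mul_le_mul_of_nonneg_left (le_add_of_nonneg_left (hE _)) ha

end JP

/-- The constant of the kernel. -/
def ck (n k : ℕ) (d : ℝ) : ℝ :=
  n * (n * (2 ^ k * (1 / 2 * (2 ^ k * (d * d))))) + n * (2 ^ k * d) + 1 + n * (2 ^ k * d) + 1

/-- The jets of the kernel. -/
theorem kkJ {O : Set (V n)} (hO : IsOpen O) {E : V n → ℝ} (hE : ∀ x, 0 ≤ E x) {k : ℕ} {M d : ℝ}
    (hM : 0 ≤ M) (hd : 2 ≤ d) (hdd : ∀ x ∈ O, ∀ y ∈ O, ‖x - y‖ ≤ d) {k2 : MF n}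
    {k1 : Fin n → V n → ℝ} {k0 : V n → ℝ} {k1' : Fin n → V n → ℝ} {k0' : V n → ℝ}
    (h2 : ∀ i j, JE O E k M (fun y => k2 y i j)) (h1 : ∀ l, JE O E k M (k1 l)) (h0 : JE O E k M k0)
    (h1' : ∀ l, JE O E k M (k1' l)) (h0' : JE O E k M k0') :
    JP (O ×ˢ O) E k (ck n k d * M) (kk k2 k1 k0 k1' k0') := by
  have hU : IsOpen (O ×ˢ O) := hO.prod hO
  have hq : ∀ l, Jl (O ×ˢ O) k (fun _ => d) (fun z : VV n => z.1 l - z.2 l) :=
    fun l => Jl.ql hd hdd l
  have hqq : ∀ i j, Jl (O ×ˢ O) k (fun _ => 2 ^ k * (d * d))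
      (fun z : VV n => (z.1 i - z.2 i) * (z.1 j - z.2 j)) := fun i j => Jl.mul hU (hq i) (hq j)
  have a1 := JP.sum hU fun i => JP.sum hU fun j =>
    JP.mulR hU (JP.cmul hU (1 / 2) (JP.snd hO hE hM (h2 i j))) (hqq i j)
  have a2 := JP.sum hU fun l => JP.mulR hU (JP.snd hO hE hM (h1 l)) (hq l)
  have a3 := JP.sum hU fun l => JP.mulR hU (JP.fst hO hE hM (h1' l)) (hq l)
  have a4 := JP.add hU (JP.add hU (JP.add hU (JP.add hU a1 a2) (JP.snd hO hE hM h0)) a3)
    (JP.fst hO hE hM h0')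
  refine JP.mono hE a4 (le_of_eq ?_)
  rw [Fintype.card_fin, abs_of_pos (by norm_num : (0 : ℝ) < 1 / 2)]
  unfold ck
  ring

/-- The bound of a commutator. -/
theorem comm_x {U : Set (VV n)} (hU : IsOpen U) {s : MF n} {f g : VV n → ℝ} {a b : VV n → ℝ}
    (hf : Jl U 2 a f) (hg : Jl U 2 b g) {z : VV n} (hz : z ∈ U) (hs : (s z.1).IsSymm)
    (hs2 : ∀ i j, |s z.1 i j| ≤ 2) :
    |Lx s (fun w => f w * g w) z - f z * Lx s g z| ≤ n * (n * 6) * (a z * b z) := by
  have ha := hf.nonneg hz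
  have hb := hg.nonneg hz
  rw [Lx_mul hs ((hf.cda hU hz).of_le two_le')
    ((hg.cda hU hz).of_le two_le')]
  have e1 : |Lx s f z| ≤ n * (n * (2 * a z)) := by
    unfold Lx
    refine (Finset.abs_sum_le_sum_abs _ _).trans ?_
    refine (Finset.sum_le_sum fun i _ => (Finset.abs_sum_le_sum_abs _ _).trans
      (Finset.sum_le_sum (g := fun _ => 2 * a z) fun j _ => ?_)).trans ?_
    · rw [abs_mul]
      exact mul_le_mul (hs2 i j) (((hf.dx hU j).dx hU i).abs hz) (abs_nonneg _) (by norm_num)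
    · simp
  have e2 : |∑ i, ∑ j, s z.1 i j * (dx i f z * dx j g z)| ≤ n * (n * (2 * (a z * b z))) := by
    refine (Finset.abs_sum_le_sum_abs _ _).trans ?_
    refine (Finset.sum_le_sum fun i _ => (Finset.abs_sum_le_sum_abs _ _).trans
      (Finset.sum_le_sum (g := fun _ => 2 * (a z * b z)) fun j _ => ?_)).trans ?_
    · rw [abs_mul, abs_mul]
      refine mul_le_mul (hs2 i j) (mul_le_mul ?_ ?_ (abs_nonneg _) ha) (by positivity)
        (by norm_num)
      · exact ((hf.ord (by norm_num : 1 ≤ 2)).dx (k := 0) hU i).abs hz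
      · exact ((hg.ord (by norm_num : 1 ≤ 2)).dx (k := 0) hU j).abs hz
    · simp
  have e3 : |g z| ≤ b z := hg.abs hz
  have e4 : f z * Lx s g z + g z * Lx s f z + 2 * ∑ i, ∑ j, s z.1 i j * (dx i f z * dx j g z) -
      f z * Lx s g z = g z * Lx s f z + 2 * ∑ i, ∑ j, s z.1 i j * (dx i f z * dx j g z) := by ring
  rw [e4]
  refine (abs_add_le _ _).trans ?_
  rw [abs_mul, abs_mul, abs_of_pos (by norm_num : (0 : ℝ) < 2)]
  calc |g z| * |Lx s f z| + 2 * |∑ i, ∑ j, s z.1 i j * (dx i f z * dx j g z)|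
      ≤ b z * (n * (n * (2 * a z))) + 2 * (n * (n * (2 * (a z * b z)))) :=
        add_le_add (mul_le_mul e3 e1 (abs_nonneg _) hb) (mul_le_mul_of_nonneg_left e2 (by norm_num))
    _ = _ := by ring

/-- The bound of a commutator. -/
theorem comm_y {U : Set (VV n)} (hU : IsOpen U) {s : MF n} {f g : VV n → ℝ} {a b : VV n → ℝ}
    (hf : Jl U 2 a f) (hg : Jl U 2 b g) {z : VV n} (hz : z ∈ U) (hs : (s z.2).IsSymm)
    (hs2 : ∀ i j, |s z.2 i j| ≤ 2) :
    |Ly s (fun w => f w * g w) z - f z * Ly s g z| ≤ n * (n * 6) * (a z * b z) := by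
  have ha := hf.nonneg hz
  have hb := hg.nonneg hz
  rw [Ly_mul hs ((hf.cda hU hz).of_le two_le')
    ((hg.cda hU hz).of_le two_le')]
  have e1 : |Ly s f z| ≤ n * (n * (2 * a z)) := by
    unfold Ly
    refine (Finset.abs_sum_le_sum_abs _ _).trans ?_
    refine (Finset.sum_le_sum fun i _ => (Finset.abs_sum_le_sum_abs _ _).trans
      (Finset.sum_le_sum (g := fun _ => 2 * a z) fun j _ => ?_)).trans ?_
    · rw [abs_mul]
      exact mul_le_mul (hs2 i j) (((hf.dy hU j).dy hU i).abs hz) (abs_nonneg _) (by norm_num)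
    · simp
  have e2 : |∑ i, ∑ j, s z.2 i j * (dy i f z * dy j g z)| ≤ n * (n * (2 * (a z * b z))) := by
    refine (Finset.abs_sum_le_sum_abs _ _).trans ?_
    refine (Finset.sum_le_sum fun i _ => (Finset.abs_sum_le_sum_abs _ _).trans
      (Finset.sum_le_sum (g := fun _ => 2 * (a z * b z)) fun j _ => ?_)).trans ?_
    · rw [abs_mul, abs_mul]
      refine mul_le_mul (hs2 i j) (mul_le_mul ?_ ?_ (abs_nonneg _) ha) (by positivity)
        (by norm_num)
      · exact ((hf.ord (by norm_num : 1 ≤ 2)).dy (k := 0) hU i).abs hz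
      · exact ((hg.ord (by norm_num : 1 ≤ 2)).dy (k := 0) hU j).abs hz
    · simp
  have e3 : |g z| ≤ b z := hg.abs hz
  have e4 : f z * Ly s g z + g z * Ly s f z + 2 * ∑ i, ∑ j, s z.2 i j * (dy i f z * dy j g z) -
      f z * Ly s g z = g z * Ly s f z + 2 * ∑ i, ∑ j, s z.2 i j * (dy i f z * dy j g z) := by ring
  rw [e4]
  refine (abs_add_le _ _).trans ?_
  rw [abs_mul, abs_mul, abs_of_pos (by norm_num : (0 : ℝ) < 2)]
  calc |g z| * |Ly s f z| + 2 * |∑ i, ∑ j, s z.2 i j * (dy i f z * dy j g z)|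
      ≤ b z * (n * (n * (2 * a z))) + 2 * (n * (n * (2 * (a z * b z)))) :=
        add_le_add (mul_le_mul e3 e1 (abs_nonneg _) hb) (mul_le_mul_of_nonneg_left e2 (by norm_num))
    _ = _ := by ring

end Vale.Agent.P088.HY.S3
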