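import Vale.Agent.P088.R2.H673.S3.QD

/-!
# P088, stage 3: the residuals near the diagonal, the kernel
-/

open MeasureTheory Set Filter
open scoped ContDiff Matrix Topology

noncomputable section

namespace Vale.Agent.P088.HY.S3

open Vale.Agent.P088.LR Vale.Agent.P088.HY.QM

variable {n : ℕ}

/-- Taylor's formula of order `1`. -/
theorem taylorL {O B : Set (V n)} (hO : IsOpen O) (hB : Convex ℝ B) (hBO : B ⊆ O) {f : V n → ℝ}
    (hf : ContDiffOn ℝ ∞ f O) {m : ℝ} (h2 : ∀ w ∈ B, ‖iteratedFDeriv ℝ 2 f w‖ ≤ m)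
    {x y : V n} (hx : x ∈ B) (hy : y ∈ B) :
    |f x - f y - fderiv ℝ f x (x - y)| ≤ m * ‖x - y‖ ^ 2 := by
  have hm : 0 ≤ m := (norm_nonneg _).trans (h2 x hx)
  have hd : ∀ w ∈ B, DifferentiableAt ℝ f w := fun w hw =>
    (hf.contDiffAt (hO.mem_nhds (hBO hw))).differentiableAt (by simp)
  have hd1 : ContDiffOn ℝ ∞ (fderiv ℝ f) O := hf.fderiv_of_isOpen hO (by simp)
  have hd2 : ∀ w ∈ B, DifferentiableAt ℝ (fderiv ℝ f) w := fun w hw =>
    (hd1.contDiffAt (hO.mem_nhds (hBO hw))).differentiableAt (by simp)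
  have hn : ∀ w ∈ B, ‖fderiv ℝ (fderiv ℝ f) w‖ ≤ m := fun w hw => by
    have := h2 w hw
    rwa [← norm_iteratedFDeriv_fderiv, ← norm_iteratedFDeriv_fderiv, norm_iteratedFDeriv_zero]
      at this
  have hseg : segment ℝ x y ⊆ B := hB.segment_subset hx hy
  have h3 : ∀ w ∈ segment ℝ x y, ‖fderiv ℝ f w - fderiv ℝ f x‖ ≤ m * ‖x - y‖ := by
    intro w hw
    refine ((convex_segment x y).norm_image_sub_le_of_norm_fderiv_le (𝕜 := ℝ)
      (fun u hu => hd2 u (hseg hu)) (fun u hu => hn u (hseg hu))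
      (left_mem_segment ℝ x y) hw).trans (mul_le_mul_of_nonneg_left ?_ hm)
    have := norm_sub_le_of_mem_segment hw
    rw [norm_sub_rev x y]
    exact this
  have h4 := (convex_segment x y).norm_image_sub_le_of_norm_fderiv_le' (𝕜 := ℝ)
    (φ := fderiv ℝ f x) (fun u hu => hd u (hseg hu)) h3 (left_mem_segment ℝ x y)
    (right_mem_segment ℝ x y)
  rw [Real.norm_eq_abs] at h4
  have e : f x - f y - fderiv ℝ f x (x - y) = -(f y - f x - fderiv ℝ f x (y - x)) := by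
    rw [map_sub, map_sub]; ring
  rw [e, abs_neg]
  refine h4.trans (le_of_eq ?_)
  rw [norm_sub_rev y x]; ring

theorem abs_sub_le_L {O B : Set (V n)} (hO : IsOpen O) (hB : Convex ℝ B) (hBO : B ⊆ O) {f : V n → ℝ}
    (hf : ContDiffOn ℝ ∞ f O) {m : ℝ} (h1 : ∀ w ∈ B, ‖iteratedFDeriv ℝ 1 f w‖ ≤ m)
    {x y : V n} (hx : x ∈ B) (hy : y ∈ B) : |f y - f x| ≤ m * ‖x - y‖ := by
  have hd : ∀ w ∈ B, DifferentiableAt ℝ f w := fun w hw =>
    (hf.contDiffAt (hO.mem_nhds (hBO hw))).differentiableAt (by simp)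
  have hn : ∀ w ∈ B, ‖fderiv ℝ f w‖ ≤ m := fun w hw => by
    have := h1 w hw
    rwa [← norm_iteratedFDeriv_fderiv, norm_iteratedFDeriv_zero] at this
  have := hB.norm_image_sub_le_of_norm_fderiv_le (𝕜 := ℝ) hd hn hx hy
  rwa [Real.norm_eq_abs, norm_sub_rev y x] at this

/-- The residual in `x`. -/
theorem Rx_le {O B : Set (V n)} (hO : IsOpen O) (hB : Convex ℝ B) (hBO : B ⊆ O) {s k : MF n}
    (hs : ∀ i j, Jl O 2 (fun _ => 2) (fun x => s x i j))
    (hk : ∀ i j, ContDiffOn ℝ ∞ (fun x => k x i j) O) {m : ℝ}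
    (hk0 : ∀ i j, ∀ w ∈ B, |k w i j| ≤ m)
    (hk1 : ∀ i j, ∀ w ∈ B, ‖iteratedFDeriv ℝ 1 (fun x => k x i j) w‖ ≤ m)
    {x y : V n} (hx : x ∈ B) (hy : y ∈ B) (h0 : ipm s k y = 0) :
    |Rx s k (x, y)| ≤ n * (n * 4) * (m * ‖x - y‖ ^ 2) := by
  have e : Rx s k (x, y) = ∑ i, ∑ j, ((s x i j - s y i j - fderiv ℝ (fun x => s x i j) x (x - y)) *
      k y i j + fderiv ℝ (fun x => s x i j) x (x - y) * (k y i j - k x i j)) := by
    have e1 : Rx s k (x, y) = Rx s k (x, y) - ipm s k y := by rw [h0, sub_zero]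
    rw [e1]
    unfold Rx ipm
    have e2 : ∑ l, (∑ i, ∑ j, pd l (fun x => s x i j) x * k x i j) * (x l - y l) =
        ∑ i, ∑ j, fderiv ℝ (fun x => s x i j) x (x - y) * k x i j := by
      simp only [fderiv_eq_sum_pd, Finset.sum_mul, Pi.sub_apply]
      rw [Finset.sum_comm]
      refine Finset.sum_congr rfl fun i _ => ?_
      rw [Finset.sum_comm]
      refine Finset.sum_congr rfl fun j _ => Finset.sum_congr rfl fun l _ => ?_
      ring
    rw [e2]
    simp only [← Finset.sum_sub_distrib]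
    refine Finset.sum_congr rfl fun i _ => Finset.sum_congr rfl fun j _ => ?_
    ring
  rw [e]
  have hb : ∀ i j, |(s x i j - s y i j - fderiv ℝ (fun x => s x i j) x (x - y)) *
      k y i j + fderiv ℝ (fun x => s x i j) x (x - y) * (k y i j - k x i j)| ≤
      4 * (m * ‖x - y‖ ^ 2) := by
    intro i j
    have hm : 0 ≤ m := (abs_nonneg _).trans (hk0 i j y hy)
    have h1 := taylorL hO hB hBO (hs i j).1 (fun w hw => (hs i j).2 2 le_rfl w (hBO hw)) hx hy
    have h2 := hk0 i j y hy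
    have h3 := abs_sub_le_L hO hB hBO (hk i j) (hk1 i j) hx hy
    have h4 : |fderiv ℝ (fun x => s x i j) x (x - y)| ≤ 2 * ‖x - y‖ := by
      have h5 := (hs i j).2 1 (by norm_num) x (hBO hx)
      rw [← norm_iteratedFDeriv_fderiv, norm_iteratedFDeriv_zero] at h5
      rw [← Real.norm_eq_abs]
      exact (ContinuousLinearMap.le_opNorm _ _).trans
        (mul_le_mul_of_nonneg_right h5 (norm_nonneg _))
    refine (abs_add_le _ _).trans ?_
    rw [abs_mul, abs_mul]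
    calc |s x i j - s y i j - fderiv ℝ (fun x => s x i j) x (x - y)| * |k y i j| +
          |fderiv ℝ (fun x => s x i j) x (x - y)| * |k y i j - k x i j|
        ≤ (2 * ‖x - y‖ ^ 2) * m + (2 * ‖x - y‖) * (m * ‖x - y‖) :=
          add_le_add (mul_le_mul h1 h2 (abs_nonneg _) (by positivity))
            (mul_le_mul h4 h3 (abs_nonneg _) (by positivity))
      _ = 4 * (m * ‖x - y‖ ^ 2) := by ring
  refine (Finset.abs_sum_le_sum_abs _ _).trans ?_
  refine (Finset.sum_le_sum fun i _ => (Finset.abs_sum_le_sum_abs _ _).trans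
    (Finset.sum_le_sum fun j _ => hb i j)).trans (le_of_eq ?_)
  simp
  ring

/-- The residual in `y`. -/
theorem Ry_le {s k : MF n} {x y : V n} (hs : ∀ i j, |s y i j| ≤ 2) {m : ℝ} (hm : 0 ≤ m)
    (hk : ∀ i j a b, |pd a (pd b (fun y => k y i j)) y| ≤ m) :
    |Ry s k (x, y)| ≤ n * (n * (n * (n * 1))) * (m * ‖x - y‖ ^ 2) := by
  unfold Ry
  rw [abs_mul, abs_of_pos (by norm_num : (0 : ℝ) < 1 / 2)]
  have hq : ∀ i, |x i - y i| ≤ ‖x - y‖ := fun i => by
    rw [← Pi.sub_apply, ← Real.norm_eq_abs]; exact norm_le_pi_norm _ _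
  have hb : ∀ i j, |(∑ a, ∑ b, s y a b * pd a (pd b (fun y => k y i j)) y) *
      ((x i - y i) * (x j - y j))| ≤ n * (n * (2 * m)) * (‖x - y‖ * ‖x - y‖) := by
    intro i j
    rw [abs_mul, abs_mul]
    refine mul_le_mul ?_ (mul_le_mul (hq i) (hq j) (abs_nonneg _) (norm_nonneg _)) (by positivity)
      (by positivity)
    refine (Finset.abs_sum_le_sum_abs _ _).trans ?_
    refine (Finset.sum_le_sum fun a _ => (Finset.abs_sum_le_sum_abs _ _).trans
      (Finset.sum_le_sum (g := fun _ => 2 * m) fun b _ => ?_)).trans ?_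
    · rw [abs_mul]
      exact mul_le_mul (hs a b) (hk i j a b) (abs_nonneg _) (by norm_num)
    · simp
  have h1 : |∑ i, ∑ j, (∑ a, ∑ b, s y a b * pd a (pd b (fun y => k y i j)) y) *
      ((x i - y i) * (x j - y j))| ≤ n * (n * (n * (n * (2 * m)) * (‖x - y‖ * ‖x - y‖))) := by
    refine (Finset.abs_sum_le_sum_abs _ _).trans ?_
    refine (Finset.sum_le_sum fun a _ => (Finset.abs_sum_le_sum_abs _ _).trans
      (Finset.sum_le_sum (g := fun _ => n * (n * (2 * m)) * (‖x - y‖ * ‖x - y‖))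
        fun b _ => hb a b)).trans ?_
    simp
  calc 1 / 2 * |∑ i, ∑ j, (∑ a, ∑ b, s y a b * pd a (pd b (fun y => k y i j)) y) *
      ((x i - y i) * (x j - y j))| ≤ 1 / 2 * (n * (n * (n * (n * (2 * m)) * (‖x - y‖ * ‖x - y‖)))) :=
        mul_le_mul_of_nonneg_left h1 (by norm_num)
    _ = _ := by ring

end Vale.Agent.P088.HY.S3
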