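import Vale.Agent.P088.R2.H673.S3.QE

/-!
# P088, stage 3: the kernel
-/

open MeasureTheory Set Filter
open scoped ContDiff Matrix Topology

noncomputable section

namespace Vale.Agent.P088.HY.S3

open Vale.Agent.P088.LR Vale.Agent.P088.HY.QM

variable {n : ℕ}

theorem cdo_fst {O : Set (V n)} {f : V n → ℝ} (hf : ContDiffOn ℝ ∞ f O) :
    ContDiffOn ℝ ∞ (fun z : VV n => f z.1) (O ×ˢ O) :=
  hf.comp contDiff_fst.contDiffOn fun _ hz => hz.1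

theorem cdo_snd {O : Set (V n)} {f : V n → ℝ} (hf : ContDiffOn ℝ ∞ f O) :
    ContDiffOn ℝ ∞ (fun z : VV n => f z.2) (O ×ˢ O) :=
  hf.comp contDiff_snd.contDiffOn fun _ hz => hz.2

theorem cdo_kkO {O : Set (V n)} {k2 : MF n} {k1 : Fin n → V n → ℝ} {k0 : V n → ℝ}
    {k1' : Fin n → V n → ℝ} {k0' : V n → ℝ} (c2 : ∀ i j, ContDiffOn ℝ ∞ (fun y => k2 y i j) O)
    (c1 : ∀ l, ContDiffOn ℝ ∞ (k1 l) O) (c0 : ContDiffOn ℝ ∞ k0 O)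
    (c1' : ∀ l, ContDiffOn ℝ ∞ (k1' l) O) (c0' : ContDiffOn ℝ ∞ k0' O) :
    ContDiffOn ℝ ∞ (kk k2 k1 k0 k1' k0') (O ×ˢ O) := by
  have hq : ∀ l : Fin n, ContDiffOn ℝ ∞ (fun z : VV n => z.1 l - z.2 l) (O ×ˢ O) := fun l =>
    (ql l).contDiff.contDiffOn
  unfold kk
  refine ((((ContDiffOn.sum fun i _ => ContDiffOn.sum fun j _ => ?_).add
    (ContDiffOn.sum fun l _ => ?_)).add (cdo_snd c0)).add
    (ContDiffOn.sum fun l _ => ?_)).add (cdo_fst c0')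
  · exact (contDiffOn_const.mul (cdo_snd (c2 i j))).mul ((hq i).mul (hq j))
  · exact (cdo_snd (c1 l)).mul (hq l)
  · exact (cdo_fst (c1' l)).mul (hq l)

theorem cdAt2 {O : Set (V n)} (hO : IsOpen O) {f : V n → ℝ} (hf : ContDiffOn ℝ ∞ f O) {x : V n}
    (hx : x ∈ O) : ContDiffAt ℝ 2 f x := (hf.contDiffAt (hO.mem_nhds hx)).of_le two_le'

/-- The kernel: smooth on the product, exact residuals, bounds, the mixed derivative on the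
diagonal. -/
theorem kernelQ (hI : RowINV) (n L : ℕ) : ∃ (K N : ℕ) (C ε : ℝ), L ≤ K ∧ 1 ≤ C ∧ 0 < ε ∧ ε ≤ 1 ∧
    ∀ (O O1 O2 : Set (V n)), IsOpen O → IsOpen O1 → IsOpen O2 → ∀ r : ℝ, 0 < r → r ≤ 1 →
    (∀ x ∈ O1, Metric.ball x r ⊆ O) → (∀ x ∈ O2, Metric.ball x r ⊆ O1) →
    ∀ v : ℝ, 0 ≤ v → volume O ≤ ENNReal.ofReal (v ^ 2) →
    ∀ d : ℝ, 2 ≤ d → (∀ x ∈ O2, ∀ y ∈ O2, ‖x - y‖ ≤ d) →
    ∀ s₁ s₂ : MF n, Ns O K ε s₁ → Ns O K ε s₂ → (∀ x ∈ O, (s₁ x).IsSymm) →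
    (∀ x ∈ O, (s₂ x).IsSymm) → ∀ (G : V n → ℝ) (Λ : ℝ), ContinuousOn G O →
    1 ≤ Λ → LG O1 r Λ G → ∀ ρ : ℝ, 1 ≤ ρ →
    Solv O s₁ G ρ 1 → Solv O s₂ G ρ 1 → Solv O1 s₁ G ρ 1 → Solv O1 s₂ G ρ 1 →
    ∀ (k2 : MF n) (M : ℝ), 0 ≤ M → (∀ x, (k2 x).IsSymm) →
    (∀ i j, JE O (fun x => Real.exp (ρ * G x)) K M (fun x => k2 x i j)) →
    ∃ (k : VV n → ℝ) (k1 k1' : Fin n → V n → ℝ),
    ContDiffOn ℝ ∞ k (O1 ×ˢ O1) ∧
    (∀ z ∈ O1 ×ˢ O1, Lx s₁ k z = Rx s₁ k2 z) ∧ (∀ z ∈ O1 ×ˢ O1, Ly s₂ k z = Ry s₂ k2 z) ∧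
    JP (O2 ×ˢ O2) (fun x => Real.exp (ρ * G x)) L
      (ck n L d * (C * (ρ * Λ / r * (v + 1)) ^ N * M)) k ∧
    (∀ l, ContDiffOn ℝ ∞ (k1 l) O1) ∧ (∀ l, ContDiffOn ℝ ∞ (k1' l) O1) ∧
    (∀ l, JE O2 (fun x => Real.exp (ρ * G x)) L (C * (ρ * Λ / r * (v + 1)) ^ N * M) (k1 l)) ∧
    (∀ l, JE O2 (fun x => Real.exp (ρ * G x)) L (C * (ρ * Λ / r * (v + 1)) ^ N * M) (k1' l)) ∧
    (∀ p ∈ O1, ∀ i j, dx i (dy j k) (p, p) = -k2 p i j + pd j (k1 i) p - pd i (k1' j) p) := by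
  obtain ⟨K, N, C, ε, hC, hε, H⟩ := correctors hI n L
  refine ⟨max K L, N, C + 1, min ε 1, le_max_right _ _, by linarith, lt_min hε one_pos,
    min_le_right _ _, ?_⟩
  intro O O1 O2 hO hO1 hO2 r hr hr1 hOO hOO1 v hv hvol d hd hdd s₁ s₂ hs₁ hs₂ hy₁ hy₂ G Λ hGc hΛ hG
    ρ hρ S1 S2 S3 S4 k2 M hM hks hk2
  obtain ⟨k1, k0, k1', k0', e1, e2, e3, e4, b1, b0, b1', b0', c1, c0, c1', c0'⟩ :=
    H O O1 O2 hO hO1 hO2 r hr hr1 hOO hOO1 v hv hvol s₁ s₂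
      ((hs₁.ord (le_max_left _ _)).mono (min_le_left _ _))
      ((hs₂.ord (le_max_left _ _)).mono (min_le_left _ _)) G Λ hGc hΛ hG ρ hρ S1 S2 S3 S4
      k2 M hM fun i j => (hk2 i j).ord (le_max_left _ _)
  have hY1 : 1 ≤ ρ * Λ / r * (v + 1) := by
    refine one_le_mul_of_one_le_of_one_le ?_ (by linarith)
    rw [le_div_iff₀ hr]
    have := one_le_mul_of_one_le_of_one_le hρ hΛ
    linarith
  obtain ⟨Y, hY⟩ : ∃ Y, Y = ρ * Λ / r * (v + 1) := ⟨_, rfl⟩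
  rw [← hY] at hY1 b0 b0'
  simp only [← hY] at b1 b1'
  rw [← hY]
  have hE0 : ∀ x, 0 ≤ Real.exp (ρ * G x) := fun x => (Real.exp_pos _).le
  have hsub1 : O1 ⊆ O := fun x hx => hOO x hx (Metric.mem_ball_self hr)
  have hsub2 : O2 ⊆ O1 := fun x hx => hOO1 x hx (Metric.mem_ball_self hr)
  have hYN : 1 ≤ Y ^ N := one_le_pow₀ hY1
  have hYM : 0 ≤ Y ^ N * M := mul_nonneg (by linarith) hM
  have hB1 : C * Y ^ N * M ≤ (C + 1) * Y ^ N * M := by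
    rw [mul_assoc, mul_assoc]
    exact mul_le_mul_of_nonneg_right (by linarith) hYM
  have hB2 : M ≤ (C + 1) * Y ^ N * M := by
    calc M = 1 * 1 * M := by ring
      _ ≤ (C + 1) * Y ^ N * M := by
        refine mul_le_mul_of_nonneg_right (mul_le_mul ?_ hYN zero_le_one ?_) hM <;> linarith
  generalize (C + 1) * Y ^ N * M = B at hB1 hB2 ⊢
  have c2 : ∀ i j, ContDiffOn ℝ ∞ (fun y => k2 y i j) O1 := fun i j => (hk2 i j).1.mono hsub1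
  have ck' := cdo_kkO c2 c1 c0 c1' c0'
  have hU : IsOpen (O1 ×ˢ O1) := hO1.prod hO1
  refine ⟨kk k2 k1 k0 k1' k0', k1, k1', ck', ?_, ?_, ?_, c1, c1', fun l => (b1 l).mono hE0 hB1,
    fun l => (b1' l).mono hE0 hB1, ?_⟩
  · intro z hz
    rw [Lx_eq s₁ ((ck'.contDiffAt (hU.mem_nhds hz)).of_le two_le')]
    exact Lv_kk_x (hy₁ _ (hsub1 hz.1)) (fun l => cdAt2 hO1 (c1' l) hz.1) (cdAt2 hO1 c0' hz.1)
      (e1 _ hz.1) (e2 _ hz.1)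
  · intro z hz
    rw [Ly_eq s₂ ((ck'.contDiffAt (hU.mem_nhds hz)).of_le two_le')]
    exact Lv_kk_y (hy₂ _ (hsub1 hz.2)) hks (fun i j => cdAt2 hO1 (c2 i j) hz.2)
      (fun l => cdAt2 hO1 (c1 l) hz.2) (cdAt2 hO1 c0 hz.2) (e3 _ hz.2) (e4 _ hz.2)
  · exact kkJ hO2 hE0 (hM.trans hB2) hd hdd
      (fun i j => (((hk2 i j).ord (le_max_right _ _)).sub_set (hsub2.trans hsub1)).mono hE0 hB2)
      (fun l => (b1 l).mono hE0 hB1) (b0.mono hE0 hB1) (fun l => (b1' l).mono hE0 hB1)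
      (b0'.mono hE0 hB1)
  · intro p hp i j
    exact mx_kk (hks p) (fun i j => cdAt2 hO1 (c2 i j) hp) (fun l => cdAt2 hO1 (c1 l) hp)
      (cdAt2 hO1 c0 hp) (fun l => cdAt2 hO1 (c1' l) hp) (cdAt2 hO1 c0' hp) i j

end Vale.Agent.P088.HY.S3
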