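import Vale.Agent.P088.R2.H673.S3.QF

/-!
# P088, stage 3: the cut-off kernel and the pairing
-/

open MeasureTheory Set Filter
open scoped ContDiff Matrix Topology

noncomputable section

namespace Vale.Agent.P088.HY.S3

open Vale.Agent.P088.LR Vale.Agent.P088.HY.QM

section ext

variable {E : Type*} [NormedAddCommGroup E] [NormedSpace ℝ E]

/-- Extension by zero. -/
theorem cd_ext {U : Set E} (hU : IsOpen U) {η f : E → ℝ} (hη : ContDiff ℝ ∞ η)
    (hs : tsupport η ⊆ U) (hf : ContDiffOn ℝ ∞ f U) : ContDiff ℝ ∞ (fun z => η z * f z) := by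
  rw [contDiff_iff_contDiffAt]
  intro z
  by_cases hz : z ∈ U
  · exact hη.contDiffAt.mul (hf.contDiffAt (hU.mem_nhds hz))
  · have h1 : (fun z => η z * f z) =ᶠ[𝓝 z] fun _ => 0 := by
      filter_upwards [notMem_tsupport_iff_eventuallyEq.mp (fun h => hz (hs h))] with y hy
      rw [hy]; simp
    exact contDiffAt_const.congr_of_eventuallyEq h1

omit [NormedSpace ℝ E] in
theorem ev_zero {η f : E → ℝ} {z : E} (hz : z ∉ tsupport η) :
    (fun z => η z * f z) =ᶠ[𝓝 z] fun _ => 0 := by
  filter_upwards [notMem_tsupport_iff_eventuallyEq.mp hz] with y hy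
  rw [hy]; simp

end ext

variable {n : ℕ}

theorem cdpd {f : V n → ℝ} (h : ContDiff ℝ ∞ f) (i : Fin n) : ContDiff ℝ ∞ (pd i f) :=
  (h.fderiv_right (m := ∞) (by simp)).clm_apply contDiff_const

theorem tsupport_pd (f : V n → ℝ) (i : Fin n) : tsupport (pd i f) ⊆ tsupport f :=
  tsupport_fderiv_apply_subset ℝ _

theorem int_pd_zero' {F : V n → ℝ} (hF : ContDiff ℝ ∞ F) (hc : HasCompactSupport F) (i : Fin n) :
    ∫ p, pd i F p = 0 := by
  have hc' : HasCompactSupport (pd i F) := hc.mono' (subset_closure.trans (tsupport_pd F i))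
  have h := integral_mul_fderiv_eq_neg_fderiv_mul_of_integrable (μ := (volume : Measure (V n)))
    (f := fun _ : V n => (1 : ℝ)) (g := F) (v := Pi.single i 1)
    (by simp)
    (by
      simp only [one_mul]
      exact (cdpd hF i).continuous.integrable_of_hasCompactSupport hc')
    (by
      simp only [one_mul]
      exact hF.continuous.integrable_of_hasCompactSupport hc)
    (fun x _ => by simp) (fun x _ => (hF.differentiable (by simp)).differentiableAt)
  simp only [one_mul] at h
  show ∫ p, fderiv ℝ F p (Pi.single i 1) = 0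
  rw [h]
  simp

theorem hcs_mul {η f : V n → ℝ} (hc : HasCompactSupport η) : HasCompactSupport (fun z => η z * f z) :=
  hc.mul_right

theorem hcs_pd {η : V n → ℝ} (hc : HasCompactSupport η) (i : Fin n) : HasCompactSupport (pd i η) :=
  hc.mono' (subset_closure.trans (tsupport_pd η i))

/-- Integration by parts against a divergence free tensor with a cut-off. -/
theorem ibpC {O : Set (V n)} (hO : IsOpen O) {χ : V n → ℝ} (hχ : ContDiff ℝ ∞ χ)
    (hc : HasCompactSupport χ) (hs : tsupport χ ⊆ O) {h : MF n}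
    (hh : ∀ i j, ContDiffOn ℝ ∞ (fun x => h x i j) O)
    (hd : ∀ x ∈ O, ∀ j, ∑ i, pd i (fun y => h y i j) x = 0) {w : Fin n → V n → ℝ}
    (hw : ∀ j, ContDiffOn ℝ ∞ (w j) O) :
    ∫ p, χ p * ∑ i, ∑ j, h p i j * pd i (w j) p =
      -∫ p, ∑ i, ∑ j, pd i χ p * (h p i j * w j p) := by
  have c1 : ∀ i j, ContDiff ℝ ∞ (fun p => χ p * (h p i j * w j p)) := fun i j =>
    cd_ext hO hχ hs ((hh i j).mul (hw j))
  have c2 : ∀ i j, ContDiff ℝ ∞ (fun p => pd i χ p * (h p i j * w j p)) := fun i j =>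
    cd_ext hO (cdpd hχ i) ((tsupport_pd χ i).trans hs) ((hh i j).mul (hw j))
  have c3 : ContDiff ℝ ∞ (fun p => χ p * ∑ i, ∑ j, h p i j * pd i (w j) p) :=
    cd_ext hO hχ hs (ContDiffOn.sum fun i _ => ContDiffOn.sum fun j _ =>
      (hh i j).mul (cdo_pd' hO (hw j) i))
  have i1 : ∀ i j, Integrable (pd i (fun p => χ p * (h p i j * w j p))) := fun i j =>
    (cdpd (c1 i j) i).continuous.integrable_of_hasCompactSupport (hcs_pd (hcs_mul hc) i)
  have i2 : ∀ i j, Integrable (fun p => pd i χ p * (h p i j * w j p)) := fun i j =>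
    (c2 i j).continuous.integrable_of_hasCompactSupport (hcs_mul (hcs_pd hc i))
  have i3 : Integrable (fun p => χ p * ∑ i, ∑ j, h p i j * pd i (w j) p) :=
    c3.continuous.integrable_of_hasCompactSupport (hcs_mul hc)
  have i4 : Integrable (fun p => ∑ i, ∑ j, pd i χ p * (h p i j * w j p)) :=
    integrable_finsetSum _ fun i _ => integrable_finsetSum _ fun j _ => i2 i j
  have e1 : ∫ p, ∑ i, ∑ j, pd i (fun p => χ p * (h p i j * w j p)) p = 0 := by
    rw [integral_finsetSum _ fun i _ => integrable_finsetSum _ fun j _ => i1 i j]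
    refine Finset.sum_eq_zero fun i _ => ?_
    rw [integral_finsetSum _ fun j _ => i1 i j]
    exact Finset.sum_eq_zero fun j _ => int_pd_zero' (c1 i j) (hcs_mul hc) i
  have e2 : ∀ p, ∑ i, ∑ j, pd i (fun p => χ p * (h p i j * w j p)) p =
      (∑ i, ∑ j, pd i χ p * (h p i j * w j p)) + χ p * ∑ i, ∑ j, h p i j * pd i (w j) p := by
    intro p
    by_cases hp : p ∈ O
    · have d1 : ∀ i j, DifferentiableAt ℝ (fun x => h x i j) p := fun i j =>
        ((hh i j).contDiffAt (hO.mem_nhds hp)).differentiableAt (by simp)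
      have d2 : ∀ j, DifferentiableAt ℝ (w j) p := fun j =>
        ((hw j).contDiffAt (hO.mem_nhds hp)).differentiableAt (by simp)
      have d3 : DifferentiableAt ℝ χ p := (hχ.differentiable (by simp)).differentiableAt
      have e3 : ∀ i j, pd i (fun p => χ p * (h p i j * w j p)) p =
          (pd i χ p * (h p i j * w j p) + χ p * (h p i j * pd i (w j) p)) +
            (χ p * w j p) * pd i (fun x => h x i j) p := by
        intro i j
        rw [pd_mul (f := χ) (g := fun p => h p i j * w j p) d3 ((d1 i j).mul (d2 j)),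
          pd_mul (f := fun p => h p i j) (g := w j) (d1 i j) (d2 j)]
        ring
      simp only [e3, Finset.sum_add_distrib, Finset.mul_sum]
      have e4 : ∑ i, ∑ j, (χ p * w j p) * pd i (fun x => h x i j) p = 0 := by
        rw [Finset.sum_comm]
        refine Finset.sum_eq_zero fun j _ => ?_
        rw [← Finset.mul_sum, hd p hp j, mul_zero]
      rw [e4, add_zero]
    · have hp' : p ∉ tsupport χ := fun h => hp (hs h)
      have e3 : ∀ i j, pd i (fun p => χ p * (h p i j * w j p)) p = 0 := by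
        intro i j
        rw [pd_congr (ev_zero hp'), pd_const]
      have e4 : ∀ i, pd i χ p = 0 := fun i =>
        image_eq_zero_of_notMem_tsupport fun h => hp' (tsupport_pd χ i h)
      simp [e3, e4, image_eq_zero_of_notMem_tsupport hp']
  simp only [e2] at e1
  rw [integral_add i4 i3] at e1
  linarith

/-- The mixed derivative of the cut-off kernel on the diagonal. -/
theorem mx_cut {η k : VV n → ℝ} {p : V n} (h : ∀ᶠ z in 𝓝 ((p, p) : VV n), η z = 1) (i j : Fin n) :
    dx i (dy j (fun z => η z * k z)) (p, p) = dx i (dy j k) (p, p) := by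
  have h1 : (fun z => η z * k z) =ᶠ[𝓝 (p, p)] k := by
    filter_upwards [h] with z hz
    rw [hz, one_mul]
  refine dx_congr ?_
  filter_upwards [h1.eventuallyEq_nhds] with z hz
  unfold dy
  rw [hz.fderiv_eq]

/-- The pairing. -/
theorem pairQ {O1 : Set (V n)} (hO1 : IsOpen O1) {χ : V n → ℝ} (hχ : ContDiff ℝ ∞ χ)
    (hc : HasCompactSupport χ) (hs : tsupport χ ⊆ O1) {h k2 : MF n}
    (hh : ∀ i j, ContDiffOn ℝ ∞ (fun x => h x i j) O1) (hsy : ∀ x ∈ O1, (h x).IsSymm)
    (hd : ∀ x ∈ O1, ∀ j, ∑ i, pd i (fun y => h y i j) x = 0)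
    (hk2 : ∀ i j, ContDiffOn ℝ ∞ (fun x => k2 x i j) O1) {η k : VV n → ℝ}
    {k1 k1' : Fin n → V n → ℝ} (h1 : ∀ l, ContDiffOn ℝ ∞ (k1 l) O1)
    (h1' : ∀ l, ContDiffOn ℝ ∞ (k1' l) O1)
    (hη : ∀ p ∈ tsupport χ, ∀ᶠ z in 𝓝 ((p, p) : VV n), η z = 1)
    (hm : ∀ p ∈ O1, ∀ i j, dx i (dy j k) (p, p) = -k2 p i j + pd j (k1 i) p - pd i (k1' j) p) :
    ∫ p, χ p * ∑ i, ∑ j, h p i j * dx i (dy j (fun z => η z * k z)) (p, p) =
      -(∫ p, χ p * ∑ i, ∑ j, h p i j * k2 p i j) +
      ∫ p, ∑ i, ∑ j, pd i χ p * (h p i j * (k1' j p - k1 j p)) := by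
  have e1 : ∀ p, χ p * ∑ i, ∑ j, h p i j * dx i (dy j (fun z => η z * k z)) (p, p) =
      -(χ p * ∑ i, ∑ j, h p i j * k2 p i j) -
        χ p * ∑ i, ∑ j, h p i j * pd i (fun x => k1' j x - k1 j x) p := by
    intro p
    by_cases hp : p ∈ tsupport χ
    · have hpO := hs hp
      have d1 : ∀ j, DifferentiableAt ℝ (k1 j) p := fun j =>
        ((h1 j).contDiffAt (hO1.mem_nhds hpO)).differentiableAt (by simp)
      have d2 : ∀ j, DifferentiableAt ℝ (k1' j) p := fun j =>
        ((h1' j).contDiffAt (hO1.mem_nhds hpO)).differentiableAt (by simp)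
      have e2 : ∀ i j, pd i (fun x => k1' j x - k1 j x) p = pd i (k1' j) p - pd i (k1 j) p := by
        intro i j
        unfold pd
        rw [fderiv_fun_sub (d2 j) (d1 j)]
        rfl
      simp only [mx_cut (hη p hp), hm p hpO, e2]
      have e3 : ∑ i, ∑ j, h p i j * pd j (k1 i) p = ∑ i, ∑ j, h p i j * pd i (k1 j) p := by
        rw [Finset.sum_comm]
        refine Finset.sum_congr rfl fun i _ => Finset.sum_congr rfl fun j _ => ?_
        rw [(hsy p hpO).apply i j]
      have e4 : ∑ i, ∑ j, h p i j * (-k2 p i j + pd j (k1 i) p - pd i (k1' j) p) =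
          -(∑ i, ∑ j, h p i j * k2 p i j) + ∑ i, ∑ j, h p i j * pd j (k1 i) p -
            ∑ i, ∑ j, h p i j * pd i (k1' j) p := by
        simp only [← Finset.sum_neg_distrib, ← Finset.sum_add_distrib, ← Finset.sum_sub_distrib]
        refine Finset.sum_congr rfl fun i _ => Finset.sum_congr rfl fun j _ => ?_
        ring
      have e5 : ∑ i, ∑ j, h p i j * (pd i (k1' j) p - pd i (k1 j) p) =
          ∑ i, ∑ j, h p i j * pd i (k1' j) p - ∑ i, ∑ j, h p i j * pd i (k1 j) p := by
        simp only [← Finset.sum_sub_distrib]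
        refine Finset.sum_congr rfl fun i _ => Finset.sum_congr rfl fun j _ => ?_
        ring
      rw [e4, e5, e3]
      ring
    · simp [image_eq_zero_of_notMem_tsupport hp]
  have i1 : Integrable (fun p => χ p * ∑ i, ∑ j, h p i j * k2 p i j) :=
    (cd_ext hO1 hχ hs (ContDiffOn.sum fun i _ => ContDiffOn.sum fun j _ =>
      (hh i j).mul (hk2 i j))).continuous.integrable_of_hasCompactSupport (hcs_mul hc)
  have hw : ∀ j, ContDiffOn ℝ ∞ (fun x => k1' j x - k1 j x) O1 := fun j => (h1' j).sub (h1 j)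
  have i2 : Integrable (fun p => χ p * ∑ i, ∑ j, h p i j * pd i (fun x => k1' j x - k1 j x) p) :=
    (cd_ext hO1 hχ hs (ContDiffOn.sum fun i _ => ContDiffOn.sum fun j _ =>
      (hh i j).mul (cdo_pd' hO1 (hw j) i))).continuous.integrable_of_hasCompactSupport (hcs_mul hc)
  have i3 : Integrable (fun p => -(χ p * ∑ i, ∑ j, h p i j * k2 p i j)) := i1.neg
  simp only [e1]
  rw [integral_sub i3 i2, integral_neg, ibpC hO1 hχ hc hs hh hd hw]
  ring

end Vale.Agent.P088.HY.S3
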