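import Vale.Agent.P088.R2.H673.S3.QG

/-!
# P088, stage 3, row QM': the approximate kernel with a weight
-/

open MeasureTheory Set Filter
open scoped ContDiff Matrix Topology

noncomputable section

namespace Vale.Agent.P088.HY.S3

open Vale.Agent.P088.LR Vale.Agent.P088.HY.QM

variable {n : ℕ}

theorem dx_zero_of {f : VV n → ℝ} {z : VV n} (h : fderiv ℝ f =ᶠ[𝓝 z] 0) (i : Fin n) :
    dx i f =ᶠ[𝓝 z] fun _ => 0 := by
  filter_upwards [h] with w hw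
  unfold dx
  rw [hw]; rfl

theorem dy_zero_of {f : VV n → ℝ} {z : VV n} (h : fderiv ℝ f =ᶠ[𝓝 z] 0) (i : Fin n) :
    dy i f =ᶠ[𝓝 z] fun _ => 0 := by
  filter_upwards [h] with w hw
  unfold dy
  rw [hw]; rfl

theorem Lx_zero_of {s : MF n} {f : VV n → ℝ} {z : VV n} (h : fderiv ℝ f =ᶠ[𝓝 z] 0) :
    Lx s f z = 0 := by
  unfold Lx
  refine Finset.sum_eq_zero fun i _ => Finset.sum_eq_zero fun j _ => ?_
  rw [dx_congr (dx_zero_of h j)]
  simp [dx]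

theorem Ly_zero_of {s : MF n} {f : VV n → ℝ} {z : VV n} (h : fderiv ℝ f =ᶠ[𝓝 z] 0) :
    Ly s f z = 0 := by
  unfold Ly
  refine Finset.sum_eq_zero fun i _ => Finset.sum_eq_zero fun j _ => ?_
  have : dy i (dy j f) z = 0 := by
    unfold dy
    have := (dy_zero_of h j).fderiv_eq (𝕜 := ℝ)
    rw [show (fun w => fderiv ℝ f w (0, Pi.single j 1)) = dy j f from rfl, this]
    simp
  rw [this, mul_zero]

theorem Lx_congr {s : MF n} {f g : VV n → ℝ} {z : VV n} (h : f =ᶠ[𝓝 z] g) :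
    Lx s f z = Lx s g z := by
  unfold Lx
  refine Finset.sum_congr rfl fun i _ => Finset.sum_congr rfl fun j _ => ?_
  have h1 : dx j f =ᶠ[𝓝 z] dx j g := by
    filter_upwards [h.eventuallyEq_nhds] with y hy using dx_congr hy
  rw [dx_congr h1]

theorem Ly_congr {s : MF n} {f g : VV n → ℝ} {z : VV n} (h : f =ᶠ[𝓝 z] g) :
    Ly s f z = Ly s g z := by
  unfold Ly
  refine Finset.sum_congr rfl fun i _ => Finset.sum_congr rfl fun j _ => ?_
  have h1 : dy j f =ᶠ[𝓝 z] dy j g := by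
    filter_upwards [h.eventuallyEq_nhds] with y hy
    unfold dy; rw [hy.fderiv_eq]
  have h2 : dy i (dy j f) z = dy i (dy j g) z := by
    show fderiv ℝ (dy j f) z _ = fderiv ℝ (dy j g) z _
    rw [h1.fderiv_eq]
  rw [h2]

/-- Where the cut-off is constant. -/
theorem cut_x {U : Set (VV n)} (hU : IsOpen U) {η k : VV n → ℝ} (hη : ContDiff ℝ ∞ η)
    (hk : ContDiffOn ℝ ∞ k U) (hs : tsupport η ⊆ U) {s : MF n} {R : VV n → ℝ}
    (hsy : ∀ z ∈ U, (s z.1).IsSymm) (hR : ∀ z ∈ U, Lx s k z = R z) {z : VV n}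
    (hz : z ∉ tsupport (fderiv ℝ η)) : Lx s (fun w => η w * k w) z = η z * R z := by
  by_cases hzU : z ∈ U
  · have h1 : fderiv ℝ η =ᶠ[𝓝 z] 0 := notMem_tsupport_iff_eventuallyEq.mp hz
    rw [Lx_mul (hsy z hzU) (hη.contDiffAt.of_le two_le')
      ((hk.contDiffAt (hU.mem_nhds hzU)).of_le two_le'), hR z hzU, Lx_zero_of h1]
    have h2 : ∀ i, dx i η z = 0 := fun i => (dx_zero_of h1 i).eq_of_nhds
    simp [h2]
  · have h1 : z ∉ tsupport η := fun h => hzU (hs h)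
    rw [Lx_congr (ev_zero h1), image_eq_zero_of_notMem_tsupport h1, zero_mul]
    unfold Lx dx
    simp

/-- Where the cut-off is constant. -/
theorem cut_y {U : Set (VV n)} (hU : IsOpen U) {η k : VV n → ℝ} (hη : ContDiff ℝ ∞ η)
    (hk : ContDiffOn ℝ ∞ k U) (hs : tsupport η ⊆ U) {s : MF n} {R : VV n → ℝ}
    (hsy : ∀ z ∈ U, (s z.2).IsSymm) (hR : ∀ z ∈ U, Ly s k z = R z) {z : VV n}
    (hz : z ∉ tsupport (fderiv ℝ η)) : Ly s (fun w => η w * k w) z = η z * R z := by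
  by_cases hzU : z ∈ U
  · have h1 : fderiv ℝ η =ᶠ[𝓝 z] 0 := notMem_tsupport_iff_eventuallyEq.mp hz
    rw [Ly_mul (hsy z hzU) (hη.contDiffAt.of_le two_le')
      ((hk.contDiffAt (hU.mem_nhds hzU)).of_le two_le'), hR z hzU, Ly_zero_of h1]
    have h2 : ∀ i, dy i η z = 0 := fun i => (dy_zero_of h1 i).eq_of_nhds
    simp [h2]
  · have h1 : z ∉ tsupport η := fun h => hzU (hs h)
    rw [Ly_congr (ev_zero h1), image_eq_zero_of_notMem_tsupport h1, zero_mul]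
    unfold Ly dy
    simp

/-- The residuals of the cut-off kernel. -/
theorem cutB {O : Set (V n)} (hO : IsOpen O) {E : V n → ℝ} {η k : VV n → ℝ}
    (hη : ContDiff ℝ ∞ η) (hs : tsupport η ⊆ O ×ˢ O) {b B : ℝ}
    (hb : ∀ l ≤ 2, ∀ z, ‖iteratedFDeriv ℝ l η z‖ ≤ b) (hk : JP (O ×ˢ O) E 2 B k)
    {s₁ s₂ : MF n} (hy₁ : ∀ x ∈ O, (s₁ x).IsSymm) (hy₂ : ∀ x ∈ O, (s₂ x).IsSymm)
    (b₁ : ∀ x ∈ O, ∀ i j, |s₁ x i j| ≤ 2) (b₂ : ∀ x ∈ O, ∀ i j, |s₂ x i j| ≤ 2)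
    {R R' : VV n → ℝ} (hR : ∀ z ∈ O ×ˢ O, Lx s₁ k z = R z)
    (hR' : ∀ z ∈ O ×ˢ O, Ly s₂ k z = R' z) :
    (∀ z, |Lx s₁ (fun w => η w * k w) z - η z * R z| ≤
      (tsupport (fderiv ℝ η)).indicator (fun z => n * (n * 6) * b * B * (E z.1 + E z.2)) z) ∧
    (∀ z, |Ly s₂ (fun w => η w * k w) z - η z * R' z| ≤
      (tsupport (fderiv ℝ η)).indicator (fun z => n * (n * 6) * b * B * (E z.1 + E z.2)) z) := by
  have hU : IsOpen (O ×ˢ O) := hO.prod hO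
  have hJ : Jl (O ×ˢ O) 2 (fun _ => b) η := ⟨hη.contDiffOn, fun l hl z _ => hb l hl z⟩
  constructor
  · intro z
    by_cases hz : z ∈ tsupport (fderiv ℝ η)
    · have hzU : z ∈ O ×ˢ O := hs (tsupport_fderiv_subset ℝ hz)
      rw [indicator_of_mem hz, ← hR z hzU]
      refine (comm_x hU hJ hk hzU (hy₁ _ hzU.1) (b₁ _ hzU.1)).trans (le_of_eq ?_)
      ring
    · rw [indicator_of_notMem hz, cut_x hU hη hk.1 hs (fun z hz => hy₁ _ hz.1) hR hz, sub_self,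
        abs_zero]
  · intro z
    by_cases hz : z ∈ tsupport (fderiv ℝ η)
    · have hzU : z ∈ O ×ˢ O := hs (tsupport_fderiv_subset ℝ hz)
      rw [indicator_of_mem hz, ← hR' z hzU]
      refine (comm_y hU hJ hk hzU (hy₂ _ hzU.2) (b₂ _ hzU.2)).trans (le_of_eq ?_)
      ring
    · rw [indicator_of_notMem hz, cut_y hU hη hk.1 hs (fun z hz => hy₂ _ hz.2) hR' hz, sub_self,
        abs_zero]

end Vale.Agent.P088.HY.S3
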