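import Vale.Agent.P088.R2.H673.S3.QH

/-!
# P088, stage 3, row QM': the approximate kernel with a weight (final form)
-/

open MeasureTheory Set Filter
open scoped ContDiff Matrix Topology

noncomputable section

namespace Vale.Agent.P088.HY.S3

open Vale.Agent.P088.LR Vale.Agent.P088.HY.QM

variable {n : ℕ}

/-- Bound of the boundary terms of the pairing. -/
theorem pair_le {O : Set (V n)} (hO : IsOpen O) {E χ : V n → ℝ} {B : ℝ} (hχ : ContDiff ℝ ∞ χ)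
    (hE : ContinuousOn E O)
    (hc : HasCompactSupport χ) (hs : tsupport χ ⊆ O) {h : MF n}
    (hh : ∀ i j, ContDiffOn ℝ ∞ (fun x => h x i j) O) {k1 k1' : Fin n → V n → ℝ} {L : ℕ}
    (b1 : ∀ l, JE O E L B (k1 l)) (b1' : ∀ l, JE O E L B (k1' l)) :
    |∫ p, ∑ i, ∑ j, pd i χ p * (h p i j * (k1' j p - k1 j p))| ≤
      2 * B * ∫ p, ∑ i, ∑ j, |pd i χ p| * (|h p i j| * E p) := by
  have hg : ∀ i j, Integrable (fun p => |pd i χ p| * (|h p i j| * E p)) := by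
    intro i j
    have h1 : ContinuousOn (fun p => |h p i j| * E p) O := (hh i j).continuousOn.abs.mul hE
    have h2 : Continuous (fun p => |pd i χ p| * (|h p i j| * E p)) := by
      rw [continuous_iff_continuousAt]
      intro z
      by_cases hz : z ∈ O
      · exact ((cdpd hχ i).continuous.abs.continuousAt).mul (h1.continuousAt (hO.mem_nhds hz))
      · have hz' : z ∉ tsupport (pd i χ) := fun h => hz (hs (tsupport_pd χ i h))
        have h3 : (fun p => |pd i χ p| * (|h p i j| * E p)) =ᶠ[𝓝 z] fun _ => 0 := by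
          filter_upwards [notMem_tsupport_iff_eventuallyEq.mp hz'] with y hy
          rw [hy]; simp
        exact (continuousAt_const).congr h3.symm
    refine h2.integrable_of_hasCompactSupport ?_
    exact (hcs_pd hc i).mono fun p hp => by
      rw [Function.mem_support] at hp ⊢
      intro h0
      exact hp (by rw [h0]; simp)
  rw [← integral_const_mul]
  have hgi : Integrable (fun p => 2 * B * ∑ i, ∑ j, |pd i χ p| * (|h p i j| * E p)) :=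
    (integrable_finsetSum _ fun i _ => integrable_finsetSum _ fun j _ => hg i j).const_mul _
  rw [← Real.norm_eq_abs]
  refine norm_integral_le_of_norm_le hgi (ae_of_all _ fun p => ?_)
  rw [Real.norm_eq_abs, Finset.mul_sum]
  refine (Finset.abs_sum_le_sum_abs _ _).trans (Finset.sum_le_sum fun i _ => ?_)
  rw [Finset.mul_sum]
  refine (Finset.abs_sum_le_sum_abs _ _).trans (Finset.sum_le_sum fun j _ => ?_)
  by_cases hp : p ∈ O
  · rw [abs_mul, abs_mul]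
    have h1 : |k1' j p - k1 j p| ≤ 2 * B * E p := by
      refine (abs_sub _ _).trans ?_
      have := (b1 j).abs hp
      have := (b1' j).abs hp
      linarith
    calc |pd i χ p| * (|h p i j| * |k1' j p - k1 j p|)
        ≤ |pd i χ p| * (|h p i j| * (2 * B * E p)) :=
          mul_le_mul_of_nonneg_left (mul_le_mul_of_nonneg_left h1 (abs_nonneg _)) (abs_nonneg _)
      _ = _ := by ring
  · have hp' : pd i χ p = 0 := image_eq_zero_of_notMem_tsupport fun h => hp (hs (tsupport_pd χ i h))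
    rw [hp']; simp

/-- The constant of row QM'. -/
def cQ (n : ℕ) : ℝ := (n * (n * 6) + 1) * (8 * (n * n) + 8 * n + 2)

theorem ck_le {d : ℝ} (hd : 2 ≤ d) : ck n 2 d ≤ (8 * (n * n) + 8 * n + 2) * d ^ 2 := by
  have hn : (0 : ℝ) ≤ n := Nat.cast_nonneg n
  have h1 : (n : ℝ) * d ≤ n * d ^ 2 := by
    refine mul_le_mul_of_nonneg_left ?_ hn
    nlinarith
  have h2 : (1 : ℝ) ≤ d ^ 2 := by nlinarith
  unfold ck
  nlinarith

theorem cQ_one (n : ℕ) : 2 ≤ cQ n := by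
  have h1 : (1 : ℝ) ≤ n * (n * 6) + 1 := by
    have : (0 : ℝ) ≤ n * (n * 6) := by positivity
    linarith
  have h2 : (2 : ℝ) ≤ 8 * (n * n) + 8 * n + 2 := by
    have : (0 : ℝ) ≤ 8 * (n * n) + 8 * n := by positivity
    linarith
  unfold cQ
  nlinarith

theorem num4 {d C Y M : ℝ} (N : ℕ) (hd : 2 ≤ d) (hC : 0 ≤ C) (hY : 0 ≤ Y) (hM : 0 ≤ M) :
    ck n 2 d * (C * Y ^ N * M) ≤ cQ n * C * d ^ 2 * Y ^ N * M := by
  have h1 := ck_le (n := n) hd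
  have h2 : 0 ≤ C * Y ^ N * M := by positivity
  have h3 : (0 : ℝ) ≤ 8 * (n * n) + 8 * n + 2 := by positivity
  have h4 : (8 * (n * n) + 8 * n + 2) * d ^ 2 ≤ cQ n * d ^ 2 := by
    refine mul_le_mul_of_nonneg_right ?_ (sq_nonneg d)
    unfold cQ
    refine le_mul_of_one_le_left h3 ?_
    have : (0 : ℝ) ≤ n * (n * 6) := by positivity
    linarith
  calc ck n 2 d * (C * Y ^ N * M) ≤ cQ n * d ^ 2 * (C * Y ^ N * M) :=
        mul_le_mul_of_nonneg_right (h1.trans h4) h2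
    _ = _ := by ring

theorem num3 {b d C Y M : ℝ} (N : ℕ) (hb : 0 ≤ b) (hd : 2 ≤ d) (hC : 0 ≤ C) (hY : 0 ≤ Y)
    (hM : 0 ≤ M) :
    n * (n * 6) * b * (ck n 2 d * (C * Y ^ N * M)) ≤ b * (cQ n * C * d ^ 2 * Y ^ N * M) := by
  have h1 := ck_le (n := n) hd
  have h2 : 0 ≤ C * Y ^ N * M := by positivity
  have h3 : (0 : ℝ) ≤ 8 * (n * n) + 8 * n + 2 := by positivity
  have h5 : (0 : ℝ) ≤ n * (n * 6) := by positivity
  have h4 : n * (n * 6) * ((8 * (n * n) + 8 * n + 2) * d ^ 2) ≤ cQ n * d ^ 2 := by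
    rw [← mul_assoc]
    refine mul_le_mul_of_nonneg_right ?_ (sq_nonneg d)
    unfold cQ
    exact mul_le_mul_of_nonneg_right (by linarith) h3
  calc n * (n * 6) * b * (ck n 2 d * (C * Y ^ N * M))
      = b * (n * (n * 6) * ck n 2 d * (C * Y ^ N * M)) := by ring
    _ ≤ b * (cQ n * d ^ 2 * (C * Y ^ N * M)) :=
        mul_le_mul_of_nonneg_left (mul_le_mul_of_nonneg_right
          ((mul_le_mul_of_nonneg_left h1 h5).trans h4) h2) hb
    _ = _ := by ring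

theorem num5 {C Y M : ℝ} (N : ℕ) (hC : 0 ≤ C) (hY : 0 ≤ Y) (hM : 0 ≤ M) :
    2 * (C * Y ^ N * M) ≤ cQ n * C * Y ^ N * M := by
  have h2 : 0 ≤ C * Y ^ N * M := by positivity
  calc 2 * (C * Y ^ N * M) ≤ cQ n * (C * Y ^ N * M) := mul_le_mul_of_nonneg_right (cQ_one n) h2
    _ = _ := by ring

/-- **Row QM'**. -/
theorem rowQMW (hI : RowINV) (n : ℕ) : ∃ (K N : ℕ) (C ε : ℝ), 1 ≤ C ∧ 0 < ε ∧ ε ≤ 1 ∧
    ∀ (O O1 O2 : Set (V n)), IsOpen O → IsOpen O1 → IsOpen O2 → ∀ r : ℝ, 0 < r → r ≤ 1 →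
    (∀ x ∈ O1, Metric.ball x r ⊆ O) → (∀ x ∈ O2, Metric.ball x r ⊆ O1) →
    ∀ v : ℝ, 0 ≤ v → volume O ≤ ENNReal.ofReal (v ^ 2) →
    ∀ d : ℝ, 2 ≤ d → (∀ x ∈ O2, ∀ y ∈ O2, ‖x - y‖ ≤ d) →
    ∀ s₁ s₂ : MF n, Ns O K ε s₁ → Ns O K ε s₂ → (∀ x ∈ O, (s₁ x).IsSymm) →
    (∀ x ∈ O, (s₂ x).IsSymm) → ∀ (G : V n → ℝ) (Λ : ℝ), ContinuousOn G O →
    1 ≤ Λ → LG O1 r Λ G → ∀ ρ : ℝ, 1 ≤ ρ →
    Solv O s₁ G ρ 1 → Solv O s₂ G ρ 1 → Solv O1 s₁ G ρ 1 → Solv O1 s₂ G ρ 1 →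
    ∀ (k2 : MF n) (M : ℝ), 0 ≤ M → (∀ x, (k2 x).IsSymm) →
    (∀ i j, JE O (fun x => Real.exp (ρ * G x)) K M (fun x => k2 x i j)) →
    ∀ (η : VV n → ℝ) (b : ℝ), ContDiff ℝ ∞ η → tsupport η ⊆ O2 ×ˢ O2 →
    (∀ l ≤ 2, ∀ z, ‖iteratedFDeriv ℝ l η z‖ ≤ b) →
    ∃ K0 : VV n → ℝ, ContDiff ℝ ∞ K0 ∧ (∀ z ∉ tsupport η, K0 z = 0) ∧
    (∀ z, |Lx s₁ K0 z - η z * Rx s₁ k2 z| ≤ (tsupport (fderiv ℝ η)).indicator (fun z =>
      b * (C * d ^ 2 * (ρ * Λ / r * (v + 1)) ^ N * M) *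
        (Real.exp (ρ * G z.1) + Real.exp (ρ * G z.2))) z) ∧
    (∀ z, |Ly s₂ K0 z - η z * Ry s₂ k2 z| ≤ (tsupport (fderiv ℝ η)).indicator (fun z =>
      b * (C * d ^ 2 * (ρ * Λ / r * (v + 1)) ^ N * M) *
        (Real.exp (ρ * G z.1) + Real.exp (ρ * G z.2))) z) ∧
    (∀ z ∈ O2 ×ˢ O2, |K0 z| ≤ |η z| * (C * d ^ 2 * (ρ * Λ / r * (v + 1)) ^ N * M) *
        (Real.exp (ρ * G z.1) + Real.exp (ρ * G z.2))) ∧
    ∀ (h : MF n) (χ : V n → ℝ), (∀ i j, ContDiffOn ℝ ∞ (fun x => h x i j) O2) →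
    (∀ x ∈ O2, (h x).IsSymm) → (∀ x ∈ O2, ∀ j, ∑ i, pd i (fun y => h y i j) x = 0) →
    ContDiff ℝ ∞ χ → HasCompactSupport χ → tsupport χ ⊆ O2 →
    (∀ p ∈ tsupport χ, ∀ᶠ z in 𝓝 ((p, p) : VV n), η z = 1) →
    |(∫ p, χ p * ∑ i, ∑ j, h p i j * dx i (dy j K0) (p, p)) +
      ∫ p, χ p * ∑ i, ∑ j, h p i j * k2 p i j| ≤
      C * (ρ * Λ / r * (v + 1)) ^ N * M *
        ∫ p, ∑ i, ∑ j, |pd i χ p| * (|h p i j| * Real.exp (ρ * G p)) := by
  obtain ⟨K, N, C, ε, hLK, hC, hε, hε1, H⟩ := kernelQ hI n 2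
  refine ⟨K, N, cQ n * C, ε, one_le_mul_of_one_le_of_one_le (by linarith [cQ_one n]) hC, hε, hε1, ?_⟩
  intro O O1 O2 hO hO1 hO2 r hr hr1 hOO hOO1 v hv hvol d hd hdd s₁ s₂ hs₁ hs₂ hy₁ hy₂ G Λ hGc hΛ hG
    ρ hρ S1 S2 S3 S4 k2 M hM hks hk2 η b hη hηs hb
  obtain ⟨k, k1, k1', ck', hx, hy, hJ, c1, c1', b1, b1', hm⟩ := H O O1 O2 hO hO1 hO2 r hr hr1 hOO
    hOO1 v hv hvol d hd hdd s₁ s₂ hs₁ hs₂ hy₁ hy₂ G Λ hGc hΛ hG ρ hρ S1 S2 S3 S4 k2 M hM hks hk2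
  have hsub1 : O1 ⊆ O := fun x hx => hOO x hx (Metric.mem_ball_self hr)
  have hsub2 : O2 ⊆ O1 := fun x hx => hOO1 x hx (Metric.mem_ball_self hr)
  have hU2 : O2 ×ˢ O2 ⊆ O1 ×ˢ O1 := prod_mono hsub2 hsub2
  have hY0 : 0 ≤ ρ * Λ / r * (v + 1) := by positivity
  have hb0 : 0 ≤ b := (norm_nonneg _).trans (hb 0 (Nat.zero_le _) 0)
  have hC0 : 0 ≤ C := by linarith
  have m3 := num3 (n := n) N hb0 hd hC0 hY0 hM
  have m4 := num4 (n := n) N hd hC0 hY0 hM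
  have m5 := num5 (n := n) N hC0 hY0 hM
  generalize cQ n * C * d ^ 2 * (ρ * Λ / r * (v + 1)) ^ N * M = B1 at m3 m4 ⊢
  generalize cQ n * C * (ρ * Λ / r * (v + 1)) ^ N * M = B2 at m5 ⊢
  generalize C * (ρ * Λ / r * (v + 1)) ^ N * M = B3 at *
  have hEp : ∀ x, 0 ≤ Real.exp (ρ * G x) := fun x => (Real.exp_pos _).le
  have hab : ∀ s : MF n, Ns O K ε s → ∀ x ∈ O2, ∀ i j, |s x i j| ≤ 2 := fun s hs x hx i j =>
    (hs.entry hO hε1 i j).abs (hsub1 (hsub2 hx))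
  obtain ⟨f1, f2⟩ := cutB hO2 hη hηs hb hJ (fun x hx => hy₁ x (hsub1 (hsub2 hx)))
    (fun x hx => hy₂ x (hsub1 (hsub2 hx))) (hab s₁ hs₁) (hab s₂ hs₂)
    (fun z hz => hx z (hU2 hz)) (fun z hz => hy z (hU2 hz))
  have hind : ∀ z, (tsupport (fderiv ℝ η)).indicator (fun z => n * (n * 6) * b * (ck n 2 d * B3) *
      (Real.exp (ρ * G z.1) + Real.exp (ρ * G z.2))) z ≤
      (tsupport (fderiv ℝ η)).indicator (fun z => b * B1 *
        (Real.exp (ρ * G z.1) + Real.exp (ρ * G z.2))) z := fun z =>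
    indicator_le_indicator (mul_le_mul_of_nonneg_right m3 (add_nonneg (hEp _) (hEp _)))
  refine ⟨fun z => η z * k z, cd_ext (hO2.prod hO2) hη hηs (ck'.mono hU2), fun z hz => ?_,
    fun z => (f1 z).trans (hind z), fun z => (f2 z).trans (hind z), fun z hz => ?_, ?_⟩
  · show η z * k z = 0
    rw [image_eq_zero_of_notMem_tsupport hz, zero_mul]
  · show |η z * k z| ≤ _
    rw [abs_mul, mul_assoc]
    refine mul_le_mul_of_nonneg_left ?_ (abs_nonneg _)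
    exact (hJ.abs hz).trans (mul_le_mul_of_nonneg_right m4 (add_nonneg (hEp _) (hEp _)))
  · intro h χ hh hsy hd' hχ hc hs hη1
    have e1 := pairQ hO2 hχ hc hs hh hsy hd' (fun i j => (hk2 i j).1.mono (hsub2.trans hsub1))
      (η := η) (k := k) (fun l => (c1 l).mono hsub2) (fun l => (c1' l).mono hsub2) hη1
      (fun p hp => hm p (hsub2 hp))
    rw [e1]
    have hE : ContinuousOn (fun x => Real.exp (ρ * G x)) O2 :=
      (continuousOn_const.mul (hGc.mono (hsub2.trans hsub1))).rexp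
    have e2 := pair_le hO2 hχ hE hc hs hh b1 b1'
    have e3 : 0 ≤ ∫ p, ∑ i, ∑ j, |pd i χ p| * (|h p i j| * Real.exp (ρ * G p)) :=
      integral_nonneg fun p => Finset.sum_nonneg fun i _ => Finset.sum_nonneg fun j _ =>
        mul_nonneg (abs_nonneg _) (mul_nonneg (abs_nonneg _) (hEp _))
    refine le_trans (le_of_eq ?_) (e2.trans (mul_le_mul_of_nonneg_right m5 e3))
    congr 1
    ring

end Vale.Agent.P088.HY.S3
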