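import Vale.Agent.P088.R2.H673.S3.QA
import Vale.Agent.P088.R2.H673.QM1

/-!
# P088, stage 3: the jets of `k2 = - χ e^{2ρG} tfp s h`
-/

open MeasureTheory Set Filter
open scoped ContDiff Matrix Topology

noncomputable section

namespace Vale.Agent.P088.HY.S3

open Vale.Agent.P088.LR Vale.Agent.P088.HY.QM

section gen

variable {E : Type} [NormedAddCommGroup E] [NormedSpace ℝ E]

/-- Jets of the exponential. -/
theorem Jl.exp {O : Set E} (hO : IsOpen O) {k : ℕ} {f : E → ℝ} (hf : ContDiffOn ℝ ∞ f O) {D : ℝ}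
    (hD : 1 ≤ D) (h : ∀ i, 1 ≤ i → i ≤ k → ∀ x ∈ O, ‖iteratedFDeriv ℝ i f x‖ ≤ D ^ i) :
    Jl O k (fun x => k.factorial * D ^ k * Real.exp (f x)) (fun x => Real.exp (f x)) := by
  refine ⟨hf.exp, fun l hl x hx => ?_⟩
  have key := norm_iteratedFDerivWithin_comp_le (𝕜 := ℝ) (g := Real.exp) (f := f) (n := l)
    (s := O) (t := univ) (N := ∞) Real.contDiff_exp.contDiffOn hf (by exact_mod_cast le_top)
    uniqueDiffOn_univ hO.uniqueDiffOn (mapsTo_univ _ _) hx (C := Real.exp (f x)) (D := D)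
    (fun i _ => by
      rw [iteratedFDerivWithin_univ, norm_iteratedFDeriv_eq_norm_iteratedDeriv,
        iteratedDeriv_eq_iterate, Real.iter_deriv_exp, Real.norm_eq_abs,
        abs_of_pos (Real.exp_pos _)])
    (fun i hi1 hi2 => by
      rw [iteratedFDerivWithin_of_isOpen i hO hx]
      exact h i hi1 (hi2.trans hl) x hx)
  rw [iteratedFDerivWithin_of_isOpen l hO hx] at key
  refine key.trans ?_
  have h3 : (l.factorial : ℝ) ≤ k.factorial := by exact_mod_cast Nat.factorial_le hl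
  have h4 : D ^ l ≤ D ^ k := pow_le_pow_right₀ hD hl
  have h5 := (Real.exp_pos (f x)).le
  calc (l.factorial : ℝ) * Real.exp (f x) * D ^ l = l.factorial * D ^ l * Real.exp (f x) := by ring
    _ ≤ k.factorial * D ^ k * Real.exp (f x) :=
      mul_le_mul_of_nonneg_right (mul_le_mul h3 h4 (by positivity) (by positivity)) h5

/-- Jets of the inverse. -/
theorem Jl.inv (k : ℕ) (B : ℝ) : ∃ C : ℝ, 0 ≤ C ∧ ∀ (O : Set E) (f : E → ℝ), IsOpen O →
    Jl O k (fun _ => B) f → (∀ x ∈ O, 0 < f x) → (∀ x ∈ O, (f x)⁻¹ ≤ B) →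
    Jl O k (fun _ => C) (fun x => (f x)⁻¹) := by
  have hΨ : ContDiffOn ℝ ∞ (fun y : ℝ => y⁻¹) (Ioi 0) :=
    contDiffOn_id.inv fun y hy => ne_of_gt hy
  have ht : IsOpen (Ioi (0 : ℝ)) := isOpen_Ioi
  by_cases hB : 0 < B
  · have hsub : Icc B⁻¹ B ⊆ Ioi (0 : ℝ) := fun y hy => lt_of_lt_of_le (inv_pos.2 hB) hy.1
    have hCe : ∃ C : ℝ, 0 ≤ C ∧ ∀ i ≤ k, ∀ p ∈ Icc B⁻¹ B,
        ‖iteratedFDerivWithin ℝ i (fun y : ℝ => y⁻¹) (Ioi 0) p‖ ≤ C := by
      have h1 : ∀ i, ∃ C : ℝ, ∀ p ∈ Icc B⁻¹ B,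
          ‖iteratedFDerivWithin ℝ i (fun y : ℝ => y⁻¹) (Ioi 0) p‖ ≤ C := fun i =>
        isCompact_Icc.exists_bound_of_continuousOn
          ((hΨ.continuousOn_iteratedFDerivWithin (m := i) (by exact_mod_cast le_top)
            ht.uniqueDiffOn).mono hsub)
      choose C hC using h1
      refine ⟨∑ i ∈ Finset.range (k + 1), |C i|, by positivity, fun i hi p hp => ?_⟩
      refine (hC i p hp).trans ((le_abs_self _).trans ?_)
      exact Finset.single_le_sum (f := fun i => |C i|) (fun _ _ => abs_nonneg _)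
        (Finset.mem_range.2 (by omega))
    obtain ⟨C, hC0, hC⟩ := hCe
    refine ⟨k.factorial * C * (max 1 B) ^ k, by positivity, fun O f hO hf hp hi => ?_⟩
    refine ⟨hf.1.inv fun x hx => (hp x hx).ne', fun l hl x hx => ?_⟩
    have hft : f x ∈ Icc B⁻¹ B := by
      constructor
      · rw [inv_le_comm₀ hB (hp x hx)]
        exact hi x hx
      · exact (le_abs_self _).trans (hf.abs hx)
    have h1D : (1 : ℝ) ≤ max 1 B := le_max_left _ _
    have key : ‖iteratedFDerivWithin ℝ l ((fun y : ℝ => y⁻¹) ∘ f) O x‖ ≤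
        l.factorial * C * (max 1 B) ^ l := by
      refine norm_iteratedFDerivWithin_comp_le hΨ hf.1 (by exact_mod_cast le_top)
        ht.uniqueDiffOn hO.uniqueDiffOn (fun y hy => hp y hy) hx
        (fun i hi => hC i (hi.trans hl) _ hft) ?_
      intro i hi1 hi2
      rw [iteratedFDerivWithin_of_isOpen i hO hx]
      refine (hf.2 i (hi2.trans hl) x hx).trans ?_
      calc B ≤ max 1 B := le_max_right _ _
        _ = (max 1 B) ^ 1 := (pow_one _).symm
        _ ≤ (max 1 B) ^ i := pow_le_pow_right₀ h1D hi1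
    rw [iteratedFDerivWithin_of_isOpen l hO hx] at key
    refine key.trans ?_
    have h3 : (l.factorial : ℝ) ≤ k.factorial := by exact_mod_cast Nat.factorial_le hl
    have h4 : (max 1 B) ^ l ≤ (max 1 B) ^ k := pow_le_pow_right₀ h1D hl
    exact mul_le_mul (mul_le_mul_of_nonneg_right h3 hC0) h4 (by positivity) (by positivity)
  · refine ⟨0, le_rfl, fun O f _ hf hp hi => ⟨hf.1.inv fun x hx => (hp x hx).ne', fun l _ x hx => ?_⟩⟩
    exact absurd (lt_of_lt_of_le (inv_pos.2 (hp x hx)) (hi x hx)) hB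

end gen

variable {n : ℕ}

theorem ipm_pos' {O : Set (V n)} {K : ℕ} {ε : ℝ} {s : MF n} (hn : 1 ≤ n) (hs : Ns O K ε s)
    (hε : ε ≤ 1 / 2) {x : V n} (hx : x ∈ O) : 1 / 4 ≤ ipm s s x := by
  have i0 : Fin n := ⟨0, hn⟩
  have h0 := (hs i0 i0).abs hx
  rw [Matrix.one_apply_eq, abs_le] at h0
  have h1 : s x i0 i0 * s x i0 i0 ≤ ipm s s x := by
    unfold ipm
    refine le_trans ?_ (Finset.single_le_sum (f := fun i => ∑ j, s x i j * s x i j)
      (fun i _ => Finset.sum_nonneg fun j _ => mul_self_nonneg _) (Finset.mem_univ i0))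
    exact Finset.single_le_sum (f := fun j => s x i0 j * s x i0 j)
      (fun j _ => mul_self_nonneg _) (Finset.mem_univ i0)
  nlinarith [h0.1, h0.2]

theorem Jl.ipm {O : Set (V n)} (hO : IsOpen O) {k : ℕ} {a : V n → ℝ} {c : ℝ} {s h : MF n}
    (hs : ∀ i j, Jl O k (fun _ => c) (fun x => s x i j))
    (hh : ∀ i j, Jl O k a (fun x => h x i j)) :
    Jl O k (fun x => n * (n * (2 ^ k * (c * a x)))) (ipm s h) := by
  refine (Jl.sum hO Finset.univ fun i _ => Jl.sum hO Finset.univ fun j _ =>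
    Jl.mul hO (hs i j) (hh i j)).mono fun x _ => le_of_eq ?_
  simp

/-- Jets of the trace free part. -/
theorem exists_tfpJ (n K : ℕ) (hn : 1 ≤ n) : ∃ C : ℝ, 0 ≤ C ∧ ∀ (O : Set (V n)), IsOpen O →
    ∀ (ε : ℝ) (s h : MF n) (a : V n → ℝ), ε ≤ 1 / 2 → Ns O K ε s →
    (∀ i j, Jl O K a (fun x => h x i j)) →
    ∀ i j, Jl O K (fun x => C * a x) (fun x => tfp s h x i j) := by
  obtain ⟨C₁, hC₁, hinv⟩ := Jl.inv (E := V n) K (max 4 (n * (n * (2 ^ K * (2 * 2)))))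
  refine ⟨1 + 2 ^ K * (2 ^ K * (n * (n * (2 ^ K * 2)) * C₁) * 2), by positivity, ?_⟩
  intro O hO ε s h a hε hsN hh i j
  have hs := fun i j => hsN.entry hO (by linarith : ε ≤ 1) i j
  have hm := Jl.ipm hO hs hs
  have hq : ∀ x ∈ O, 1 / 4 ≤ HY.ipm s s x := fun x hx => ipm_pos' hn hsN hε hx
  have hp : ∀ x ∈ O, 0 < HY.ipm s s x := fun x hx => lt_of_lt_of_le (by norm_num) (hq x hx)
  have hi : Jl O K (fun _ => C₁) (fun x => (HY.ipm s s x)⁻¹) :=
    hinv O _ hO (hm.mono fun x _ => le_max_right _ _) hp fun x hx => by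
      refine le_trans ?_ (le_max_left _ _)
      rw [inv_le_comm₀ (hp x hx) (by norm_num)]
      have := hq x hx
      linarith
  have hsh := Jl.ipm hO hs hh
  have hr := Jl.sub hO (hh i j) (Jl.mul hO (Jl.mul hO hsh hi) (hs i j))
  have e : (fun x => tfp s h x i j) = fun w => h w i j -
      HY.ipm s h w * (HY.ipm s s w)⁻¹ * s w i j := by
    funext w
    simp only [tfp, Matrix.sub_apply, Matrix.smul_apply, smul_eq_mul, div_eq_mul_inv]
  rw [e]
  exact hr.mono fun x _ => le_of_eq (by ring)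

/-- Jets of the exponential weight. -/
theorem expJ {O : Set (V n)} (hO : IsOpen O) {K : ℕ} {G : V n → ℝ} (hG : ContDiffOn ℝ ∞ G O)
    {Λ ρ : ℝ} (hΛ : 1 ≤ Λ) (hρ : 1 ≤ ρ)
    (h : ∀ i, 1 ≤ i → i ≤ K → ∀ x ∈ O, ‖iteratedFDeriv ℝ i G x‖ ≤ Λ) :
    Jl O K (fun x => K.factorial * (2 * ρ * Λ) ^ K * Real.exp (2 * ρ * G x))
      (fun x => Real.exp (2 * ρ * G x)) := by
  have h1 : 1 ≤ 2 * ρ * Λ := by
    have := one_le_mul_of_one_le_of_one_le hρ hΛ
    nlinarith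
  refine Jl.exp hO (contDiffOn_const.mul hG) h1 fun i hi1 hi2 x hx => ?_
  have e : (fun x => 2 * ρ * G x) = (2 * ρ) • G := by funext w; simp
  rw [e, iteratedFDeriv_const_smul_apply
    ((hG.contDiffAt (hO.mem_nhds hx)).of_le (by exact_mod_cast le_top)), norm_smul,
    Real.norm_eq_abs, abs_of_pos (by linarith)]
  calc 2 * ρ * ‖iteratedFDeriv ℝ i G x‖ ≤ 2 * ρ * Λ :=
        mul_le_mul_of_nonneg_left (h i hi1 hi2 x hx) (by linarith)
    _ = (2 * ρ * Λ) ^ 1 := (pow_one _).symm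
    _ ≤ (2 * ρ * Λ) ^ i := pow_le_pow_right₀ h1 hi1

/-- The leading coefficient of the kernel. -/
def K2 (s h : MF n) (χ G : V n → ℝ) (ρ : ℝ) : MF n := fun x =>
  -((χ x * Real.exp (2 * ρ * G x)) • tfp s h x)

theorem K2_apply (s h : MF n) (χ G : V n → ℝ) (ρ : ℝ) (x : V n) (i j : Fin n) :
    K2 s h χ G ρ x i j = -(χ x * Real.exp (2 * ρ * G x) * tfp s h x i j) := by
  simp [K2]

/-- Jets of the leading coefficient. -/
theorem k2J (n K : ℕ) (hn : 1 ≤ n) : ∃ C : ℝ, 0 ≤ C ∧ ∀ (O : Set (V n)), IsOpen O →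
    ∀ (ε : ℝ) (s h : MF n) (a : V n → ℝ), ε ≤ 1 / 2 → Ns O K ε s →
    (∀ i j, Jl O K a (fun x => h x i j)) → ∀ (χ : V n → ℝ) (b : ℝ), Jl O K (fun _ => b) χ →
    ∀ (G : V n → ℝ) (Λ ρ : ℝ), ContDiffOn ℝ ∞ G O → 1 ≤ Λ → 1 ≤ ρ →
    (∀ i, 1 ≤ i → i ≤ K → ∀ x ∈ O, ‖iteratedFDeriv ℝ i G x‖ ≤ Λ) →
    ∀ i j, Jl O K (fun x => C * b * (ρ * Λ) ^ K * (Real.exp (2 * ρ * G x) * a x))
      (fun x => K2 s h χ G ρ x i j) := by
  obtain ⟨C, hC, H⟩ := exists_tfpJ n K hn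
  refine ⟨2 ^ K * (2 ^ K * (K.factorial * 2 ^ K)) * C, by positivity, ?_⟩
  intro O hO ε s h a hε hs hh χ b hχ G Λ ρ hG hΛ hρ hGb i j
  have h1 := Jl.neg (Jl.mul hO (Jl.mul hO hχ (expJ hO hG hΛ hρ hGb)) (H O hO ε s h a hε hs hh i j))
  simp only [K2_apply]
  refine h1.mono fun x _ => le_of_eq ?_
  rw [show 2 * ρ * Λ = 2 * (ρ * Λ) by ring, mul_pow 2 (ρ * Λ) K]
  ring

theorem K2_symm {s h : MF n} {χ G : V n → ℝ} {ρ : ℝ} {x : V n} (hs : (s x).IsSymm)
    (hh : (h x).IsSymm) : (K2 s h χ G ρ x).IsSymm := by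
  unfold K2 tfp
  exact ((hh.sub (hs.smul _)).smul _).neg

theorem K2_ipm {s h : MF n} {χ G : V n → ℝ} {ρ : ℝ} {x : V n} (hs : ipm s s x ≠ 0) :
    ipm s (K2 s h χ G ρ) x = 0 := by
  have h1 : ipm s (K2 s h χ G ρ) x = -(χ x * Real.exp (2 * ρ * G x)) * ipm s (tfp s h) x := by
    unfold ipm
    rw [Finset.mul_sum]
    refine Finset.sum_congr rfl fun i _ => ?_
    rw [Finset.mul_sum]
    refine Finset.sum_congr rfl fun j _ => ?_
    rw [K2_apply]; ring
  rw [h1, ipm_tfp hs, mul_zero]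

/-- The main term. -/
theorem K2_pair {s h : MF n} {χ G : V n → ℝ} {ρ : ℝ} {x : V n} (hs : ipm s s x ≠ 0) :
    ∑ i, ∑ j, h x i j * K2 s h χ G ρ x i j =
      -(χ x * Real.exp (2 * ρ * G x) * ∑ i, ∑ j, tfp s h x i j ^ 2) := by
  have h1 : ∑ i, ∑ j, h x i j * tfp s h x i j = ∑ i, ∑ j, tfp s h x i j ^ 2 := by
    have h2 := ipm_tfp (h := h) hs
    unfold ipm at h2
    have h3 : ∀ i j, h x i j = tfp s h x i j + ipm s h x / ipm s s x * s x i j := by
      intro i j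
      simp [tfp]
    calc ∑ i, ∑ j, h x i j * tfp s h x i j
        = ∑ i, ∑ j, (tfp s h x i j ^ 2 + ipm s h x / ipm s s x * (s x i j * tfp s h x i j)) := by
          refine Finset.sum_congr rfl fun i _ => Finset.sum_congr rfl fun j _ => ?_
          conv_lhs => rw [h3 i j]
          ring
      _ = ∑ i, ∑ j, tfp s h x i j ^ 2 + ipm s h x / ipm s s x *
          ∑ i, ∑ j, s x i j * tfp s h x i j := by
          simp only [Finset.sum_add_distrib, Finset.mul_sum]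
      _ = _ := by rw [h2, mul_zero, add_zero]
  rw [← h1, Finset.mul_sum, ← Finset.sum_neg_distrib]
  refine Finset.sum_congr rfl fun i _ => ?_
  rw [Finset.mul_sum, ← Finset.sum_neg_distrib]
  refine Finset.sum_congr rfl fun j _ => ?_
  rw [K2_apply]; ring

end Vale.Agent.P088.HY.S3
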