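import Vale.Agent.P088.R2.H673.S3.QE

/-!
# P088, stage 3: the jets of the residuals near the diagonal
-/

open MeasureTheory Set Filter
open scoped ContDiff Matrix Topology

noncomputable section

namespace Vale.Agent.P088.HY.S3

open Vale.Agent.P088.LR Vale.Agent.P088.HY.QM

variable {n : ℕ}

/-- The derivative at the diagonal vanishes. -/
theorem fd_zero {B : Set (V n)} (hB : IsOpen B) {R : VV n → ℝ} {c : ℝ}
    (h : ∀ z ∈ B ×ˢ B, |R z| ≤ c * ‖z.1 - z.2‖ ^ 2) {y : V n} (hy : y ∈ B) :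
    fderiv ℝ R (y, y) = 0 := by
  have h1 : R =O[𝓝 ((y, y) : VV n)] fun z => ‖z - (y, y)‖ ^ 2 := by
    refine Asymptotics.IsBigO.of_bound (|c| * 4) ?_
    filter_upwards [(hB.prod hB).mem_nhds (show ((y, y) : VV n) ∈ B ×ˢ B from ⟨hy, hy⟩)] with z hz
    have h2 : ‖z.1 - z.2‖ ≤ 2 * ‖z - (y, y)‖ := by
      have e : z.1 - z.2 = (z - (y, y)).1 - (z - (y, y)).2 := by simp
      rw [e]
      refine (norm_sub_le _ _).trans ?_
      have := norm_fst_le (z - (y, y))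
      have := norm_snd_le (z - (y, y))
      linarith
    rw [Real.norm_eq_abs, Real.norm_eq_abs, abs_of_nonneg (sq_nonneg ‖z - (y, y)‖)]
    calc |R z| ≤ c * ‖z.1 - z.2‖ ^ 2 := h z hz
      _ ≤ |c| * (2 * ‖z - (y, y)‖) ^ 2 :=
        mul_le_mul (le_abs_self c) (pow_le_pow_left₀ (norm_nonneg _) h2 2) (sq_nonneg _)
          (abs_nonneg _)
      _ = _ := by ring
  exact (h1.hasFDerivAt (by norm_num)).fderiv

theorem fd_le {U : Set (VV n)} (hU : IsOpen U) (hc : Convex ℝ U) {R : VV n → ℝ} {m : ℝ} {K : ℕ}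
    (hK : 2 ≤ K) (hR : Jl U K (fun _ => m) R) {d z : VV n} (hd : d ∈ U) (hz : z ∈ U)
    (h1 : fderiv ℝ R d = 0) : ‖iteratedFDeriv ℝ 1 R z‖ ≤ m * ‖z - d‖ := by
  have hd1 : ContDiffOn ℝ ∞ (fderiv ℝ R) U := hR.1.fderiv_of_isOpen hU (by simp)
  have hd2 : ∀ w ∈ U, DifferentiableAt ℝ (fderiv ℝ R) w := fun w hw =>
    (hd1.contDiffAt (hU.mem_nhds hw)).differentiableAt (by simp)
  have hn : ∀ w ∈ U, ‖fderiv ℝ (fderiv ℝ R) w‖ ≤ m := fun w hw => by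
    have := hR.2 2 hK w hw
    rwa [← norm_iteratedFDeriv_fderiv, ← norm_iteratedFDeriv_fderiv, norm_iteratedFDeriv_zero]
      at this
  have h2 := hc.norm_image_sub_le_of_norm_fderiv_le (𝕜 := ℝ) hd2 hn hd hz
  rw [h1, sub_zero] at h2
  rwa [← norm_iteratedFDeriv_fderiv, norm_iteratedFDeriv_zero]

/-- The constant for the jets of the residuals. -/
def cJ (n K : ℕ) : ℝ :=
  (n * (n * (2 ^ K * 2)) + n * (2 ^ K * (n * (n * (2 ^ K * 2)) * 2))) +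
    2 ^ K * (1 * (n * (n * (2 ^ K * (n * (n * (2 ^ K * 2)) * (2 ^ K * (2 * 2))))))) +
    n * (n * 4) + n * (n * (n * (n * 1)))

theorem cJ_nonneg (n K : ℕ) : 0 ≤ cJ n K := by unfold cJ; positivity

theorem cJ_parts (n K : ℕ) :
    (n * (n * (2 ^ K * 2)) + n * (2 ^ K * (n * (n * (2 ^ K * 2)) * 2)) : ℝ) ≤ cJ n K ∧
    (2 ^ K * (1 * (n * (n * (2 ^ K * (n * (n * (2 ^ K * 2)) * (2 ^ K * (2 * 2))))))) : ℝ)
      ≤ cJ n K ∧ (n * (n * 4) : ℝ) ≤ cJ n K ∧ (n * (n * (n * (n * 1))) : ℝ) ≤ cJ n K := by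
  have h1 : (0 : ℝ) ≤ n * (n * (2 ^ K * 2)) + n * (2 ^ K * (n * (n * (2 ^ K * 2)) * 2)) := by
    positivity
  have h2 : (0 : ℝ) ≤
      2 ^ K * (1 * (n * (n * (2 ^ K * (n * (n * (2 ^ K * 2)) * (2 ^ K * (2 * 2))))))) := by
    positivity
  have h3 : (0 : ℝ) ≤ n * (n * 4) := by positivity
  have h4 : (0 : ℝ) ≤ n * (n * (n * (n * 1))) := by positivity
  unfold cJ
  refine ⟨?_, ?_, ?_, ?_⟩ <;> linarith

theorem RxJ0 (K : ℕ) {B : Set (V n)} (hB : IsOpen B) (hd : ∀ x ∈ B, ∀ y ∈ B, ‖x - y‖ ≤ 2)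
    {s k : MF n} {m : ℝ} (hs : ∀ i j, Jl B (K + 1) (fun _ => 2) (fun x => s x i j))
    (hk : ∀ i j, Jl B K (fun _ => m) (fun x => k x i j)) :
    Jl (B ×ˢ B) K (fun _ => (n * (n * (2 ^ K * 2)) +
      n * (2 ^ K * (n * (n * (2 ^ K * 2)) * 2))) * m) (Rx s k) := by
  have hU : IsOpen (B ×ˢ B) := hB.prod hB
  have hq : ∀ l, Jl (B ×ˢ B) K (fun _ => (2 : ℝ)) (fun z : VV n => z.1 l - z.2 l) :=
    fun l => Jl.ql le_rfl hd l
  have h1 := Jl.sum hU Finset.univ fun i _ => Jl.sum hU Finset.univ fun j _ =>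
    Jl.mul hU (((hs i j).ord (Nat.le_succ K)).fst hB) ((hk i j).snd hB)
  have h2 := fun l => Jl.sum hU Finset.univ fun i _ => Jl.sum hU Finset.univ fun j _ =>
    Jl.mul hU (((hs i j).pd hB l).fst hB) ((hk i j).fst hB)
  have h3 := Jl.sub hU h1 (Jl.sum hU Finset.univ fun l _ => Jl.mul hU (h2 l) (hq l))
  refine h3.mono fun x _ => le_of_eq ?_
  simp
  ring

theorem RyJ0 (K : ℕ) {B : Set (V n)} (hB : IsOpen B) (hd : ∀ x ∈ B, ∀ y ∈ B, ‖x - y‖ ≤ 2)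
    {s k : MF n} {m : ℝ} (hs : ∀ i j, Jl B K (fun _ => 2) (fun x => s x i j))
    (hk : ∀ i j, Jl B (K + 2) (fun _ => m) (fun x => k x i j)) :
    Jl (B ×ˢ B) K (fun _ => (2 ^ K * (1 * (n * (n * (2 ^ K * (n * (n * (2 ^ K * 2)) *
      (2 ^ K * (2 * 2)))))))) * m) (Ry s k) := by
  have hU : IsOpen (B ×ˢ B) := hB.prod hB
  have hq : ∀ l, Jl (B ×ˢ B) K (fun _ => (2 : ℝ)) (fun z : VV n => z.1 l - z.2 l) :=
    fun l => Jl.ql le_rfl hd l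
  have h1 := fun i j => Jl.sum hU Finset.univ fun a _ => Jl.sum hU Finset.univ fun c _ =>
    Jl.mul hU ((hs a c).snd hB) ((((hk i j).pd hB c).pd hB a).snd hB)
  have h2 := Jl.sum hU Finset.univ fun i _ => Jl.sum hU Finset.univ fun j _ =>
    Jl.mul hU (h1 i j) (Jl.mul hU (hq i) (hq j))
  have h3 := Jl.mul hU (Jl.const (O := B ×ˢ B) (k := K) (1 / 2 : ℝ)) h2
  refine h3.mono fun x _ => ?_
  rw [abs_of_pos (by norm_num : (0 : ℝ) < 1 / 2)]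
  simp only [Finset.sum_const, Finset.card_univ, Fintype.card_fin, nsmul_eq_mul]
  have hm : 0 ≤ (n : ℝ) * (n * (2 ^ K * (n * (n * (2 ^ K * (2 * m))) * (2 ^ K * (2 * 2))))) := by
    rcases Nat.eq_zero_or_pos n with rfl | hn
    · simp
    · have i0 : Fin n := ⟨0, hn⟩
      have : 0 ≤ m := (hk i0 i0).nonneg (x := x.1) (by rename_i hx; exact hx.1)
      positivity
  have e : 2 ^ K * (1 * ((n : ℝ) * (n * (2 ^ K * (n * (n * (2 ^ K * 2)) * (2 ^ K * (2 * 2))))))) *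
      m = 2 ^ K * ((n : ℝ) * (n * (2 ^ K * (n * (n * (2 ^ K * (2 * m))) *
        (2 ^ K * (2 * 2)))))) := by ring
  rw [e]
  refine mul_le_mul_of_nonneg_left ?_ (by positivity)
  linarith

/-- The jets of the residual in `x`. -/
theorem RxJ {K : ℕ} (hK : 2 ≤ K) {B : Set (V n)} (hB : IsOpen B) (hc : Convex ℝ B)
    (hd : ∀ x ∈ B, ∀ y ∈ B, ‖x - y‖ ≤ 2)
    {s k : MF n} {m : ℝ} (hm : 0 ≤ m) (hs : ∀ i j, Jl B (K + 1) (fun _ => 2) (fun x => s x i j))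
    (hk : ∀ i j, Jl B (K + 2) (fun _ => m) (fun x => k x i j)) (h0 : ∀ y ∈ B, ipm s k y = 0) :
    (∀ z ∈ B ×ˢ B, |Rx s k z| ≤ cJ n K * m * ‖z.1 - z.2‖ ^ 2) ∧
    (∀ z ∈ B ×ˢ B, ‖iteratedFDeriv ℝ 1 (Rx s k) z‖ ≤ cJ n K * m * ‖z.1 - z.2‖) ∧
    Jl (B ×ˢ B) K (fun _ => cJ n K * m) (Rx s k) := by
  have hU : IsOpen (B ×ˢ B) := hB.prod hB
  have hJ : Jl (B ×ˢ B) K (fun _ => cJ n K * m) (Rx s k) :=
    (RxJ0 K hB hd hs fun i j => (hk i j).ord (by omega)).mono fun _ _ =>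
      mul_le_mul_of_nonneg_right (cJ_parts n K).1 hm
  have h1 : ∀ z ∈ B ×ˢ B, |Rx s k z| ≤ cJ n K * m * ‖z.1 - z.2‖ ^ 2 := by
    intro z hz
    have h2 := Rx_le hB hc subset_rfl (fun i j => (hs i j).ord (by omega))
      (fun i j => (hk i j).1) (m := m) (fun i j w hw => (hk i j).abs hw)
      (fun i j w hw => (hk i j).2 1 (by omega) w hw) hz.1 hz.2 (h0 _ hz.2)
    refine h2.trans ?_
    have h3 : (n : ℝ) * (n * 4) ≤ cJ n K := (cJ_parts n K).2.2.1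
    calc (n : ℝ) * (n * 4) * (m * ‖z.1 - z.2‖ ^ 2) ≤ cJ n K * (m * ‖z.1 - z.2‖ ^ 2) :=
          mul_le_mul_of_nonneg_right h3 (by positivity)
      _ = _ := by ring
  refine ⟨h1, fun z hz => ?_, hJ⟩
  have hd' : ((z.2, z.2) : VV n) ∈ B ×ˢ B := ⟨hz.2, hz.2⟩
  have h4 := fd_le hU (hc.prod hc) hK hJ hd' hz (fd_zero hB h1 hz.2)
  have e : ‖z - (z.2, z.2)‖ = ‖z.1 - z.2‖ := by
    rw [Prod.norm_def]
    simp
  rwa [e] at h4

/-- The jets of the residual in `y`. -/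
theorem RyJ {K : ℕ} (hK : 2 ≤ K) {B : Set (V n)} (hB : IsOpen B) (hc : Convex ℝ B)
    (hd : ∀ x ∈ B, ∀ y ∈ B, ‖x - y‖ ≤ 2)
    {s k : MF n} {m : ℝ} (hm : 0 ≤ m) (hs : ∀ i j, Jl B K (fun _ => 2) (fun x => s x i j))
    (hk : ∀ i j, Jl B (K + 2) (fun _ => m) (fun x => k x i j)) :
    (∀ z ∈ B ×ˢ B, |Ry s k z| ≤ cJ n K * m * ‖z.1 - z.2‖ ^ 2) ∧
    (∀ z ∈ B ×ˢ B, ‖iteratedFDeriv ℝ 1 (Ry s k) z‖ ≤ cJ n K * m * ‖z.1 - z.2‖) ∧
    Jl (B ×ˢ B) K (fun _ => cJ n K * m) (Ry s k) := by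
  have hU : IsOpen (B ×ˢ B) := hB.prod hB
  have hJ : Jl (B ×ˢ B) K (fun _ => cJ n K * m) (Ry s k) :=
    (RyJ0 K hB hd hs hk).mono fun _ _ =>
      mul_le_mul_of_nonneg_right (cJ_parts n K).2.1 hm
  have h1 : ∀ z ∈ B ×ˢ B, |Ry s k z| ≤ cJ n K * m * ‖z.1 - z.2‖ ^ 2 := by
    intro z hz
    have h2 := Ry_le (s := s) (k := k) (x := z.1) (y := z.2)
      (fun i j => (hs i j).abs hz.2) hm fun i j a b =>
        ((((hk i j).ord (by omega : 2 ≤ K + 2)).pd hB b).pd (k := 0) hB a).abs hz.2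
    refine h2.trans ?_
    have h3 : (n : ℝ) * (n * (n * (n * 1))) ≤ cJ n K := (cJ_parts n K).2.2.2
    calc (n : ℝ) * (n * (n * (n * 1))) * (m * ‖z.1 - z.2‖ ^ 2) ≤ cJ n K * (m * ‖z.1 - z.2‖ ^ 2) :=
          mul_le_mul_of_nonneg_right h3 (by positivity)
      _ = _ := by ring
  refine ⟨h1, fun z hz => ?_, hJ⟩
  have hd' : ((z.2, z.2) : VV n) ∈ B ×ˢ B := ⟨hz.2, hz.2⟩
  have h4 := fd_le hU (hc.prod hc) hK hJ hd' hz (fd_zero hB h1 hz.2)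
  have e : ‖z - (z.2, z.2)‖ = ‖z.1 - z.2‖ := by
    rw [Prod.norm_def]
    simp
  rwa [e] at h4

end Vale.Agent.P088.HY.S3
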