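import Vale.Agent.P088.R2.H673.S3.QI
import Vale.Agent.P088.R2.H673.QM5

/-!
# P088, stage 3, step S6: the weighted integral of the residuals
-/

open MeasureTheory Set Filter
open scoped ContDiff Matrix Topology

noncomputable section

namespace Vale.Agent.P088.HY.S3

open Vale.Agent.P088.LR Vale.Agent.P088.HY.QM

variable {n : ℕ}

/-- A Gaussian with a parameter. -/
def fG (O : Set (V n)) (P τ : V n → ℝ) (z : VV n) : ℝ :=
  (O ×ˢ (univ : Set (V n))).indicator (fun z : VV n => P z.1 * gs (τ z.1) (z.1 - z.2)) z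

theorem fG_of_mem {O : Set (V n)} {P τ : V n → ℝ} {z : VV n} (hz : z.1 ∈ O) :
    fG O P τ z = P z.1 * gs (τ z.1) (z.1 - z.2) :=
  indicator_of_mem (show z ∈ O ×ˢ univ from ⟨hz, mem_univ _⟩) _

theorem fG_of_notMem {O : Set (V n)} {P τ : V n → ℝ} {z : VV n} (hz : z.1 ∉ O) :
    fG O P τ z = 0 := indicator_of_notMem (fun h => hz h.1) _

theorem fG_nonneg {O : Set (V n)} {P τ : V n → ℝ} (h0 : ∀ x ∈ O, 0 ≤ P x) (z : VV n) :
    0 ≤ fG O P τ z := by
  by_cases hz : z.1 ∈ O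
  · rw [fG_of_mem hz]; exact mul_nonneg (h0 _ hz) (gs_nonneg _ _)
  · rw [fG_of_notMem hz]

theorem gs_cont {O : Set (V n)} {τ : V n → ℝ} (hτ : ContinuousOn τ O) :
    ContinuousOn (fun z : VV n => gs (τ z.1) (z.1 - z.2)) (O ×ˢ (univ : Set (V n))) := by
  have h2 : ContinuousOn (fun z : VV n => τ z.1) (O ×ˢ (univ : Set (V n))) :=
    hτ.comp continuousOn_fst fun z hz => hz.1
  have hc : Continuous (fun z : VV n => sq (z.1 - z.2)) :=
    (continuous_sq (n := n)).comp (continuous_fst.sub continuous_snd)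
  have hc1 : ContinuousOn (fun z : VV n => sq (z.1 - z.2)) (O ×ˢ (univ : Set (V n))) :=
    hc.continuousOn
  unfold gs
  exact (hc1.pow 2).mul (((continuousOn_const.mul h2).mul hc1).neg.rexp)

theorem fG_meas {O : Set (V n)} (hO : IsOpen O) {P τ : V n → ℝ} (hP : ContinuousOn P O)
    (hτ : ContinuousOn τ O) : AEStronglyMeasurable (fG O P τ) (volume : Measure (VV n)) := by
  have hU : MeasurableSet (O ×ˢ (univ : Set (V n))) := hO.measurableSet.prod MeasurableSet.univ
  have h1 : ContinuousOn (fun z : VV n => P z.1) (O ×ˢ (univ : Set (V n))) :=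
    hP.comp continuousOn_fst fun z hz => hz.1
  have h5 : ContinuousOn (fun z : VV n => P z.1 * gs (τ z.1) (z.1 - z.2))
      (O ×ˢ (univ : Set (V n))) := h1.mul (gs_cont hτ)
  have h6 : AEStronglyMeasurable ((O ×ˢ (univ : Set (V n))).indicator
      (fun z : VV n => P z.1 * gs (τ z.1) (z.1 - z.2))) (volume : Measure (VV n)) :=
    (aestronglyMeasurable_indicator_iff hU).2 (h5.aestronglyMeasurable hU)
  exact h6

theorem gs_int {τ : ℝ} (hτ : 0 < τ) (x : V n) : Integrable (fun y => gs τ (x - y)) ∧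
    ∫ y, gs τ (x - y) = (∫ q : V n, gs 1 q) / √τ ^ (n + 4) := by
  obtain ⟨h1, h2⟩ := integral_gs (n := n) hτ
  exact ⟨h1.comp_sub_left x, (integral_sub_left_eq_self (gs τ) volume x).trans h2⟩

theorem fG_y {O : Set (V n)} {P τ : V n → ℝ} (hτ0 : ∀ x ∈ O, 0 < τ x) {c : ℝ}
    (hc : ∀ x ∈ O, P x ≤ c * √(τ x) ^ (n + 4)) (x : V n) :
    Integrable (fun y => fG O P τ (x, y)) ∧
    ∫ y, fG O P τ (x, y) ≤ O.indicator (fun _ => c * ∫ q : V n, gs 1 q) x := by
  by_cases hx : x ∈ O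
  · have e : (fun y => fG O P τ (x, y)) = fun y => P x * gs (τ x) (x - y) :=
      funext fun y => fG_of_mem (z := (x, y)) hx
    rw [indicator_of_mem hx, e]
    obtain ⟨h1, h2⟩ := gs_int (hτ0 x hx) x
    refine ⟨h1.const_mul _, ?_⟩
    rw [integral_const_mul, h2]
    have h3 : 0 < √(τ x) ^ (n + 4) := pow_pos (Real.sqrt_pos.mpr (hτ0 x hx)) _
    have h4 : 0 ≤ ∫ q : V n, gs 1 q := integral_nonneg fun q => gs_nonneg _ _
    rw [mul_div_assoc', div_le_iff₀ h3]
    calc P x * ∫ q : V n, gs 1 q ≤ (c * √(τ x) ^ (n + 4)) * ∫ q : V n, gs 1 q :=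
          mul_le_mul_of_nonneg_right (hc x hx) h4
      _ = _ := by ring
  · have e : (fun y => fG O P τ (x, y)) = fun _ => 0 :=
      funext fun y => fG_of_notMem (z := (x, y)) hx
    rw [indicator_of_notMem hx, e, integral_zero]
    exact ⟨integrable_zero _ _ _, le_rfl⟩

/-- A Gaussian integral with a parameter. -/
theorem gint {O : Set (V n)} (hO : IsOpen O) {v : ℝ} (hv0 : 0 ≤ v)
    (hv : volume O ≤ ENNReal.ofReal v) {P τ : V n → ℝ} (hP : ContinuousOn P O)
    (hτ : ContinuousOn τ O) (h0 : ∀ x ∈ O, 0 ≤ P x) (hτ0 : ∀ x ∈ O, 0 < τ x) {c : ℝ} (hc0 : 0 ≤ c)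
    (hc : ∀ x ∈ O, P x ≤ c * √(τ x) ^ (n + 4)) :
    Integrable (fG O P τ) (volume : Measure (VV n)) ∧
    ∫ z, fG O P τ z ≤ c * (∫ q : V n, gs 1 q) * v := by
  have hm := fG_meas hO hP hτ
  have hf0 := fG_nonneg (τ := τ) h0
  have hi := fG_y hτ0 hc
  have hOi : Integrable (O.indicator fun _ : V n => c * ∫ q : V n, gs 1 q) := by
    rw [integrable_indicator_iff hO.measurableSet]
    exact integrableOn_const (lt_of_le_of_lt hv ENNReal.ofReal_lt_top).ne
  have hint : Integrable (fG O P τ) (volume : Measure (VV n)) := by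
    refine (integrable_prod_iff hm).2 ⟨ae_of_all _ fun x => (hi x).1, ?_⟩
    refine hOi.mono' hm.norm.integral_prod_right' (ae_of_all _ fun x => ?_)
    rw [Real.norm_eq_abs, abs_of_nonneg (integral_nonneg fun y => norm_nonneg _)]
    refine le_trans (le_of_eq ?_) (hi x).2
    refine integral_congr_ae (ae_of_all _ fun y => ?_)
    show ‖fG O P τ (x, y)‖ = fG O P τ (x, y)
    rw [Real.norm_eq_abs, abs_of_nonneg (hf0 _)]
  refine ⟨hint, ?_⟩
  have e1 : ∫ z, fG O P τ z = ∫ x, ∫ y, fG O P τ (x, y) := integral_prod _ hint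
  rw [e1]
  refine (integral_mono_of_nonneg (ae_of_all _ fun x => integral_nonneg fun y => hf0 _) hOi
    (ae_of_all _ fun x => (hi x).2)).trans ?_
  rw [integral_indicator hO.measurableSet, setIntegral_const, smul_eq_mul, Measure.real]
  have h5 : (volume O).toReal ≤ v := ENNReal.toReal_le_of_le_ofReal hv0 hv
  have h6 : 0 ≤ c * ∫ q : V n, gs 1 q := mul_nonneg hc0 (integral_nonneg fun q => gs_nonneg _ _)
  calc (volume O).toReal * (c * ∫ q : V n, gs 1 q) ≤ v * (c * ∫ q : V n, gs 1 q) :=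
        mul_le_mul_of_nonneg_right h5 h6
    _ = _ := by ring

end Vale.Agent.P088.HY.S3
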