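import Vale.Agent.P088.R2.H673.S3.SA

/-!
# P088, stage 3, step S6: the weighted integral of the residuals (core)
-/

open MeasureTheory Set Filter
open scoped ContDiff Matrix Topology

noncomputable section

namespace Vale.Agent.P088.HY.S3

open Vale.Agent.P088.LR Vale.Agent.P088.HY.QM

variable {n : ℕ}

/-! ## Exponents -/

section exponents

variable {u l a b D q : ℝ} {m p : ℝ}

theorem ex1 (hD : 0 ≤ D) (hm : 0 ≤ m) (hq : b + 2 * D + m ≤ 2 * q) :
    2 * D * u - (2 * q - b) * |u| - a * l ≤ -((a + m) * l) + m * (l + u) := by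
  have h1 : (2 * D - m) * u ≤ (2 * D + m) * |u| := by
    rcases abs_cases u with ⟨h, h'⟩ | ⟨h, h'⟩
    · rw [h]; nlinarith
    · rw [h]; nlinarith
  have h2 : (2 * D + m) * |u| ≤ (2 * q - b) * |u| :=
    mul_le_mul_of_nonneg_right (by linarith) (abs_nonneg _)
  nlinarith

theorem ex2 (hl : 0 ≤ l) (hb : 0 ≤ b) (hD : 0 ≤ D) (hm : 0 ≤ m)
    (hp : 2 * D + 2 * b + 2 * m ≤ p) (hu : -(3 / 4 * l) ≤ u) :
    2 * D * u + b * |u| - a * l - 2 * p * (l + u) ≤ -((a + m) * l) := by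
  have hp0 : 0 ≤ p := by nlinarith
  rcases abs_cases u with ⟨h, h'⟩ | ⟨h, h'⟩
  · rw [h]
    have h1 : 0 ≤ (2 * p - 2 * D - b) * u := mul_nonneg (by nlinarith) h'
    have h2 : 0 ≤ (2 * p - m) * l := mul_nonneg (by nlinarith) hl
    nlinarith
  · rw [h]
    have h1 : D * u ≤ 0 := mul_nonpos_of_nonneg_of_nonpos hD h'.le
    have h2 : b * (-u) ≤ b * (3 / 4 * l) := mul_le_mul_of_nonneg_left (by linarith) hb
    have h3 : p * (l / 4) ≤ p * (l + u) := mul_le_mul_of_nonneg_left (by linarith) hp0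
    have h4 : 0 ≤ (p / 2 - 3 / 4 * b - m) * l := mul_nonneg (by nlinarith) hl
    nlinarith

theorem ex3 (hl : 0 ≤ l) (ha : 0 ≤ a) (hb : 0 ≤ b) (hm : 0 ≤ m)
    (hD : 2 * b + a + m ≤ D) (hu : u < -(3 / 4 * l)) :
    2 * D * u + b * |u| + b * l ≤ -((a + m) * l) := by
  have h0 : u ≤ 0 := by nlinarith
  rw [abs_of_nonpos h0]
  have h1 : 0 ≤ (2 * D - b) * (-(3 / 4 * l) - u) := mul_nonneg (by nlinarith) (by linarith)
  have h2 : 0 ≤ (3 / 2 * D - 3 / 4 * b - b - a - m) * l := mul_nonneg (by nlinarith) hl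
  nlinarith

theorem exp_neg_le (p : ℕ) {Y Z : ℝ} (hZ : 0 < Z) (hYZ : Z ≤ Y) :
    Real.exp (-Y) ≤ p.factorial / Z ^ p := by
  have h1 := Real.pow_div_factorial_le_exp Z hZ.le p
  rw [Real.exp_neg, inv_eq_one_div, div_le_div_iff₀ (Real.exp_pos _) (pow_pos hZ p), one_mul]
  rw [div_le_iff₀ (by positivity)] at h1
  calc Z ^ p ≤ Real.exp Z * p.factorial := h1
    _ ≤ Real.exp Y * p.factorial :=
        mul_le_mul_of_nonneg_right (Real.exp_le_exp.2 hYZ) (by positivity)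
    _ = _ := by ring

end exponents

/-- The integrand. -/
def Wt (W w F : VV n → ℝ) (z : VV n) : ℝ := Real.exp (-(2 * W z)) * F z ^ 2 / w z

section pointwise

variable {Wz wz s nq N D u l a b q c1 C1 cw A r m : ℝ}

theorem pw1 (hcw : 0 < cw) (hnq : 0 ≤ nq) (hns : nq ≤ s)
    (hW : (N - D) * u + c1 * Real.exp (2 * (l + u)) * s - C1 ≤ Wz)
    (hw : cw * Real.exp (a * l - b * |u|) ≤ wz) :
    Real.exp (-(2 * Wz)) * (A * Real.exp (N * u - q * |u|) * nq) ^ 2 / wz ≤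
      (A ^ 2 * Real.exp (2 * C1) / cw * Real.exp (2 * D * u - (2 * q - b) * |u| - a * l)) *
        (s ^ 2 * Real.exp (-(2 * (c1 * Real.exp (2 * (l + u))) * s))) := by
  have h1 : Real.exp (-(2 * Wz)) ≤
      Real.exp (-(2 * ((N - D) * u + c1 * Real.exp (2 * (l + u)) * s - C1))) :=
    Real.exp_le_exp.2 (by linarith)
  have h2 : (A * Real.exp (N * u - q * |u|) * nq) ^ 2 ≤
      A ^ 2 * Real.exp (N * u - q * |u|) ^ 2 * s ^ 2 := by
    rw [mul_pow, mul_pow]
    exact mul_le_mul_of_nonneg_left (pow_le_pow_left₀ hnq hns 2) (by positivity)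
  refine (div_le_div₀ (by positivity) (mul_le_mul h1 h2 (sq_nonneg _) (Real.exp_pos _).le)
    (mul_pos hcw (Real.exp_pos _)) hw).trans (le_of_eq ?_)
  rw [div_eq_iff (mul_pos hcw (Real.exp_pos _)).ne', ← Real.exp_nat_mul]
  have e1 : Real.exp (-(2 * ((N - D) * u + c1 * Real.exp (2 * (l + u)) * s - C1))) *
      Real.exp ((2 : ℕ) * (N * u - q * |u|)) =
      Real.exp (2 * C1) * Real.exp (2 * D * u - (2 * q - b) * |u| - a * l) *
        Real.exp (-(2 * (c1 * Real.exp (2 * (l + u))) * s)) * Real.exp (a * l - b * |u|) := by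
    rw [← Real.exp_add, ← Real.exp_add, ← Real.exp_add, ← Real.exp_add]
    congr 1
    push_cast
    ring
  calc Real.exp (-(2 * ((N - D) * u + c1 * Real.exp (2 * (l + u)) * s - C1))) *
        (A ^ 2 * Real.exp ((2 : ℕ) * (N * u - q * |u|)) * s ^ 2)
      = A ^ 2 * s ^ 2 * (Real.exp (-(2 * ((N - D) * u + c1 * Real.exp (2 * (l + u)) * s - C1))) *
        Real.exp ((2 : ℕ) * (N * u - q * |u|))) := by ring
    _ = _ := by
      rw [e1]
      field_simp

theorem pw2 (p : ℕ) (hcw : 0 < cw) (hc1 : 0 < c1) (hr : 0 < r) (hrs : r ^ 2 ≤ s) (hl : 0 ≤ l)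
    (hb : 0 ≤ b) (hD : 0 ≤ D) (hm : 0 ≤ m) (hp : 2 * D + 2 * b + 2 * m ≤ p)
    (hu : -(3 / 4 * l) ≤ u)
    (hW : (N - D) * u + c1 * Real.exp (2 * (l + u)) * s - C1 ≤ Wz)
    (hw : cw * Real.exp (a * l - b * |u|) ≤ wz) :
    Real.exp (-(2 * Wz)) * (A * Real.exp (N * u)) ^ 2 / wz ≤
      A ^ 2 * Real.exp (2 * C1) / cw * (p.factorial / (2 * c1 * r ^ 2) ^ p) *
        Real.exp (-((a + m) * l)) := by
  have h1 : Real.exp (-(2 * Wz)) ≤
      Real.exp (-(2 * ((N - D) * u - C1))) * Real.exp (-(2 * (c1 * Real.exp (2 * (l + u)) * s))) := by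
    rw [← Real.exp_add]
    exact Real.exp_le_exp.2 (by linarith)
  have h3 : Real.exp (-(2 * (c1 * Real.exp (2 * (l + u)) * s))) ≤
      p.factorial / (2 * c1 * r ^ 2) ^ p * Real.exp (-(2 * p * (l + u))) := by
    have hZ : 0 < 2 * c1 * r ^ 2 * Real.exp (2 * (l + u)) := by positivity
    have h4 := exp_neg_le p hZ (Y := 2 * (c1 * Real.exp (2 * (l + u)) * s)) (by
      have : 2 * (c1 * Real.exp (2 * (l + u)) * s) = 2 * c1 * Real.exp (2 * (l + u)) * s := by ring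
      rw [this]
      calc 2 * c1 * r ^ 2 * Real.exp (2 * (l + u)) = 2 * c1 * Real.exp (2 * (l + u)) * r ^ 2 := by
            ring
        _ ≤ _ := mul_le_mul_of_nonneg_left hrs (by positivity))
    refine h4.trans (le_of_eq ?_)
    rw [mul_pow, ← Real.exp_nat_mul, ← div_div, div_eq_mul_inv, ← Real.exp_neg]
    congr 2
    ring
  have h5 : Real.exp (-(2 * Wz)) * (A * Real.exp (N * u)) ^ 2 ≤
      (Real.exp (-(2 * ((N - D) * u - C1))) * (p.factorial / (2 * c1 * r ^ 2) ^ p *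
        Real.exp (-(2 * p * (l + u))))) * (A * Real.exp (N * u)) ^ 2 :=
    mul_le_mul_of_nonneg_right (h1.trans (mul_le_mul_of_nonneg_left h3 (Real.exp_pos _).le))
      (sq_nonneg _)
  refine (div_le_div₀ (by positivity) h5 (mul_pos hcw (Real.exp_pos _)) hw).trans ?_
  rw [div_le_iff₀ (mul_pos hcw (Real.exp_pos _)), mul_pow A, ← Real.exp_nat_mul]
  have e0 := ex2 (a := a) hl hb hD hm hp hu
  have e1 : Real.exp (-(2 * ((N - D) * u - C1))) * Real.exp (-(2 * p * (l + u))) *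
      Real.exp ((2 : ℕ) * (N * u)) ≤ Real.exp (2 * C1) * Real.exp (-((a + m) * l)) *
        Real.exp (a * l - b * |u|) := by
    rw [← Real.exp_add, ← Real.exp_add, ← Real.exp_add, ← Real.exp_add]
    refine Real.exp_le_exp.2 ?_
    push_cast
    linarith
  calc Real.exp (-(2 * ((N - D) * u - C1))) * (p.factorial / (2 * c1 * r ^ 2) ^ p *
        Real.exp (-(2 * p * (l + u)))) * (A ^ 2 * Real.exp ((2 : ℕ) * (N * u)))
      = A ^ 2 * (p.factorial / (2 * c1 * r ^ 2) ^ p) * (Real.exp (-(2 * ((N - D) * u - C1))) *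
        Real.exp (-(2 * p * (l + u))) * Real.exp ((2 : ℕ) * (N * u))) := by ring
    _ ≤ A ^ 2 * (p.factorial / (2 * c1 * r ^ 2) ^ p) * (Real.exp (2 * C1) *
        Real.exp (-((a + m) * l)) * Real.exp (a * l - b * |u|)) :=
        mul_le_mul_of_nonneg_left e1 (by positivity)
    _ = _ := by
      field_simp

theorem pw3 (hcw : 0 < cw) (hc1 : 0 < c1) (hs : 0 ≤ s) (hl : 0 ≤ l) (ha : 0 ≤ a)
    (hb : 0 ≤ b) (hm : 0 ≤ m) (hD : 2 * b + a + m ≤ D)
    (hu : u < -(3 / 4 * l))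
    (hW : (N - D) * u + c1 * Real.exp (2 * (l + u)) * s - C1 ≤ Wz)
    (hw : cw * Real.exp (-(b * l) - b * |u|) ≤ wz) :
    Real.exp (-(2 * Wz)) * (A * Real.exp (N * u)) ^ 2 / wz ≤
      A ^ 2 * Real.exp (2 * C1) / cw * Real.exp (-((a + m) * l)) := by
  have h1 : Real.exp (-(2 * Wz)) ≤ Real.exp (-(2 * ((N - D) * u - C1))) := by
    refine Real.exp_le_exp.2 ?_
    have : 0 ≤ c1 * Real.exp (2 * (l + u)) * s := by positivity
    linarith
  refine (div_le_div₀ (by positivity) (mul_le_mul_of_nonneg_right h1 (sq_nonneg _))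
    (mul_pos hcw (Real.exp_pos _)) hw).trans ?_
  rw [div_le_iff₀ (mul_pos hcw (Real.exp_pos _)), mul_pow, ← Real.exp_nat_mul]
  have e0 := ex3 hl ha hb hm hD hu
  have e1 : Real.exp (-(2 * ((N - D) * u - C1))) * Real.exp ((2 : ℕ) * (N * u)) ≤
      Real.exp (2 * C1) * Real.exp (-((a + m) * l)) * Real.exp (-(b * l) - b * |u|) := by
    rw [← Real.exp_add, ← Real.exp_add, ← Real.exp_add]
    refine Real.exp_le_exp.2 ?_
    push_cast
    linarith
  calc Real.exp (-(2 * ((N - D) * u - C1))) * (A ^ 2 * Real.exp ((2 : ℕ) * (N * u)))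
      = A ^ 2 * (Real.exp (-(2 * ((N - D) * u - C1))) * Real.exp ((2 : ℕ) * (N * u))) := by ring
    _ ≤ A ^ 2 * (Real.exp (2 * C1) * Real.exp (-((a + m) * l)) * Real.exp (-(b * l) - b * |u|)) :=
        mul_le_mul_of_nonneg_left e1 (by positivity)
    _ = _ := by
      field_simp

theorem pw4 {S : ℝ} (hW : N * u + S ≤ Wz) (hw : Real.exp (-S) ≤ wz) :
    Real.exp (-(2 * Wz)) * (A * Real.exp (N * u)) ^ 2 / wz ≤ A ^ 2 * Real.exp (-S) := by
  have h1 : Real.exp (-(2 * Wz)) ≤ Real.exp (-(2 * (N * u + S))) := Real.exp_le_exp.2 (by linarith)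
  refine (div_le_div₀ (by positivity) (mul_le_mul_of_nonneg_right h1 (sq_nonneg _))
    (Real.exp_pos _) hw).trans (le_of_eq ?_)
  rw [div_eq_iff (Real.exp_pos _).ne', mul_pow, ← Real.exp_nat_mul]
  have e1 : Real.exp (-(2 * (N * u + S))) * Real.exp ((2 : ℕ) * (N * u)) =
      Real.exp (-S) * Real.exp (-S) := by
    rw [← Real.exp_add, ← Real.exp_add]
    congr 1
    push_cast
    ring
  calc Real.exp (-(2 * (N * u + S))) * (A ^ 2 * Real.exp ((2 : ℕ) * (N * u)))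
      = A ^ 2 * (Real.exp (-(2 * (N * u + S))) * Real.exp ((2 : ℕ) * (N * u))) := by ring
    _ = _ := by rw [e1]; ring

end pointwise

end Vale.Agent.P088.HY.S3
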