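import Vale.Agent.P088.R2.H673.S3.QI
import Vale.Agent.P088.R2.H673.S3.QJ
import Vale.Agent.P088.R2.H673.S3.QK

/-!
# P088, stage 3, step S6: the data of the quasimode
-/

open MeasureTheory Set Filter
open scoped ContDiff Matrix Topology

noncomputable section

namespace Vale.Agent.P088.HY.S3

open Vale.Agent.P088.LR Vale.Agent.P088.HY.QM

variable {n : ℕ}

/-- The geometry: nested open sets, the two tensors, the weight function, solvability. -/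
structure QDat (K : ℕ) (ε : ℝ) (O O1 O2 : Set (V n)) (r v d : ℝ) (s₁ s₂ : MF n)
    (G : V n → ℝ) (Λ ρ : ℝ) : Prop where
  oO : IsOpen O
  oO1 : IsOpen O1
  oO2 : IsOpen O2
  r0 : 0 < r
  r1 : r ≤ 1
  sub1 : ∀ x ∈ O1, Metric.ball x r ⊆ O
  sub2 : ∀ x ∈ O2, Metric.ball x r ⊆ O1
  v0 : 0 ≤ v
  vol : volume O ≤ ENNReal.ofReal (v ^ 2)
  d2 : 2 ≤ d
  diam : ∀ x ∈ O2, ∀ y ∈ O2, ‖x - y‖ ≤ d
  n1 : Ns O K ε s₁
  n2 : Ns O K ε s₂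
  y1 : ∀ x, (s₁ x).IsSymm
  y2 : ∀ x, (s₂ x).IsSymm
  smG : ContDiffOn ℝ ∞ G O
  Λ1 : 1 ≤ Λ
  dG : ∀ i, 1 ≤ i → i ≤ K → ∀ x ∈ O, ‖iteratedFDeriv ℝ i G x‖ ≤ Λ
  ρ1 : 1 ≤ ρ
  v11 : Solv O s₁ G ρ 1
  v21 : Solv O s₂ G ρ 1
  v12 : Solv O1 s₁ G ρ 1
  v22 : Solv O1 s₂ G ρ 1

section

variable {K : ℕ} {ε : ℝ} {O O1 O2 : Set (V n)} {r v d : ℝ} {s₁ s₂ : MF n}
    {G : V n → ℝ} {Λ ρ : ℝ}

theorem QDat.s1 (h : QDat K ε O O1 O2 r v d s₁ s₂ G Λ ρ) : O1 ⊆ O := fun x hx =>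
  h.sub1 x hx (Metric.mem_ball_self h.r0)

theorem QDat.s2 (h : QDat K ε O O1 O2 r v d s₁ s₂ G Λ ρ) : O2 ⊆ O1 := fun x hx =>
  h.sub2 x hx (Metric.mem_ball_self h.r0)

theorem QDat.s3 (h : QDat K ε O O1 O2 r v d s₁ s₂ G Λ ρ) : O2 ⊆ O := h.s2.trans h.s1

theorem QDat.mono {K' : ℕ} {ε' : ℝ} (h : QDat K ε O O1 O2 r v d s₁ s₂ G Λ ρ) (hK : K' ≤ K)
    (hε : ε ≤ ε') : QDat K' ε' O O1 O2 r v d s₁ s₂ G Λ ρ :=
  { h with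
    n1 := (h.n1.ord hK).mono hε
    n2 := (h.n2.ord hK).mono hε
    dG := fun i h1 h2 => h.dG i h1 (h2.trans hK) }

/-- `G` is Lipschitz on small balls. -/
theorem QDat.lip (h : QDat K ε O O1 O2 r v d s₁ s₂ G Λ ρ) (hK : 1 ≤ K) {x y : V n}
    (hx : Metric.ball x r ⊆ O) (hy : y ∈ Metric.ball x r) : |G y - G x| ≤ Λ * ‖y - x‖ := by
  have h1 := abs_sub_le_L h.oO (convex_ball x r) hx h.smG (m := Λ)
    (fun w hw => h.dG 1 le_rfl hK w (hx hw)) (Metric.mem_ball_self h.r0) hy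
  rwa [norm_sub_rev y x]

theorem QDat.lg (h : QDat K ε O O1 O2 r v d s₁ s₂ G Λ ρ) (hK : 1 ≤ K) : LG O1 r Λ G :=
  fun x hx _ hy => h.lip hK (h.sub1 x hx) hy

end

/-- The logarithm of `k / κ`. -/
def un (N ρ Gs : ℝ) (G : V n → ℝ) (x : V n) : ℝ := ρ / N * (G x - Gs)

theorem N_un {N ρ Gs : ℝ} (hN : 0 < N) (G : V n → ℝ) (x : V n) :
    N * un N ρ Gs G x = ρ * (G x - Gs) := by
  unfold un; field_simp

/-- The tensor: bounds of the jets. -/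
structure HDat (K : ℕ) (O : Set (V n)) (h : MF n) (χ G : V n → ℝ) (ρ Gs N l q B b : ℝ) : Prop where
  hN : 0 < N
  hq : 0 ≤ q
  hB : 0 ≤ B
  sy : ∀ x, (h x).IsSymm
  jh : ∀ i j, Jl O K (fun x => B * Real.exp (-(N * un N ρ Gs G x) - q * |un N ρ Gs G x|))
    (fun x => h x i j)
  jc : Jl O K (fun _ => b) χ
  sc : ∀ x ∈ O, χ x ≠ 0 → -(l / 2) ≤ un N ρ Gs G x

/-- The leading coefficient, normalised. -/
def kq (s h : MF n) (χ G : V n → ℝ) (ρ Gs : ℝ) : MF n := K2 s h χ (fun x => G x - Gs) ρ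

theorem kqJ (n K : ℕ) (hn : 1 ≤ n) : ∃ C : ℝ, 0 ≤ C ∧ ∀ {ε : ℝ} {O O1 O2 : Set (V n)} {r v d : ℝ}
    {s₁ s₂ : MF n} {G : V n → ℝ} {Λ ρ : ℝ}, ε ≤ 1 / 2 → QDat K ε O O1 O2 r v d s₁ s₂ G Λ ρ →
    ∀ {h : MF n} {χ : V n → ℝ} {Gs N l q B b : ℝ}, HDat K O h χ G ρ Gs N l q B b →
    ∀ i j, Jl O K (fun x => C * b * (ρ * Λ) ^ K * B *
      Real.exp (N * un N ρ Gs G x - q * |un N ρ Gs G x|)) (fun x => kq s₁ h χ G ρ Gs x i j) := by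
  obtain ⟨C, hC, H⟩ := k2J n K hn
  refine ⟨C, hC, ?_⟩
  intro ε O O1 O2 r v d s₁ s₂ G Λ ρ hε hQ h χ Gs N l q B b hH i j
  have hG : ContDiffOn ℝ ∞ (fun x => G x - Gs) O := hQ.smG.sub contDiffOn_const
  have hdG : ∀ i, 1 ≤ i → i ≤ K → ∀ x ∈ O, ‖iteratedFDeriv ℝ i (fun x => G x - Gs) x‖ ≤ Λ := by
    intro i h1 h2 x hx
    have e : (fun x => G x - Gs) = G - fun _ => Gs := rfl
    rw [e, iteratedFDeriv_sub_apply
      ((hQ.smG.contDiffAt (hQ.oO.mem_nhds hx)).of_le (by exact_mod_cast le_top))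
      contDiffAt_const, iteratedFDeriv_const_of_ne (by omega)]
    simpa using hQ.dG i h1 h2 x hx
  refine (H O hQ.oO ε s₁ h _ hε hQ.n1 hH.jh χ b hH.jc _ Λ ρ hG hQ.Λ1 hQ.ρ1 hdG i j).mono
    fun x _ => le_of_eq ?_
  have e : Real.exp (2 * ρ * (G x - Gs)) * (B * Real.exp (-(N * un N ρ Gs G x) -
      q * |un N ρ Gs G x|)) = B * Real.exp (N * un N ρ Gs G x - q * |un N ρ Gs G x|) := by
    rw [mul_left_comm, ← Real.exp_add]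
    congr 2
    have := N_un (ρ := ρ) (Gs := Gs) hH.hN G x
    linarith
  rw [e]
  ring

end Vale.Agent.P088.HY.S3
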