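import Vale.Agent.P088.R2.H673.S3.SD

/-!
# P088, stage 3, step S6: local bounds of the leading coefficient and of the residuals
-/

open MeasureTheory Set Filter
open scoped ContDiff Matrix Topology

noncomputable section

namespace Vale.Agent.P088.HY.S3

open Vale.Agent.P088.LR Vale.Agent.P088.HY.QM

variable {n : ℕ}

theorem kq_zero {s h : MF n} {χ G : V n → ℝ} {ρ Gs : ℝ} {x : V n} (hx : χ x = 0) (i j : Fin n) :
    kq s h χ G ρ Gs x i j = 0 := by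
  unfold kq
  rw [K2_apply, hx]; simp

theorem kq_symm {s h : MF n} {χ G : V n → ℝ} {ρ Gs : ℝ} (hs : ∀ x, (s x).IsSymm)
    (hh : ∀ x, (h x).IsSymm) (x : V n) : (kq s h χ G ρ Gs x).IsSymm := K2_symm (hs x) (hh x)

section loc

variable {K : ℕ} {ε : ℝ} {O O1 O2 : Set (V n)} {r v d : ℝ} {s₁ s₂ : MF n}
    {G : V n → ℝ} {Λ ρ : ℝ} {h : MF n} {χ : V n → ℝ} {Gs N l q B b : ℝ}

theorem kq_ipm (hn : 1 ≤ n) (hε : ε ≤ 1 / 2) (hQ : QDat K ε O O1 O2 r v d s₁ s₂ G Λ ρ) {x : V n}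
    (hx : x ∈ O) : ipm s₁ (kq s₁ h χ G ρ Gs) x = 0 :=
  K2_ipm (lt_of_lt_of_le (by norm_num) (ipm_pos' hn hQ.n1 hε hx)).ne'

theorem un_near (hQ : QDat K ε O O1 O2 r v d s₁ s₂ G Λ ρ) (hK : 1 ≤ K) (hN : 0 < N) {t : ℝ}
    (htr : 2 * t ≤ r) {x w : V n} (hx : Metric.ball x r ⊆ O)
    (hw : w ∈ Metric.ball x (2 * t)) :
    |un N ρ Gs G w - un N ρ Gs G x| ≤ ρ / N * (Λ * (2 * t)) := by
  have h1 := hQ.lip hK hx (Metric.ball_subset_ball htr hw)
  have h2 : ‖w - x‖ ≤ 2 * t := (mem_ball_iff_norm.1 hw).le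
  have h3 : 0 ≤ ρ / N := div_nonneg (by linarith [hQ.ρ1]) hN.le
  have e : un N ρ Gs G w - un N ρ Gs G x = ρ / N * (G w - G x) := by unfold un; ring
  rw [e, abs_mul, abs_of_nonneg h3]
  exact mul_le_mul_of_nonneg_left (h1.trans (mul_le_mul_of_nonneg_left h2
    (by linarith [hQ.Λ1]))) h3

theorem exp_near {u w c : ℝ} (hN : 0 ≤ N) (hq : 0 ≤ q) (h : |w - u| ≤ c) (hc : (N + q) * c ≤ 1) :
    Real.exp (N * w - q * |w|) ≤ 3 * Real.exp (N * u - q * |u|) := by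
  have h1 : |u| - |w| ≤ |w - u| := by
    have := abs_sub_abs_le_abs_sub u w
    rwa [abs_sub_comm u w] at this
  have h2 : w - u ≤ |w - u| := le_abs_self _
  have h3 : N * w - q * |w| ≤ 1 + (N * u - q * |u|) := by
    have h4 : N * (w - u) ≤ N * c := mul_le_mul_of_nonneg_left (h2.trans h) hN
    have h5 : q * (|u| - |w|) ≤ q * c := mul_le_mul_of_nonneg_left (h1.trans h) hq
    nlinarith
  calc Real.exp (N * w - q * |w|) ≤ Real.exp (1 + (N * u - q * |u|)) := Real.exp_le_exp.2 h3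
    _ = Real.exp 1 * Real.exp (N * u - q * |u|) := Real.exp_add _ _
    _ ≤ 3 * Real.exp (N * u - q * |u|) :=
      mul_le_mul_of_nonneg_right (by linarith [Real.exp_one_lt_d9]) (Real.exp_pos _).le

/-- The smallness conditions for the radius `t` of the cut-off near the diagonal. -/
structure TDat (r Λ ρ N l q t : ℝ) : Prop where
  t0 : 0 < t
  tr : 2 * t ≤ r
  c1 : (N + q) * (ρ / N * (Λ * (2 * t))) ≤ 1
  c2 : ρ / N * (Λ * (2 * t)) ≤ l / 4

/-- The jets of the leading coefficient near `x`. -/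
theorem kq_loc (hQ : QDat K ε O O1 O2 r v d s₁ s₂ G Λ ρ) (hK : 1 ≤ K)
    (hH : HDat K O h χ G ρ Gs N l q B b) {t M : ℝ} (hT : TDat r Λ ρ N l q t) (hM : 0 ≤ M)
    (hJ : ∀ i j, Jl O K (fun x => M *
      Real.exp (N * un N ρ Gs G x - q * |un N ρ Gs G x|)) (fun x => kq s₁ h χ G ρ Gs x i j))
    {x : V n} (hx : Metric.ball x r ⊆ O) :
    (∀ i j, Jl (Metric.ball x (2 * t)) K
      (fun _ => 3 * M * Real.exp (N * un N ρ Gs G x - q * |un N ρ Gs G x|))
      (fun x => kq s₁ h χ G ρ Gs x i j)) ∧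
    (un N ρ Gs G x < -(3 / 4 * l) → ∀ w ∈ Metric.ball x (2 * t), ∀ i j,
      kq s₁ h χ G ρ Gs w i j = 0) := by
  have hsub : Metric.ball x (2 * t) ⊆ O := (Metric.ball_subset_ball hT.tr).trans hx
  constructor
  · intro i j
    refine ((hJ i j).sub_set hsub).mono fun w hw => ?_
    have h1 := un_near (Gs := Gs) hQ hK hH.hN hT.tr hx hw
    have h2 := exp_near hH.hN.le hH.hq h1 hT.c1
    calc M * Real.exp (N * un N ρ Gs G w - q * |un N ρ Gs G w|) ≤
          M * (3 * Real.exp (N * un N ρ Gs G x - q * |un N ρ Gs G x|)) :=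
          mul_le_mul_of_nonneg_left h2 hM
      _ = _ := by ring
  · intro hu w hw i j
    have h1 := un_near (Gs := Gs) hQ hK hH.hN hT.tr hx hw
    have h2 := (abs_le.1 (h1.trans hT.c2)).2
    refine kq_zero ?_ i j
    by_contra h3
    have h4 := hH.sc w (hsub hw) h3
    linarith

/-- The local bound of the residuals. -/
theorem res_loc (hn : 1 ≤ n) (hε : ε ≤ 1 / 2) (hQ : QDat K ε O O1 O2 r v d s₁ s₂ G Λ ρ)
    (hK : 2 ≤ K) (hH : HDat K O h χ G ρ Gs N l q B b) {t M : ℝ} (hT : TDat r Λ ρ N l q t)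
    (hM : 0 ≤ M)
    (hJ : ∀ i j, Jl O K (fun x => M *
      Real.exp (N * un N ρ Gs G x - q * |un N ρ Gs G x|)) (fun x => kq s₁ h χ G ρ Gs x i j))
    {z : VV n} (hz : z.1 ∈ O2) (hzt : ‖z.1 - z.2‖ ≤ t) :
    (un N ρ Gs G z.1 < -(3 / 4 * l) → Rx s₁ (kq s₁ h χ G ρ Gs) z = 0 ∧
      Ry s₂ (kq s₁ h χ G ρ Gs) z = 0) ∧
    |Rx s₁ (kq s₁ h χ G ρ Gs) z| ≤ 3 * (n * (n * 4) + n * (n * (n * (n * 1)))) * M *
      Real.exp (N * un N ρ Gs G z.1 - q * |un N ρ Gs G z.1|) * ‖z.1 - z.2‖ ^ 2 ∧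
    |Ry s₂ (kq s₁ h χ G ρ Gs) z| ≤ 3 * (n * (n * 4) + n * (n * (n * (n * 1)))) * M *
      Real.exp (N * un N ρ Gs G z.1 - q * |un N ρ Gs G z.1|) * ‖z.1 - z.2‖ ^ 2 := by
  have hxr : Metric.ball z.1 r ⊆ O := (hQ.sub2 _ hz).trans hQ.s1
  obtain ⟨j1, j2⟩ := kq_loc hQ (by omega) hH hT hM hJ hxr
  have ht0 := hT.t0
  have hx : z.1 ∈ Metric.ball z.1 (2 * t) := Metric.mem_ball_self (by linarith)
  have hy : z.2 ∈ Metric.ball z.1 (2 * t) := by
    rw [mem_ball_iff_norm, norm_sub_rev]; linarith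
  have hsub : Metric.ball z.1 (2 * t) ⊆ O := (Metric.ball_subset_ball hT.tr).trans hxr
  set m := 3 * M * Real.exp (N * un N ρ Gs G z.1 - q * |un N ρ Gs G z.1|) with hm
  have hm0 : 0 ≤ m := by positivity
  have hs1 : ∀ i j, Jl (Metric.ball z.1 (2 * t)) 2 (fun _ => 2) (fun x => s₁ x i j) := fun i j =>
    (((hQ.n1.entry hQ.oO (by linarith) i j).ord hK).sub_set hsub)
  have hs2 : ∀ i j, |s₂ z.2 i j| ≤ 2 := fun i j =>
    (hQ.n2.entry hQ.oO (by linarith) i j).abs (hsub hy)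
  have a1 := Rx_le Metric.isOpen_ball (convex_ball z.1 (2 * t)) subset_rfl hs1
    (fun i j => (j1 i j).1) (m := m) (fun i j w hw => (j1 i j).abs hw)
    (fun i j w hw => (j1 i j).2 1 (by omega) w hw) hx hy (kq_ipm hn hε hQ (hsub hy))
  have a2 := Ry_le (s := s₂) (k := kq s₁ h χ G ρ Gs) (x := z.1) (y := z.2) hs2 hm0
    (fun i j a b => ((((j1 i j).ord hK).pd Metric.isOpen_ball b).pd (k := 0)
      Metric.isOpen_ball a).abs hy)
  refine ⟨fun hu => ?_, ?_, ?_⟩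
  · have j3 := j2 hu
    constructor
    · unfold Rx
      simp [j3 _ hx, j3 _ hy]
    · unfold Ry
      have e1 : ∀ i j a b, pd a (pd b fun y => kq s₁ h χ G ρ Gs y i j) z.2 = 0 := by
        intro i j a b
        have e2 : (fun y => kq s₁ h χ G ρ Gs y i j) =ᶠ[𝓝 z.2] fun _ => 0 :=
          eventuallyEq_of_mem (Metric.isOpen_ball.mem_nhds hy) fun w hw => j3 w hw i j
        have e3 : pd b (fun y => kq s₁ h χ G ρ Gs y i j) =ᶠ[𝓝 z.2] fun _ => 0 := by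
          filter_upwards [e2.eventuallyEq_nhds] with w hw
          rw [pd_congr hw, pd_const]
        rw [pd_congr e3, pd_const]
      simp [e1]
  · refine a1.trans ?_
    have h3 : (n : ℝ) * (n * 4) ≤ n * (n * 4) + n * (n * (n * (n * 1))) := by
      have : (0 : ℝ) ≤ n * (n * (n * (n * 1))) := by positivity
      linarith
    calc (n : ℝ) * (n * 4) * (m * ‖z.1 - z.2‖ ^ 2) ≤
          (n * (n * 4) + n * (n * (n * (n * 1)))) * (m * ‖z.1 - z.2‖ ^ 2) :=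
          mul_le_mul_of_nonneg_right h3 (by positivity)
      _ = _ := by rw [hm]; ring
  · refine a2.trans ?_
    have h3 : (n : ℝ) * (n * (n * (n * 1))) ≤ n * (n * 4) + n * (n * (n * (n * 1))) := by
      have : (0 : ℝ) ≤ n * (n * 4) := by positivity
      linarith
    calc (n : ℝ) * (n * (n * (n * 1))) * (m * ‖z.1 - z.2‖ ^ 2) ≤
          (n * (n * 4) + n * (n * (n * (n * 1)))) * (m * ‖z.1 - z.2‖ ^ 2) :=
          mul_le_mul_of_nonneg_right h3 (by positivity)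
      _ = _ := by rw [hm]; ring

end loc

end Vale.Agent.P088.HY.S3
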