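import Vale.Agent.P088.R2.H673.S3.SE
import Vale.Agent.P088.R2.H673.S3.SC

/-!
# P088, stage 3, steps S5 and S6: the quasimode with its residuals
-/

open MeasureTheory Set Filter
open scoped ContDiff Matrix Topology

noncomputable section

namespace Vale.Agent.P088.HY.S3

open Vale.Agent.P088.LR Vale.Agent.P088.HY.QM

variable {n : ℕ}

/-- The cut-off near the diagonal. -/
structure EDat (O2 : Set (V n)) (t : ℝ) (η : VV n → ℝ) (be : ℝ) : Prop where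
  sm : ContDiff ℝ ∞ η
  ts : tsupport η ⊆ O2 ×ˢ O2
  jb : ∀ l ≤ 2, ∀ z, ‖iteratedFDeriv ℝ l η z‖ ≤ be
  le1 : ∀ z, |η z| ≤ 1
  nr : ∀ z, η z ≠ 0 → ‖z.1 - z.2‖ ≤ t

theorem EDat.near {O2 : Set (V n)} {t : ℝ} {η : VV n → ℝ} {be : ℝ}
    (h : EDat O2 t η be) {z : VV n} (hz : z ∈ tsupport η) : ‖z.1 - z.2‖ ≤ t := by
  have h1 : IsClosed {z : VV n | ‖z.1 - z.2‖ ≤ t} := by
    refine isClosed_le ?_ continuous_const
    fun_prop
  exact closure_minimal (fun z hz => h.nr z hz) h1 hz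

/-- The form of the bound of a residual. -/
def FC (u : V n → ℝ) (N q A1 A2 : ℝ) (P : Set (V n)) (η F : VV n → ℝ) (z : VV n) : Prop :=
  ∃ T1 T2 : ℝ, |F z| ≤ T1 + T2 ∧
    (T1 = 0 ∨ (z.1 ∈ P ∧
      T1 = A1 * Real.exp (N * u z.1 - q * |u z.1|) * ‖z.1 - z.2‖ ^ 2)) ∧
    (T2 = 0 ∨ (z ∈ tsupport (fderiv ℝ η) ∧ T2 = A2 * Real.exp (N * u z.1)))

theorem exp_two {ρ x y c : ℝ} (h : |y - x| ≤ c) (hc : ρ * c ≤ 1) (hρ : 0 ≤ ρ) :
    Real.exp (ρ * x) + Real.exp (ρ * y) ≤ 4 * Real.exp (ρ * x) := by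
  have h1 : ρ * y ≤ 1 + ρ * x := by
    have : ρ * (y - x) ≤ ρ * c := mul_le_mul_of_nonneg_left ((le_abs_self _).trans h) hρ
    nlinarith
  have h2 : Real.exp (ρ * y) ≤ 3 * Real.exp (ρ * x) := by
    calc Real.exp (ρ * y) ≤ Real.exp (1 + ρ * x) := Real.exp_le_exp.2 h1
      _ = Real.exp 1 * Real.exp (ρ * x) := Real.exp_add _ _
      _ ≤ 3 * Real.exp (ρ * x) :=
        mul_le_mul_of_nonneg_right (by linarith [Real.exp_one_lt_d9]) (Real.exp_pos _).le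
  linarith

/-- From the commutator bound to the form `FC`. -/
theorem fc_of {O2 : Set (V n)} {t : ℝ} {η : VV n → ℝ} {be : ℝ}
    (h : EDat O2 t η be) {F R : VV n → ℝ} {u G : V n → ℝ} {N q ρ Gs A M c B : ℝ} {P : Set (V n)}
    (hBA : 4 * B * Real.exp (ρ * Gs) ≤ A) (hB : 0 ≤ B) (hρ : 0 ≤ ρ) (hc : ρ * c ≤ 1)
    {z : VV n} (hGz : |G z.2 - G z.1| ≤ c)
    (hu : N * u z.1 = ρ * (G z.1 - Gs))
    (h1 : |F z - η z * R z| ≤ (tsupport (fderiv ℝ η)).indicator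
      (fun z => B * (Real.exp (ρ * G z.1) + Real.exp (ρ * G z.2))) z)
    (h2 : z.1 ∉ P → R z = 0)
    (h3 : |R z| ≤ M * Real.exp (N * u z.1 - q * |u z.1|) * ‖z.1 - z.2‖ ^ 2) :
    FC u N q M A P η F z := by
  classical
  have h4 : |F z| ≤ |η z * R z| + |F z - η z * R z| := by
    calc |F z| = |η z * R z + (F z - η z * R z)| := by congr 1; ring
      _ ≤ _ := abs_add_le _ _
  have h5 : |η z * R z| ≤ |R z| := by
    rw [abs_mul]
    exact mul_le_of_le_one_left (abs_nonneg _) (h.le1 z)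
  refine ⟨if z.1 ∈ P then M * Real.exp (N * u z.1 - q * |u z.1|) * ‖z.1 - z.2‖ ^ 2 else 0,
    if z ∈ tsupport (fderiv ℝ η) then A * Real.exp (N * u z.1) else 0, ?_, ?_, ?_⟩
  · refine h4.trans (add_le_add (h5.trans ?_) (h1.trans ?_))
    · split_ifs with hh
      · exact h3
      · rw [h2 hh, abs_zero]
    · split_ifs with hh
      · rw [indicator_of_mem hh]
        have h6 := exp_two hGz hc hρ
        have e : Real.exp (N * u z.1) = Real.exp (ρ * G z.1) / Real.exp (ρ * Gs) := by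
          rw [hu, ← Real.exp_sub]; congr 1; ring
        rw [e]
        calc B * (Real.exp (ρ * G z.1) + Real.exp (ρ * G z.2)) ≤ B * (4 * Real.exp (ρ * G z.1)) :=
              mul_le_mul_of_nonneg_left h6 hB
          _ = (4 * B * Real.exp (ρ * Gs)) * (Real.exp (ρ * G z.1) / Real.exp (ρ * Gs)) := by
              field_simp
          _ ≤ A * (Real.exp (ρ * G z.1) / Real.exp (ρ * Gs)) :=
              mul_le_mul_of_nonneg_right hBA (by positivity)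
      · rw [indicator_of_notMem hh]
  · split_ifs with hh
    · exact Or.inr ⟨hh, rfl⟩
    · exact Or.inl rfl
  · split_ifs with hh
    · exact Or.inr ⟨hh, rfl⟩
    · exact Or.inl rfl

/-- The points near the support of the leading coefficient. -/
def PS (k : MF n) (t : ℝ) : Set (V n) :=
  {x | ∃ w ∈ Metric.ball x (2 * t), ∃ i j, k w i j ≠ 0}

/-- The residuals vanish off `PS`. -/
theorem res_zero {s₁ s₂ k : MF n} {t : ℝ} (ht : 0 < t) {z : VV n} (hzt : ‖z.1 - z.2‖ ≤ t)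
    (h : z.1 ∉ PS k t) : Rx s₁ k z = 0 ∧ Ry s₂ k z = 0 := by
  have j3 : ∀ w ∈ Metric.ball z.1 (2 * t), ∀ i j, k w i j = 0 := by
    intro w hw i j
    by_contra h1
    exact h ⟨w, hw, i, j, h1⟩
  have hx : z.1 ∈ Metric.ball z.1 (2 * t) := Metric.mem_ball_self (by linarith)
  have hy : z.2 ∈ Metric.ball z.1 (2 * t) := by
    rw [mem_ball_iff_norm, norm_sub_rev]; linarith
  constructor
  · unfold Rx
    simp [j3 _ hx, j3 _ hy]
  · unfold Ry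
    have e1 : ∀ i j a b, pd a (pd b fun y => k y i j) z.2 = 0 := by
      intro i j a b
      have e2 : (fun y => k y i j) =ᶠ[𝓝 z.2] fun _ => 0 :=
        eventuallyEq_of_mem (Metric.isOpen_ball.mem_nhds hy) fun w hw => j3 w hw i j
      have e3 : pd b (fun y => k y i j) =ᶠ[𝓝 z.2] fun _ => 0 := by
        filter_upwards [e2.eventuallyEq_nhds] with w hw
        rw [pd_congr hw, pd_const]
      rw [pd_congr e3, pd_const]
    simp [e1]

theorem pair_main {s h : MF n} {χ G c3 : V n → ℝ} {ρ Gs : ℝ} (hs : ∀ x ∈ tsupport c3, ipm s s x ≠ 0) :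
    ∫ p, c3 p * ∑ i, ∑ j, h p i j * kq s h χ G ρ Gs p i j =
      -∫ p, c3 p * (χ p * Real.exp (2 * ρ * (G p - Gs)) * ∑ i, ∑ j, tfp s h p i j ^ 2) := by
  rw [← integral_neg]
  refine integral_congr_ae (ae_of_all _ fun p => ?_)
  show c3 p * ∑ i, ∑ j, h p i j * kq s h χ G ρ Gs p i j =
    -(c3 p * (χ p * Real.exp (2 * ρ * (G p - Gs)) * ∑ i, ∑ j, tfp s h p i j ^ 2))
  by_cases hp : p ∈ tsupport c3
  · unfold kq
    rw [K2_pair (hs p hp)]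
    ring
  · rw [image_eq_zero_of_notMem_tsupport hp]; ring

theorem pair_bd {h : MF n} {G c3 : V n → ℝ} {ρ Gs : ℝ} :
    Real.exp (-(ρ * Gs)) * ∫ p, ∑ i, ∑ j, |pd i c3 p| * (|h p i j| * Real.exp (ρ * G p)) =
      ∫ p, ∑ i, ∑ j, |pd i c3 p| * (|h p i j| * Real.exp (ρ * (G p - Gs))) := by
  rw [← integral_const_mul]
  refine integral_congr_ae (ae_of_all _ fun p => ?_)
  show Real.exp (-(ρ * Gs)) * ∑ i, ∑ j, |pd i c3 p| * (|h p i j| * Real.exp (ρ * G p)) =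
    ∑ i, ∑ j, |pd i c3 p| * (|h p i j| * Real.exp (ρ * (G p - Gs)))
  rw [Finset.mul_sum]
  refine Finset.sum_congr rfl fun i _ => ?_
  rw [Finset.mul_sum]
  refine Finset.sum_congr rfl fun j _ => ?_
  have e : Real.exp (ρ * (G p - Gs)) = Real.exp (-(ρ * Gs)) * Real.exp (ρ * G p) := by
    rw [← Real.exp_add]; congr 1; ring
  rw [e]; ring

/-- The weighted bound in the form of row QM'. -/
theorem kq_JE {K K' : ℕ} (hKK : K' ≤ K) {O : Set (V n)} {s h : MF n} {χ G : V n → ℝ}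
    {ρ Gs N q M : ℝ} (hN : 0 < N) (hq : 0 ≤ q) (hM : 0 ≤ M) {i j : Fin n}
    (hJ : Jl O K (fun x => M * Real.exp (N * un N ρ Gs G x - q * |un N ρ Gs G x|))
      (fun x => kq s h χ G ρ Gs x i j)) :
    JE O (fun x => Real.exp (ρ * G x)) K' (M * Real.exp (-(ρ * Gs)))
      (fun x => kq s h χ G ρ Gs x i j) := by
  refine (hJ.ord hKK).mono fun x _ => ?_
  rw [mul_assoc, ← Real.exp_add]
  refine mul_le_mul_of_nonneg_left (Real.exp_le_exp.2 ?_) hM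
  have h1 := N_un (ρ := ρ) (Gs := Gs) hN G x
  have h2 : 0 ≤ q * |un N ρ Gs G x| := mul_nonneg hq (abs_nonneg _)
  linarith

/-- **Steps S5 and S6 (first half)**: the quasimode `K0`, the form of its residuals, the pairing. -/
theorem qm7 (hI : RowINV) (n : ℕ) (hn : 1 ≤ n) : ∃ (K Nq : ℕ) (C ε : ℝ), 2 ≤ K ∧ 1 ≤ C ∧ 0 < ε ∧
    ε ≤ 1 / 2 ∧ ∀ {O O1 O2 : Set (V n)} {r v d : ℝ} {s₁ s₂ : MF n} {G : V n → ℝ} {Λ ρ : ℝ},
    QDat K ε O O1 O2 r v d s₁ s₂ G Λ ρ →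
    ∀ {h : MF n} {χ : V n → ℝ} {Gs N l q B b : ℝ}, HDat K O h χ G ρ Gs N l q B b → 0 ≤ b →
    ∀ {t : ℝ} {η : VV n → ℝ} {be : ℝ}, TDat r Λ ρ N l q t →
    EDat O2 t η be →
    ∃ K0 : VV n → ℝ, ContDiff ℝ ∞ K0 ∧ (∀ z ∉ tsupport η, K0 z = 0) ∧
    (∀ z ∉ tsupport (fderiv ℝ η), Lx s₁ K0 z = η z * Rx s₁ (kq s₁ h χ G ρ Gs) z ∧
      Ly s₂ K0 z = η z * Ry s₂ (kq s₁ h χ G ρ Gs) z) ∧
    (∀ z ∈ O2 ×ˢ O2, ‖z.1 - z.2‖ ≤ t →
      FC (un N ρ Gs G) N q (C * (b * (ρ * Λ) ^ K * B))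
        (C * be * d ^ 2 * (ρ * Λ / r * (v + 1)) ^ Nq * (b * (ρ * Λ) ^ K * B))
        (PS (kq s₁ h χ G ρ Gs) t) η (fun z => Lx s₁ K0 z) z ∧
      FC (un N ρ Gs G) N q (C * (b * (ρ * Λ) ^ K * B))
        (C * be * d ^ 2 * (ρ * Λ / r * (v + 1)) ^ Nq * (b * (ρ * Λ) ^ K * B))
        (PS (kq s₁ h χ G ρ Gs) t) η (fun z => Ly s₂ K0 z) z) ∧
    (∀ z, (Lx s₁ K0 z ≠ 0 ∨ Ly s₂ K0 z ≠ 0) → z ∈ O2 ×ˢ O2 ∧ ‖z.1 - z.2‖ ≤ t) ∧
    (∀ z ∈ O2 ×ˢ O2, ‖z.1 - z.2‖ ≤ t → |K0 z| ≤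
      C * d ^ 2 * (ρ * Λ / r * (v + 1)) ^ Nq * (b * (ρ * Λ) ^ K * B) *
        Real.exp (N * un N ρ Gs G z.1)) ∧
    ∀ c3 : V n → ℝ,
    (∀ x ∈ O2, ∀ j, ∑ i, pd i (fun y => h y i j) x = 0) →
    ContDiff ℝ ∞ c3 → HasCompactSupport c3 → tsupport c3 ⊆ O2 →
    (∀ p ∈ tsupport c3, ∀ᶠ z in 𝓝 ((p, p) : VV n), η z = 1) →
    |(∫ p, c3 p * ∑ i, ∑ j, h p i j * dx i (dy j K0) (p, p)) -
      ∫ p, c3 p * (χ p * Real.exp (2 * ρ * (G p - Gs)) * ∑ i, ∑ j, tfp s₁ h p i j ^ 2)| ≤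
      C * (ρ * Λ / r * (v + 1)) ^ Nq * (b * (ρ * Λ) ^ K * B) *
        ∫ p, ∑ i, ∑ j, |pd i c3 p| * (|h p i j| * Real.exp (ρ * (G p - Gs))) := by
  obtain ⟨K₀, Nq, C0, ε0, hC0, hε0, hε1, H⟩ := rowQMW hI n
  obtain ⟨C1, hC1, HJ⟩ := kqJ n (max K₀ 2) hn
  have hK2 : 2 ≤ max K₀ 2 := le_max_right _ _
  have hKK : K₀ ≤ max K₀ 2 := le_max_left _ _
  generalize max K₀ 2 = K at HJ hK2 hKK
  set cn : ℝ := n * (n * 4) + n * (n * (n * (n * 1))) with hcn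
  have hcn0 : 0 ≤ cn := by positivity
  have hC01 : 0 ≤ C0 * C1 := by positivity
  have hcC : 0 ≤ cn * C1 := by positivity
  refine ⟨K, Nq, (4 * C0 + 3 * cn + 1) * (C1 + 1), min ε0 (1 / 2), hK2, ?_,
    lt_min hε0 (by norm_num), min_le_right _ _, ?_⟩
  · refine one_le_mul_of_one_le_of_one_le ?_ (by linarith)
    linarith
  intro O O1 O2 r v d s₁ s₂ G Λ ρ hQ h χ Gs N l q B b hH hb t η be hT hE
  have hε2 : min ε0 (1 / 2) ≤ 1 / 2 := min_le_right _ _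
  have hJ0 := HJ hε2 hQ hH
  have hρ1 := hQ.ρ1
  have hΛ1 := hQ.Λ1
  have hB := hH.hB
  have hρΛ : 0 ≤ (ρ * Λ) ^ K := by positivity
  have hbb : 0 ≤ b * (ρ * Λ) ^ K * B := by positivity
  have hM1 : C1 * b * (ρ * Λ) ^ K * B = C1 * (b * (ρ * Λ) ^ K * B) := by ring
  rw [hM1] at hJ0
  generalize b * (ρ * Λ) ^ K * B = M at hbb hJ0 ⊢
  have hCM : 0 ≤ C1 * M := mul_nonneg hC1 hbb
  have hexp : 0 < Real.exp (-(ρ * Gs)) := Real.exp_pos _
  obtain ⟨Kr, e1, e2, e3, e4, e5, e6⟩ := H O O1 O2 hQ.oO hQ.oO1 hQ.oO2 r hQ.r0 hQ.r1 hQ.sub1 hQ.sub2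
    v hQ.v0 hQ.vol d hQ.d2 hQ.diam s₁ s₂ ((hQ.n1.ord hKK).mono (min_le_left _ _))
    ((hQ.n2.ord hKK).mono (min_le_left _ _)) (fun x _ => hQ.y1 x) (fun x _ => hQ.y2 x) G Λ
    hQ.smG.continuousOn hΛ1 (hQ.lg (by omega)) ρ hρ1 hQ.v11 hQ.v21 hQ.v12 hQ.v22
    (kq s₁ h χ G ρ Gs) (C1 * M * Real.exp (-(ρ * Gs))) (mul_nonneg hCM hexp.le)
    (kq_symm hQ.y1 hH.sy) (fun i j => kq_JE hKK hH.hN hH.hq hCM (hJ0 i j)) η be hE.sm hE.ts hE.jb
  have hY0 : 0 ≤ ρ * Λ / r * (v + 1) := by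
    have := hQ.r0
    have := hQ.v0
    positivity
  generalize ρ * Λ / r * (v + 1) = Y at e3 e4 e5 e6 hY0 ⊢
  have hbe : 0 ≤ be := (norm_nonneg _).trans (hE.jb 0 (Nat.zero_le _) 0)
  have hd0 : 0 ≤ d := by linarith [hQ.d2]
  have hYq : 0 ≤ Y ^ Nq := pow_nonneg hY0 _
  have hCC : 4 * C0 * C1 ≤ (4 * C0 + 3 * cn + 1) * (C1 + 1) := by nlinarith
  have hCn : 3 * cn * C1 ≤ (4 * C0 + 3 * cn + 1) * (C1 + 1) := by nlinarith
  generalize (4 * C0 + 3 * cn + 1) * (C1 + 1) = C at hCC hCn ⊢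
  have hEE : Real.exp (-(ρ * Gs)) * Real.exp (ρ * Gs) = 1 := by
    rw [← Real.exp_add, neg_add_cancel, Real.exp_zero]
  have hc : ρ * (Λ * t) ≤ 1 := by
    have h1 := hT.c1
    have h2 := hH.hN
    have h3 : (N + q) * (ρ / N * (Λ * (2 * t))) = 2 * (ρ * (Λ * t)) + q * (ρ / N * (Λ * (2 * t))) := by
      field_simp
    have h4 : 0 ≤ q * (ρ / N * (Λ * (2 * t))) := by
      have := hT.t0
      have := hH.hq
      positivity
    have h5 : 0 ≤ ρ * (Λ * t) := by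
      have := hT.t0
      positivity
    linarith
  have hGz : ∀ z : VV n, z.1 ∈ O2 → ‖z.1 - z.2‖ ≤ t → |G z.2 - G z.1| ≤ Λ * t := by
    intro z hz hzt
    have h1 := hQ.lip (by omega) ((hQ.sub2 _ hz).trans hQ.s1) (x := z.1) (y := z.2) (by
      rw [mem_ball_iff_norm, norm_sub_rev]
      have := hT.tr
      have := hT.t0
      linarith)
    refine h1.trans (mul_le_mul_of_nonneg_left ?_ (by linarith))
    rw [norm_sub_rev]; exact hzt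
  refine ⟨Kr, e1, e2, ?_, ?_, ?_, ?_, ?_⟩
  · intro z hz
    have f1 := e3 z
    have f2 := e4 z
    rw [indicator_of_notMem hz] at f1 f2
    exact ⟨by linarith [abs_nonpos_iff.1 f1], by linarith [abs_nonpos_iff.1 f2]⟩
  · intro z hz hzt
    obtain ⟨-, g2, g3⟩ := res_loc hn hε2 hQ hK2 hH hT hCM hJ0 hz.1 hzt
    have hBA : 4 * (be * (C0 * d ^ 2 * Y ^ Nq * (C1 * M * Real.exp (-(ρ * Gs))))) *
        Real.exp (ρ * Gs) ≤ C * be * d ^ 2 * Y ^ Nq * M := by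
      have h1 : 0 ≤ be * d ^ 2 * Y ^ Nq * M := by positivity
      calc 4 * (be * (C0 * d ^ 2 * Y ^ Nq * (C1 * M * Real.exp (-(ρ * Gs))))) * Real.exp (ρ * Gs)
          = (4 * C0 * C1) * (be * d ^ 2 * Y ^ Nq * M) *
            (Real.exp (-(ρ * Gs)) * Real.exp (ρ * Gs)) := by ring
        _ = (4 * C0 * C1) * (be * d ^ 2 * Y ^ Nq * M) := by rw [hEE, mul_one]
        _ ≤ C * (be * d ^ 2 * Y ^ Nq * M) := mul_le_mul_of_nonneg_right hCC h1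
        _ = _ := by ring
    have hB0 : 0 ≤ be * (C0 * d ^ 2 * Y ^ Nq * (C1 * M * Real.exp (-(ρ * Gs)))) := by positivity
    have hRb : ∀ X : ℝ, |X| ≤ 3 * cn * (C1 * M) *
        Real.exp (N * un N ρ Gs G z.1 - q * |un N ρ Gs G z.1|) * ‖z.1 - z.2‖ ^ 2 →
        |X| ≤ C * M * Real.exp (N * un N ρ Gs G z.1 - q * |un N ρ Gs G z.1|) *
          ‖z.1 - z.2‖ ^ 2 := by
      intro X hX
      refine hX.trans (mul_le_mul_of_nonneg_right (mul_le_mul_of_nonneg_right ?_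
        (Real.exp_pos _).le) (sq_nonneg _))
      calc 3 * cn * (C1 * M) = 3 * cn * C1 * M := by ring
        _ ≤ C * M := mul_le_mul_of_nonneg_right hCn hbb
    have g1 : z.1 ∉ PS (kq s₁ h χ G ρ Gs) t → Rx s₁ (kq s₁ h χ G ρ Gs) z = 0 ∧
        Ry s₂ (kq s₁ h χ G ρ Gs) z = 0 := fun hz => res_zero hT.t0 hzt hz
    exact ⟨fc_of hE hBA hB0 (by linarith) hc (hGz z hz.1 hzt) (N_un hH.hN G z.1) (e3 z)
      (fun hu => (g1 hu).1) (hRb _ g2),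
      fc_of hE hBA hB0 (by linarith) hc (hGz z hz.1 hzt) (N_un hH.hN G z.1) (e4 z)
      (fun hu => (g1 hu).2) (hRb _ g3)⟩
  · intro z hz
    have hz' : z ∈ tsupport η := by
      by_contra hzn
      have h1 : Kr =ᶠ[𝓝 z] fun _ => 0 := by
        have : IsOpen (tsupport η)ᶜ := (isClosed_tsupport η).isOpen_compl
        filter_upwards [this.mem_nhds hzn] with w hw using e2 w hw
      rcases hz with hz | hz
      · exact hz (by rw [Lx_congr h1]; unfold Lx dx; simp)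
      · exact hz (by rw [Ly_congr h1]; unfold Ly dy; simp)
    exact ⟨hE.ts hz', hE.near hz'⟩
  · intro z hz hzt
    refine (e5 z hz).trans ?_
    have h6 := exp_two (hGz z hz.1 hzt) hc (by linarith : 0 ≤ ρ)
    have h7 : |η z| ≤ 1 := hE.le1 z
    have h8 : 0 ≤ C0 * d ^ 2 * Y ^ Nq * (C1 * M * Real.exp (-(ρ * Gs))) := by positivity
    have h9 : Real.exp (N * un N ρ Gs G z.1) = Real.exp (-(ρ * Gs)) * Real.exp (ρ * G z.1) := by
      rw [N_un hH.hN, ← Real.exp_add]; congr 1; ring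
    calc |η z| * (C0 * d ^ 2 * Y ^ Nq * (C1 * M * Real.exp (-(ρ * Gs)))) *
          (Real.exp (ρ * G z.1) + Real.exp (ρ * G z.2))
        ≤ 1 * (C0 * d ^ 2 * Y ^ Nq * (C1 * M * Real.exp (-(ρ * Gs)))) *
          (4 * Real.exp (ρ * G z.1)) :=
          mul_le_mul (mul_le_mul_of_nonneg_right h7 h8) h6 (by positivity) (by positivity)
      _ = (4 * C0 * C1) * (d ^ 2 * Y ^ Nq * M *
          (Real.exp (-(ρ * Gs)) * Real.exp (ρ * G z.1))) := by ring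
      _ ≤ C * (d ^ 2 * Y ^ Nq * M * (Real.exp (-(ρ * Gs)) * Real.exp (ρ * G z.1))) :=
          mul_le_mul_of_nonneg_right hCC (by positivity)
      _ = _ := by rw [h9]; ring
  · intro c3 hdv hc3 hcs hts hη1
    have f1 := e6 h c3 (fun i j => (hH.jh i j).1.mono hQ.s3) (fun x _ => hH.sy x) hdv hc3 hcs hts hη1
    rw [pair_main fun x hx => (lt_of_lt_of_le (by norm_num)
      (ipm_pos' hn hQ.n1 hε2 (hQ.s3 (hts hx)))).ne', ← sub_eq_add_neg] at f1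
    refine f1.trans ?_
    rw [← pair_bd]
    have h10 : 0 ≤ ∫ p, ∑ i, ∑ j, |pd i c3 p| * (|h p i j| * Real.exp (ρ * G p)) :=
      integral_nonneg fun p => Finset.sum_nonneg fun i _ => Finset.sum_nonneg fun j _ =>
        mul_nonneg (abs_nonneg _) (mul_nonneg (abs_nonneg _) (Real.exp_pos _).le)
    have h11 : C0 * C1 ≤ C := by nlinarith
    calc C0 * Y ^ Nq * (C1 * M * Real.exp (-(ρ * Gs))) *
          ∫ p, ∑ i, ∑ j, |pd i c3 p| * (|h p i j| * Real.exp (ρ * G p))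
        = (C0 * C1) * (Y ^ Nq * M * (Real.exp (-(ρ * Gs)) *
          ∫ p, ∑ i, ∑ j, |pd i c3 p| * (|h p i j| * Real.exp (ρ * G p)))) := by ring
      _ ≤ C * (Y ^ Nq * M * (Real.exp (-(ρ * Gs)) *
          ∫ p, ∑ i, ∑ j, |pd i c3 p| * (|h p i j| * Real.exp (ρ * G p)))) :=
          mul_le_mul_of_nonneg_right h11 (by positivity)
      _ = _ := by ring

end Vale.Agent.P088.HY.S3
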