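import Vale.Agent.P088.R2.H673.S3.SF

/-!
# P088, stage 3: the jets of the residual on diagonal balls
-/

open MeasureTheory Set Filter
open scoped ContDiff Matrix Topology

noncomputable section

namespace Vale.Agent.P088.HY.S3

open Vale.Agent.P088.LR Vale.Agent.P088.HY.QM

variable {n : ℕ}

/-- The jets of the residual on a diagonal ball, on which the cut-off is `1`. -/
theorem diagJ {K : ℕ} (hK : 2 ≤ K) {p : V n} {lam m : ℝ} (hlam : 2 ≤ lam) (hm : 0 ≤ m)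
    {s₁ s₂ k : MF n} {η K0 : VV n → ℝ}
    (hs₁ : ∀ i j, Jl (Metric.ball p (2 / lam)) (K + 1) (fun _ => 2) (fun x => s₁ x i j))
    (hs₂ : ∀ i j, Jl (Metric.ball p (2 / lam)) (K + 1) (fun _ => 2) (fun x => s₂ x i j))
    (hk : ∀ i j, Jl (Metric.ball p (2 / lam)) (K + 2) (fun _ => m) (fun x => k x i j))
    (h0 : ∀ y ∈ Metric.ball p (2 / lam), ipm s₁ k y = 0)
    (hη : ∀ z ∈ Metric.ball ((p, p) : VV n) (2 / lam), η z = 1)
    (hF : ∀ z ∉ tsupport (fderiv ℝ η), Lx s₁ K0 z = η z * Rx s₁ k z ∧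
      Ly s₂ K0 z = η z * Ry s₂ k z) :
    ∀ l ≤ K, ∀ z ∈ Metric.ball ((p, p) : VV n) (2 / lam),
      ‖iteratedFDeriv ℝ l (fun z => Lx s₁ K0 z + Ly s₂ K0 z) z‖ ≤
        32 * cJ n K * m / lam ^ 2 * lam ^ l := by
  have hl0 : 0 < lam := by linarith
  have hbb : Metric.ball ((p, p) : VV n) (2 / lam) =
      Metric.ball p (2 / lam) ×ˢ Metric.ball p (2 / lam) := (ball_prod_same p p _).symm
  have hd : ∀ x ∈ Metric.ball p (2 / lam), ∀ y ∈ Metric.ball p (2 / lam), ‖x - y‖ ≤ 4 / lam := by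
    intro x hx y hy
    have h1 := mem_ball_iff_norm.1 hx
    have h2 := mem_ball_iff_norm.1 hy
    calc ‖x - y‖ = ‖(x - p) - (y - p)‖ := by congr 1; abel
      _ ≤ ‖x - p‖ + ‖y - p‖ := norm_sub_le _ _
      _ ≤ 2 / lam + 2 / lam := add_le_add h1.le h2.le
      _ = 4 / lam := by ring
  have h42 : 4 / lam ≤ 2 := by rw [div_le_iff₀ hl0]; linarith
  have hd2 : ∀ x ∈ Metric.ball p (2 / lam), ∀ y ∈ Metric.ball p (2 / lam), ‖x - y‖ ≤ 2 :=
    fun x hx y hy => (hd x hx y hy).trans h42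
  obtain ⟨a1, a2, a3⟩ := RxJ hK Metric.isOpen_ball (convex_ball p (2 / lam)) hd2 hm hs₁ hk h0
  obtain ⟨b1, b2, b3⟩ := RyJ hK Metric.isOpen_ball (convex_ball p (2 / lam)) hd2 hm
    (fun i j => (hs₂ i j).ord (Nat.le_succ K)) hk
  have hU : IsOpen (Metric.ball p (2 / lam) ×ˢ Metric.ball p (2 / lam)) :=
    Metric.isOpen_ball.prod Metric.isOpen_ball
  intro l hl z hz
  have hz' := hz
  rw [hbb] at hz'
  have e : (fun z => Lx s₁ K0 z + Ly s₂ K0 z) =ᶠ[𝓝 z] fun z => Rx s₁ k z + Ry s₂ k z := by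
    refine eventuallyEq_of_mem (Metric.isOpen_ball.mem_nhds hz) fun w hw => ?_
    have h1 : w ∉ tsupport (fderiv ℝ η) := by
      rw [notMem_tsupport_iff_eventuallyEq]
      have h2 : ∀ᶠ y in 𝓝 w, η =ᶠ[𝓝 y] fun _ => 1 :=
        (eventuallyEq_of_mem (Metric.isOpen_ball.mem_nhds hw) fun y hy => hη y hy).eventuallyEq_nhds
      filter_upwards [h2] with y hy
      rw [hy.fderiv_eq]; simp
    obtain ⟨h3, h4⟩ := hF w h1
    show Lx s₁ K0 w + Ly s₂ K0 w = Rx s₁ k w + Ry s₂ k w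
    rw [h3, h4, hη w hw]; ring
  rw [(Filter.EventuallyEq.iteratedFDeriv ℝ e l).eq_of_nhds]
  have hsum : (fun z => Rx s₁ k z + Ry s₂ k z) = (Rx s₁ k) + (Ry s₂ k) := rfl
  rw [hsum, iteratedFDeriv_add_apply ((a3.cda hU hz').of_le (by exact_mod_cast le_top))
    ((b3.cda hU hz').of_le (by exact_mod_cast le_top))]
  refine (norm_add_le _ _).trans ?_
  have hc0 := cJ_nonneg n K
  have hcm : 0 ≤ cJ n K * m := mul_nonneg hc0 hm
  have hdz : ‖z.1 - z.2‖ ≤ 4 / lam := hd _ hz'.1 _ hz'.2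
  have key : ∀ R : VV n → ℝ, (|R z| ≤ cJ n K * m * ‖z.1 - z.2‖ ^ 2) →
      (‖iteratedFDeriv ℝ 1 R z‖ ≤ cJ n K * m * ‖z.1 - z.2‖) →
      (‖iteratedFDeriv ℝ l R z‖ ≤ cJ n K * m) →
      ‖iteratedFDeriv ℝ l R z‖ ≤ 16 * cJ n K * m / lam ^ 2 * lam ^ l := by
    intro R r0 r1 r2
    have h16 : 16 * cJ n K * m / lam ^ 2 = cJ n K * m * (4 / lam) ^ 2 := by
      field_simp; ring
    rw [h16]
    rcases Nat.lt_or_ge l 2 with h | h
    · interval_cases l
      · rw [norm_iteratedFDeriv_zero, Real.norm_eq_abs, pow_zero, mul_one]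
        exact r0.trans (mul_le_mul_of_nonneg_left
          (pow_le_pow_left₀ (norm_nonneg _) hdz 2) hcm)
      · refine (r1.trans (mul_le_mul_of_nonneg_left hdz hcm)).trans ?_
        rw [pow_one]
        have h5 : 4 / lam ≤ (4 / lam) ^ 2 * lam := by
          rw [div_pow, div_mul_eq_mul_div, div_le_div_iff₀ hl0 (by positivity)]
          nlinarith
        calc cJ n K * m * (4 / lam) ≤ cJ n K * m * ((4 / lam) ^ 2 * lam) :=
              mul_le_mul_of_nonneg_left h5 hcm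
          _ = _ := by ring
    · have h5 : 1 ≤ (4 / lam) ^ 2 * lam ^ l := by
        have h6 : lam ^ 2 ≤ lam ^ l := pow_le_pow_right₀ (by linarith) h
        rw [div_pow, div_mul_eq_mul_div, le_div_iff₀ (by positivity)]
        nlinarith
      calc ‖iteratedFDeriv ℝ l R z‖ ≤ cJ n K * m * 1 := by rw [mul_one]; exact r2
        _ ≤ cJ n K * m * ((4 / lam) ^ 2 * lam ^ l) := mul_le_mul_of_nonneg_left h5 hcm
        _ = _ := by ring
  have k1 := key (Rx s₁ k) (a1 z hz') (a2 z hz') (a3.2 l hl z hz')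
  have k2 := key (Ry s₂ k) (b1 z hz') (b2 z hz') (b3.2 l hl z hz')
  calc ‖iteratedFDeriv ℝ l (Rx s₁ k) z‖ + ‖iteratedFDeriv ℝ l (Ry s₂ k) z‖
      ≤ 16 * cJ n K * m / lam ^ 2 * lam ^ l + 16 * cJ n K * m / lam ^ 2 * lam ^ l :=
        add_le_add k1 k2
    _ = _ := by ring

end Vale.Agent.P088.HY.S3
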